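import Mathlib

/-! A subdivision checker for nonnegativity of integer polynomials on the unit cube.
A polynomial is kept as a multi-homogeneous form (scaled Bernstein coefficients).  A signed
coefficient `a - b` is stored as the natural number `a + bb * b`. -/

namespace Vale.Agent.P219.Bn

/-- Vectors with `n + 1` entries. -/
def V (α : Type) (n : ℕ) : Type := Nat.rec α (fun _ T => α × T) n

section
variable {α β : Type}

/-- Value of a binary form. -/
noncomputable def ev (e : α → ℝ) (s t : ℝ) (n : ℕ) : V α n → ℝ :=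
  Nat.rec (motive := fun n => V α n → ℝ) e
    (fun n ih p => Prod.rec (fun a p => e a * t ^ (n + 1) + s * ih p) p) n

noncomputable def zp (f : α → α → α) (n : ℕ) : V α n → V α n → V α n :=
  Nat.rec (motive := fun n => V α n → V α n → V α n) f
    (fun _ ih p q => Prod.rec (fun a p => Prod.rec (fun b q => (f a b, ih p q)) q) p) n

noncomputable def mp (f : α → α) (n : ℕ) : V α n → V α n :=
  Nat.rec (motive := fun n => V α n → V α n) f
    (fun _ ih p => Prod.rec (fun a p => (f a, ih p)) p) n

noncomputable def al (f : α → Bool) (n : ℕ) : V α n → Bool :=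
  Nat.rec (motive := fun n => V α n → Bool) f
    (fun _ ih p => Prod.rec (fun a p => Bool.rec false (ih p) (f a)) p) n

noncomputable def st (f : α → α → α) (n : ℕ) : α → V α n → V α (n + 1) :=
  Nat.rec (motive := fun n => α → V α n → V α (n + 1)) (fun c a => (f c a, a))
    (fun _ ih c p => Prod.rec (fun a p => (f c a, ih a p)) p) n

noncomputable def sh (f : α → α → α) (n : ℕ) : V α n → V α n :=
  Nat.rec (motive := fun n => V α n → V α n) (fun a => a)
    (fun n ih p => Prod.rec (fun a p => st f n a (ih p)) p) n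

noncomputable def sn (c : α) (n : ℕ) : V α n → V α (n + 1) :=
  Nat.rec (motive := fun n => V α n → V α (n + 1)) (fun a => (a, c))
    (fun _ ih p => Prod.rec (fun a p => (a, ih p)) p) n

noncomputable def rv (n : ℕ) : V α n → V α n :=
  Nat.rec (motive := fun n => V α n → V α n) (fun a => a)
    (fun n ih p => Prod.rec (fun a p => sn a n (ih p)) p) n

noncomputable def db (g : ℕ → α → α) (n : ℕ) : ℕ → V α n → V α n :=
  Nat.rec (motive := fun n => ℕ → V α n → V α n) g
    (fun _ ih k p => Prod.rec (fun a p => (g k a, ih (Nat.mul 2 k) p)) p) n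

noncomputable def cvV (c : β → α) (z : α) (n : ℕ) : List β → V α n :=
  Nat.rec (motive := fun n => List β → V α n) (fun p => List.casesOn p z fun a _ => c a)
    (fun _ ih p => List.casesOn p (z, ih []) fun a p => (c a, ih p)) n

noncomputable def okV (ok nn : β → Bool) (n : ℕ) : List β → Bool :=
  Nat.rec (motive := fun _ => List β → Bool)
    (fun p => List.casesOn p true fun a p => ok a && p.all nn)
    (fun _ ih p => List.casesOn p true fun a p => ok a && ih p) n

/-- Value of a list of coefficients. -/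
noncomputable def evl (e : β → ℝ) (x : ℝ) (p : List β) : ℝ :=
  List.rec 0 (fun c _ r => e c + x * r) p

noncomputable def adl (f : β → β → β) (p : List β) : List β → List β :=
  List.rec (fun q => q) (fun a p ih q => List.casesOn q (a :: p) fun b q => f a b :: ih q) p

noncomputable def mpl (f : β → β) (p : List β) : List β := List.rec [] (fun a _ r => f a :: r) p

noncomputable def mul (f g : β → β → β) (z : β) (p q : List β) : List β :=
  List.rec [] (fun a _ r => adl f (mpl (g a) q) (z :: r)) p

variable {e e' : α → ℝ} {s t : ℝ} {f : α → α → α}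

theorem ev_zp (hs : 0 ≤ s) (ht : 0 ≤ t) (hf : ∀ a b, e (f a b) ≤ e a + e b) (n : ℕ) (p q : V α n) :
    ev e s t n (zp f n p q) ≤ ev e s t n p + ev e s t n q := by
  induction n with
  | zero => exact hf p q
  | succ n ih =>
    obtain ⟨a, p⟩ := p
    obtain ⟨b, q⟩ := q
    change e (f a b) * t ^ (n + 1) + s * ev e s t n (zp f n p q) ≤
      e a * t ^ (n + 1) + s * ev e s t n p + (e b * t ^ (n + 1) + s * ev e s t n q)
    linarith [mul_le_mul_of_nonneg_right (hf a b) (pow_nonneg ht (n + 1)),
      mul_le_mul_of_nonneg_left (ih p q) hs]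

theorem ev_mp (hs : 0 ≤ s) (ht : 0 ≤ t) {g : α → α} {k : ℝ} (hg : ∀ a, e (g a) ≤ k * e' a) (n : ℕ)
    (p : V α n) : ev e s t n (mp g n p) ≤ k * ev e' s t n p := by
  induction n with
  | zero => exact hg p
  | succ n ih =>
    obtain ⟨a, p⟩ := p
    change e (g a) * t ^ (n + 1) + s * ev e s t n (mp g n p) ≤
      k * (e' a * t ^ (n + 1) + s * ev e' s t n p)
    linarith [mul_le_mul_of_nonneg_right (hg a) (pow_nonneg ht (n + 1)),
      mul_le_mul_of_nonneg_left (ih p) hs]

theorem ev_al (hs : 0 ≤ s) (ht : 0 ≤ t) {g : α → Bool} (hg : ∀ a, g a = true → 0 ≤ e a) (n : ℕ)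
    (p : V α n) (h : al g n p = true) : 0 ≤ ev e s t n p := by
  induction n with
  | zero => exact hg p h
  | succ n ih =>
    obtain ⟨a, p⟩ := p
    change Bool.rec false (al g n p) (g a) = true at h
    cases h' : g a with
    | false => rw [h'] at h; exact absurd h Bool.false_ne_true
    | true =>
      rw [h'] at h
      exact add_nonneg (mul_nonneg (hg a h') (pow_nonneg ht _)) (mul_nonneg hs (ih p h))

theorem ev_st (hs : 0 ≤ s) (ht : 0 ≤ t) (hf : ∀ a b, e (f a b) ≤ e a + e b) (n : ℕ) (c : α)
    (p : V α n) : ev e s t (n + 1) (st f n c p) ≤ e c * t ^ (n + 1) + (s + t) * ev e s t n p := by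
  induction n generalizing c with
  | zero =>
    change e (f c p) * t ^ (0 + 1) + s * e p ≤ _ + (s + t) * e p
    rw [zero_add, pow_one]
    linarith [mul_le_mul_of_nonneg_right (hf c p) ht]
  | succ n ih =>
    obtain ⟨a, p⟩ := p
    change e (f c a) * t ^ (n + 1 + 1) + s * ev e s t (n + 1) (st f n a p) ≤
      _ + (s + t) * (e a * t ^ (n + 1) + s * ev e s t n p)
    have := mul_le_mul_of_nonneg_right (hf c a) (pow_nonneg ht (n + 1 + 1))
    have := mul_le_mul_of_nonneg_left (ih a p) hs
    rw [pow_succ t (n + 1)] at *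
    linarith

theorem ev_sh (hs : 0 ≤ s) (ht : 0 ≤ t) (hf : ∀ a b, e (f a b) ≤ e a + e b) (n : ℕ) (p : V α n) :
    ev e s t n (sh f n p) ≤ ev e (s + t) t n p := by
  induction n with
  | zero => exact le_rfl
  | succ n ih =>
    obtain ⟨a, p⟩ := p
    refine (ev_st hs ht hf n a (sh f n p)).trans ?_
    change _ ≤ e a * t ^ (n + 1) + (s + t) * ev e (s + t) t n p
    linarith [mul_le_mul_of_nonneg_left (ih p) (add_nonneg hs ht)]

theorem ev_sn (c : α) (n : ℕ) (p : V α n) :
    ev e s t (n + 1) (sn c n p) = t * ev e s t n p + e c * s ^ (n + 1) := by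
  induction n with
  | zero =>
    change e p * t ^ (0 + 1) + s * e c = t * e p + _
    ring
  | succ n ih =>
    obtain ⟨a, p⟩ := p
    change e a * t ^ (n + 1 + 1) + s * ev e s t (n + 1) (sn c n p) =
      t * (e a * t ^ (n + 1) + s * ev e s t n p) + _
    linear_combination s * ih p

theorem ev_rv (n : ℕ) (p : V α n) : ev e s t n (rv n p) = ev e t s n p := by
  induction n with
  | zero => rfl
  | succ n ih =>
    obtain ⟨a, p⟩ := p
    refine (ev_sn a n (rv n p)).trans ?_
    change _ = e a * s ^ (n + 1) + t * ev e t s n p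
    linear_combination t * ih p

theorem ev_db (hs : 0 ≤ s) (ht : 0 ≤ t) {g : ℕ → α → α} (hg : ∀ (k : ℕ) a, e (g k a) ≤ k * e a)
    (n k : ℕ) (p : V α n) : ev e s t n (db g n k p) ≤ k * ev e (2 * s) t n p := by
  induction n generalizing k with
  | zero => exact hg k p
  | succ n ih =>
    obtain ⟨a, p⟩ := p
    change e (g k a) * t ^ (n + 1) + s * ev e s t n (db g n (2 * k) p) ≤
      k * (e a * t ^ (n + 1) + 2 * s * ev e (2 * s) t n p)
    have := mul_le_mul_of_nonneg_left (ih (2 * k) p) hs
    push_cast at this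
    linarith [mul_le_mul_of_nonneg_right (hg k a) (pow_nonneg ht (n + 1))]

variable {v : β → ℝ} {x : ℝ}

theorem evl_c (a : β) (p : List β) : evl v x (a :: p) = v a + x * evl v x p := rfl

theorem evl_nn (hx : 0 ≤ x) {nn : β → Bool} (hn : ∀ a, nn a = true → 0 ≤ v a) (p : List β)
    (h : p.all nn = true) : 0 ≤ evl v x p := by
  induction p with
  | nil => exact le_rfl
  | cons a p ih =>
    rw [List.all_cons, Bool.and_eq_true] at h
    exact add_nonneg (hn a h.1) (mul_nonneg hx (ih h.2))

theorem evl_dr (hx : 0 ≤ x) {nn : β → Bool} (hn : ∀ a, nn a = true → 0 ≤ v a) (k : ℕ) (p : List β)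
    (h : (p.take k).all nn = true) : x ^ k * evl v x (p.drop k) ≤ evl v x p := by
  induction k generalizing p with
  | zero => simp
  | succ k ih =>
    cases p with
    | nil => exact (mul_zero _).le
    | cons a p =>
      rw [List.take_succ_cons, List.all_cons, Bool.and_eq_true] at h
      rw [List.drop_succ_cons, evl_c, pow_succ]
      linarith [hn a h.1, mul_le_mul_of_nonneg_left (ih p h.2) hx]

theorem ev_cv (hx : 0 ≤ x) {ok nn : β → Bool} (hn : ∀ a, nn a = true → 0 ≤ v a) {c : β → α} {z : α}
    {w : ℝ} (hz : w * e z ≤ 0) (hc : ∀ a, ok a = true → w * e (c a) ≤ v a) (n : ℕ) (p : List β)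
    (h : okV ok nn n p = true) : w * ev e x 1 n (cvV c z n p) ≤ evl v x p := by
  induction n generalizing p with
  | zero =>
    cases p with
    | nil => exact hz
    | cons a p =>
      change (ok a && p.all nn) = true at h
      rw [Bool.and_eq_true] at h
      exact (hc a h.1).trans (le_add_of_nonneg_right (mul_nonneg hx (evl_nn hx hn p h.2)))
  | succ n ih =>
    cases p with
    | nil =>
      change w * (e z * 1 ^ (n + 1) + x * ev e x 1 n (cvV c z n [])) ≤ 0
      have := mul_le_mul_of_nonneg_left (ih [] (by cases n <;> rfl)) hx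
      rw [show evl v x [] = 0 from rfl] at this
      rw [one_pow]
      linarith
    | cons a p =>
      change (ok a && okV ok nn n p) = true at h
      rw [Bool.and_eq_true] at h
      change w * (e (c a) * 1 ^ (n + 1) + x * ev e x 1 n (cvV c z n p)) ≤ _
      rw [one_pow, evl_c]
      linarith [hc a h.1, mul_le_mul_of_nonneg_left (ih p h.2) hx]

theorem evl_ad {f : β → β → β} (hf : ∀ a b, v (f a b) = v a + v b) (p q : List β) :
    evl v x (adl f p q) = evl v x p + evl v x q := by
  induction p generalizing q with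
  | nil => exact (zero_add _).symm
  | cons a p ih =>
    cases q with
    | nil => exact (add_zero _).symm
    | cons b q =>
      change evl v x (f a b :: adl f p q) = _
      simp only [evl_c, hf, ih]
      ring

theorem evl_mp {g : β → β} {k : ℝ} (hg : ∀ a, v (g a) = k * v a) (p : List β) :
    evl v x (mpl g p) = k * evl v x p := by
  induction p with
  | nil => exact (mul_zero _).symm
  | cons a p ih =>
    change evl v x (g a :: mpl g p) = _
    simp only [evl_c, hg, ih]
    ring

theorem evl_mul {f g : β → β → β} {z : β} (hf : ∀ a b, v (f a b) = v a + v b)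
    (hg : ∀ a b, v (g a b) = v a * v b) (hz : v z = 0) (p q : List β) :
    evl v x (mul f g z p q) = evl v x p * evl v x q := by
  induction p with
  | nil => exact (zero_mul _).symm
  | cons a p ih =>
    change evl v x (adl f (mpl (g a) q) (z :: mul f g z p q)) = _
    rw [evl_ad hf, evl_mp (hg a), evl_c, evl_c, hz, ih]
    ring

end

/-- The packing base. -/
def bb : ℕ := Nat.pow 2 600

theorem bb_pos : 0 < bb := Nat.two_pow_pos 600

/-- Value of a packed coefficient. -/
noncomputable def e0 (x : ℕ) : ℝ := x - (bb + 1) * (x / bb : ℕ)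

noncomputable def enc (z : ℤ) : ℕ := Int.rec (fun n => n) (fun n => Nat.mul bb (Nat.succ n)) z

theorem e0_add (a b : ℕ) : e0 (Nat.add a b) ≤ e0 a + e0 b := by
  have h : ((a / bb : ℕ) : ℝ) + (b / bb : ℕ) ≤ ((a + b) / bb : ℕ) := by
    exact_mod_cast Nat.div_add_div_le_add_div
  have := mul_le_mul_of_nonneg_left h (add_nonneg (Nat.cast_nonneg bb) zero_le_one)
  simp only [e0, Nat.add_eq, Nat.cast_add]
  linarith

theorem e0_mul (k a : ℕ) : e0 (Nat.mul k a) ≤ k * e0 a := by
  have h : (k : ℝ) * (a / bb : ℕ) ≤ (k * a / bb : ℕ) := by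
    exact_mod_cast Nat.mul_div_le_mul_div_assoc k a bb
  have := mul_le_mul_of_nonneg_left h (add_nonneg (Nat.cast_nonneg bb) zero_le_one)
  simp only [e0, Nat.mul_eq, Nat.cast_mul]
  linarith

theorem e0_enc (z : ℤ) : e0 (enc z) ≤ z := by
  cases z with
  | ofNat n => exact sub_le_self _ (mul_nonneg (add_nonneg (Nat.cast_nonneg bb) zero_le_one)
      (Nat.cast_nonneg _))
  | negSucc n =>
    change e0 (bb * (n + 1)) ≤ _
    rw [e0, Nat.mul_div_cancel_left _ bb_pos]
    push_cast
    linarith

theorem e0_nn (a : ℕ) (h : Nat.ble (Nat.mul (Nat.succ bb) (Nat.div a bb)) a = true) : 0 ≤ e0 a := by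
  have k : Nat.mul (Nat.succ bb) (Nat.div a bb) ≤ a := Nat.le_of_ble_eq_true h
  rw [Nat.mul_eq, Nat.succ_eq_add_one, show a.div bb = a / bb from rfl] at k
  rw [e0, sub_nonneg]
  exact_mod_cast k

/-- Rectangular arrays. -/
def T (d : List ℕ) : Type := List.rec ℕ (fun n _ A => V A n) d

/-- Nested lists. -/
def L (k : ℕ) : Type := Nat.rec ℤ (fun _ A => List A) k

noncomputable def evT (d : List ℕ) : (ℕ → ℝ × ℝ) → T d → ℝ :=
  List.rec (motive := fun d => (ℕ → ℝ × ℝ) → T d → ℝ) (fun _ => e0)
    (fun n _ ih z => ev (ih fun i => z (i + 1)) (z 0).1 (z 0).2 n) d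

noncomputable def adT (d : List ℕ) : T d → T d → T d :=
  List.rec (motive := fun d => T d → T d → T d) Nat.add (fun n _ ih => zp ih n) d

noncomputable def muT (k : ℕ) (d : List ℕ) : T d → T d :=
  List.rec (motive := fun d => T d → T d) (Nat.mul k) (fun n _ ih => mp ih n) d

noncomputable def alT (d : List ℕ) : T d → Bool :=
  List.rec (motive := fun d => T d → Bool)
    (fun a => Nat.ble (Nat.mul (Nat.succ bb) (Nat.div a bb)) a) (fun n _ ih => al ih n) d

noncomputable def opT (b : Bool) (d : List ℕ) : ℕ → T d → T d :=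
  List.rec (motive := fun d => ℕ → T d → T d) (fun _ a => a)
    (fun n d ih j => Nat.casesOn j
      (fun p => db (fun k => muT k d) n 1 (sh (adT d) n (Bool.rec p (rv n p) b)))
      fun j => mp (ih j) n) d

noncomputable def bxT (d : List ℕ) : T d → T d :=
  List.rec (motive := fun d => T d → T d) (fun a => a)
    (fun n d ih p => sh (adT d) n (rv n (mp ih n p))) d

noncomputable def evL (k : ℕ) : (ℕ → ℝ) → L k → ℝ :=
  Nat.rec (motive := fun k => (ℕ → ℝ) → L k → ℝ) (fun _ (a : ℤ) => (a : ℝ))
    (fun _ ih x => evl (ih fun i => x (i + 1)) (x 0)) k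

noncomputable def zL (k : ℕ) : L k := Nat.casesOn (motive := L) k (Int.ofNat 0) fun _ => []

noncomputable def cL (c : ℤ) (k : ℕ) : L k := Nat.rec (motive := L) c (fun _ r => [r]) k

noncomputable def xL (k : ℕ) : ℕ → L k :=
  Nat.rec (motive := fun k => ℕ → L k) (fun _ => Int.ofNat 0)
    (fun k ih j => Nat.casesOn j [zL k, cL 1 k] fun j => [ih j]) k

noncomputable def adL (k : ℕ) : L k → L k → L k :=
  Nat.rec (motive := fun k => L k → L k → L k) Int.add (fun _ ih => adl ih) k

noncomputable def muL (k : ℕ) : L k → L k → L k :=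
  Nat.rec (motive := fun k => L k → L k → L k) Int.mul (fun k ih => mul (adL k) ih (zL k)) k

noncomputable def nnL (k : ℕ) : L k → Bool :=
  Nat.rec (motive := fun k => L k → Bool)
    (fun a => Int.rec (fun _ => true) (fun _ => false) a) (fun _ ih p => p.all ih) k

noncomputable def zT (d : List ℕ) : T d :=
  List.rec (motive := T) (0 : ℕ) (fun n _ z => cvV (fun _ : ℕ => z) z n []) d

noncomputable def cvT (d : List ℕ) : List ℕ → L d.length → T d :=
  List.rec (motive := fun d => List ℕ → L d.length → T d) (fun _ => enc)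
    (fun n d ih k p => cvV (ih k.tail) (zT d) n (List.drop (k.headD 0) p)) d

noncomputable def okT (d : List ℕ) : List ℕ → L d.length → Bool :=
  List.rec (motive := fun d => List ℕ → L d.length → Bool) (fun _ _ => true)
    (fun n d ih k p => (List.take (k.headD 0) p).all (nnL d.length) &&
      okV (ih k.tail) (nnL d.length) n (List.drop (k.headD 0) p)) d

/-- Points of the cone. -/
def NN (z : ℕ → ℝ × ℝ) : Prop := ∀ i, 0 ≤ (z i).1 ∧ 0 ≤ (z i).2

theorem evT_ad (d : List ℕ) : ∀ {z}, NN z → ∀ p q, evT d z (adT d p q) ≤ evT d z p + evT d z q := by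
  induction d with
  | nil => exact fun _ => e0_add
  | cons n d ih => exact fun h => ev_zp (h 0).1 (h 0).2 (ih fun i => h (i + 1)) n

theorem evT_mu (k : ℕ) (d : List ℕ) : ∀ {z}, NN z → ∀ p, evT d z (muT k d p) ≤ k * evT d z p := by
  induction d with
  | nil => exact fun _ => e0_mul k
  | cons n d ih => exact fun h => ev_mp (h 0).1 (h 0).2 (ih fun i => h (i + 1)) n

theorem evT_al (d : List ℕ) : ∀ {z}, NN z → ∀ p, alT d p = true → 0 ≤ evT d z p := by
  induction d with
  | nil => exact fun _ => e0_nn
  | cons n d ih => exact fun h => ev_al (h 0).1 (h 0).2 (ih fun i => h (i + 1)) n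

theorem evT_op (j : ℕ) : ∀ {z}, NN z → ∃ b z', NN z' ∧
    ∀ d p, evT d z' (opT b d j p) ≤ evT d z p := by
  induction j with
  | zero =>
    intro z h
    have h' : NN fun i => z (i + 1) := fun i => h (i + 1)
    have k : ∀ (b : Bool) (s t : ℝ), 0 ≤ t → t ≤ s → (∀ n d (p : V (T d) n),
        ev (evT d fun i => z (i + 1)) s t n (Bool.rec p (rv n p) b) = evT (n :: d) z p) →
        ∃ b z', NN z' ∧ ∀ d p, evT d z' (opT b d 0 p) ≤ evT d z p := by
      intro b s t ht hs e
      have h2 : 0 ≤ (s - t) / 2 := by linarith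
      refine ⟨b, fun i => Nat.casesOn i ((s - t) / 2, t) fun i => z (i + 1),
        fun i => by cases i; exacts [⟨h2, ht⟩, h' _], fun d p => ?_⟩
      cases d with
      | nil => exact le_rfl
      | cons n d =>
        refine (ev_db h2 ht (fun k => evT_mu k d h') n 1 _).trans ?_
        rw [Nat.cast_one, one_mul]
        refine (ev_sh (by linarith) ht (evT_ad d h') n _).trans_eq ?_
        rw [show 2 * ((s - t) / 2) + t = s by ring]
        exact e n d p
    rcases le_total (z 0).1 (z 0).2 with h1 | h1
    · exact k true _ _ (h 0).1 h1 fun n d p => ev_rv n p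
    · exact k false _ _ (h 0).2 h1 fun n d p => rfl
  | succ j ih =>
    intro z h
    obtain ⟨b, z', h1, h2⟩ := ih (z := fun i => z (i + 1)) fun i => h (i + 1)
    refine ⟨b, fun i => Nat.casesOn i (z 0) z', fun i => by cases i; exacts [h 0, h1 _], fun d p => ?_⟩
    cases d with
    | nil => exact le_rfl
    | cons n d =>
      exact (ev_mp (k := 1) (h 0).1 (h 0).2 (fun a => (h2 d a).trans_eq (one_mul _).symm) n
        p).trans_eq (one_mul _)

theorem evT_bx (d : List ℕ) : ∀ {x : ℕ → ℝ}, (∀ i, 0 ≤ x i ∧ x i ≤ 1) → ∀ p,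
    evT d (fun i => (1 - x i, x i)) (bxT d p) ≤ evT d (fun i => (x i, 1)) p := by
  induction d with
  | nil => exact fun _ _ => le_rfl
  | cons n d ih =>
    intro x h p
    refine (ev_sh (sub_nonneg.2 (h 0).2) (h 0).1 (evT_ad d fun i =>
      ⟨sub_nonneg.2 (h (i + 1)).2, (h (i + 1)).1⟩) n _).trans ?_
    rw [ev_rv, sub_add_cancel]
    exact (ev_mp (k := 1) (h 0).1 zero_le_one (fun a =>
      (ih (fun i => h (i + 1)) a).trans_eq (one_mul _).symm) n p).trans_eq (one_mul _)

theorem evL_z (k : ℕ) (x : ℕ → ℝ) : evL k x (zL k) = 0 := by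
  cases k with
  | zero => exact Int.cast_zero
  | succ k => rfl

theorem evL_c (c : ℤ) (k : ℕ) : ∀ x, evL k x (cL c k) = c := by
  induction k with
  | zero => exact fun _ => rfl
  | succ k ih => exact fun x => (congrArg₂ (· + ·) (ih _) (mul_zero _)).trans (add_zero _)

theorem evL_x (k : ℕ) : ∀ j < k, ∀ x, evL k x (xL k j) = x j := by
  induction k with
  | zero => exact fun j h => absurd h (Nat.not_lt_zero j)
  | succ k ih =>
    intro j h x
    cases j with
    | zero =>
      change evL k _ (zL k) + x 0 * (evL k _ (cL 1 k) + x 0 * 0) = _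
      rw [evL_z, evL_c]
      simp
    | succ j =>
      exact (congrArg₂ (· + ·) (ih j (Nat.lt_of_succ_lt_succ h) _) (mul_zero _)).trans (add_zero _)

theorem evL_ad (k : ℕ) : ∀ x p q, evL k x (adL k p q) = evL k x p + evL k x q := by
  induction k with
  | zero => exact fun _ => Int.cast_add
  | succ k ih => exact fun _ => evl_ad (ih _)

theorem evL_mu (k : ℕ) : ∀ x p q, evL k x (muL k p q) = evL k x p * evL k x q := by
  induction k with
  | zero => exact fun _ => Int.cast_mul
  | succ k ih => exact fun _ => evl_mul (evL_ad k _) (ih _) (evL_z k _)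

theorem evL_nn (k : ℕ) : ∀ {x : ℕ → ℝ}, (∀ i, 0 ≤ x i) → ∀ p, nnL k p = true → 0 ≤ evL k x p := by
  induction k with
  | zero =>
    intro x _ p h
    cases p with
    | ofNat n => exact Nat.cast_nonneg n
    | negSucc n => exact absurd h Bool.false_ne_true
  | succ k ih => exact fun h => evl_nn (h 0) (ih fun i => h (i + 1))

theorem evT_z (d : List ℕ) : ∀ {x : ℕ → ℝ}, (∀ i, 0 ≤ x i) →
    evT d (fun i => (x i, 1)) (zT d) ≤ 0 := by
  induction d with
  | nil => exact fun _ => (e0_enc 0).trans_eq Int.cast_zero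
  | cons n d ih =>
    intro x h
    have := ih fun i => h (i + 1)
    exact (one_mul _).symm.trans_le (ev_cv (v := fun _ : ℕ => 0) (ok := fun _ => true)
      (nn := fun _ => true) (h 0) (fun _ _ => le_rfl) ((one_mul _).trans_le this)
      (fun _ _ => (one_mul _).trans_le this) n []
      (by cases n <;> rfl))

theorem evT_cv (d : List ℕ) : ∀ k {x : ℕ → ℝ}, (∀ i, 0 ≤ x i) → ∃ w, 0 ≤ w ∧ ∀ p,
    okT d k p = true → w * evT d (fun i => (x i, 1)) (cvT d k p) ≤ evL d.length x p := by
  induction d with
  | nil => exact fun k x _ => ⟨1, zero_le_one, fun p _ => (one_mul _).trans_le (e0_enc p)⟩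
  | cons n d ih =>
    intro k x h
    have h' : ∀ i, 0 ≤ x (i + 1) := fun i => h (i + 1)
    obtain ⟨w, hw, h1⟩ := ih k.tail h'
    refine ⟨x 0 ^ k.headD 0 * w, mul_nonneg (pow_nonneg (h 0) _) hw, fun p hp => ?_⟩
    have hp := Bool.and_eq_true_iff.1 hp
    refine le_trans ?_ (evl_dr (h 0) (evL_nn _ h') _ p hp.1)
    rw [mul_assoc]
    exact mul_le_mul_of_nonneg_left (ev_cv (h 0) (evL_nn _ h')
      (mul_nonpos_of_nonneg_of_nonpos hw (evT_z d h')) h1 n _ hp.2) (pow_nonneg (h 0) _)

/-- Subdivision trees. -/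
inductive Tr
  | a
  | b
  | n (j : ℕ) (l r : Tr)

noncomputable def chk (d e : List ℕ) (t : Tr) : T d → T e → Bool :=
  Tr.rec (fun p _ => alT d p) (fun _ q => alT e q) (fun j _ _ l r p q =>
    Bool.rec false (r (opT false d j p) (opT false e j q)) (l (opT true d j p) (opT true e j q))) t

theorem chk_sound (d e : List ℕ) (t : Tr) : ∀ p q, chk d e t p q = true → ∀ z, NN z →
    0 ≤ evT d z p ∨ 0 ≤ evT e z q := by
  induction t with
  | a => exact fun p q h z hz => .inl (evT_al d hz p h)
  | b => exact fun p q h z hz => .inr (evT_al e hz q h)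
  | n j l r ihl ihr =>
    intro p q h z hz
    change Bool.rec false (chk d e r (opT false d j p) (opT false e j q))
      (chk d e l (opT true d j p) (opT true e j q)) = true at h
    cases h' : chk d e l (opT true d j p) (opT true e j q) with
    | false => rw [h'] at h; exact absurd h Bool.false_ne_true
    | true =>
      rw [h'] at h
      obtain ⟨b, z', h1, h2⟩ := evT_op j hz
      cases b with
      | false => exact (ihr _ _ h z' h1).imp (fun k => k.trans (h2 d p)) fun k => k.trans (h2 e q)
      | true => exact (ihl _ _ h' z' h1).imp (fun k => k.trans (h2 d p)) fun k => k.trans (h2 e q)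

/-- The check: `d, e` are the degrees after division by the monomials with exponents `k, l`. -/
noncomputable def ck (d k e l : List ℕ) (t : Tr) (p : L d.length) (q : L e.length) : Bool :=
  okT d k p && (okT e l q && chk d e t (bxT d (cvT d k p)) (bxT e (cvT e l q)))

theorem ck_sound {d k e l : List ℕ} {t : Tr} {p : L d.length} {q : L e.length}
    (h : ck d k e l t p q = true) {x : ℕ → ℝ} (hx : ∀ i, 0 ≤ x i ∧ x i ≤ 1) :
    0 ≤ evL d.length x p ∨ 0 ≤ evL e.length x q := by
  simp only [ck, Bool.and_eq_true] at h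
  obtain ⟨w, hw, h1⟩ := evT_cv d k fun i => (hx i).1
  obtain ⟨w', hw', h2⟩ := evT_cv e l fun i => (hx i).1
  exact (chk_sound d e t _ _ h.2.2 (fun i => (1 - x i, x i)) fun i =>
    ⟨sub_nonneg.2 (hx i).2, (hx i).1⟩).imp
    (fun k => (mul_nonneg hw (k.trans (evT_bx d hx _))).trans (h1 p h.1))
    fun k => (mul_nonneg hw' (k.trans (evT_bx e hx _))).trans (h2 q h.2.1)

noncomputable instance (k : ℕ) : Add (L k) := ⟨adL k⟩
noncomputable instance (k : ℕ) : Mul (L k) := ⟨muL k⟩
noncomputable instance (k : ℕ) : IntCast (L k) := ⟨fun c => cL c k⟩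
noncomputable instance (k : ℕ) : Sub (L k) := ⟨fun p q => adL k p (muL k (cL (-1) k) q)⟩

theorem evL_add (k x) (p q : L k) : evL k x (p + q) = evL k x p + evL k x q := evL_ad k x p q
theorem evL_mul (k x) (p q : L k) : evL k x (p * q) = evL k x p * evL k x q := evL_mu k x p q
theorem evL_int (k x) (c : ℤ) : evL k x (c : L k) = c := evL_c c k x
theorem evL_sub (k x) (p q : L k) : evL k x (p - q) = evL k x p - evL k x q := by
  refine (evL_ad k x p _).trans ?_
  rw [evL_mu, evL_c]
  push_cast
  ring

end Vale.Agent.P219.Bn
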