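import Vale.Agent.P219.G.Cert3M

/-!
# Certificate for `m = 3`: the fields in terms of the values of the one-variable functions
-/

namespace Vale.Agent.P219.C3

noncomputable section

/-- Value of `X`. -/
def vX (u c Ψ p : ℝ) : ℝ := c + Ψ / u * (u - p)
/-- Value of `Xu`. -/
def vXu (u c W Ψ p : ℝ) : ℝ := -(3 * c - W) / (2 * u) + ((W - 4 * Ψ) / u ^ 2 * (u - p) + Ψ / u)
/-- Value of `Xp`. -/
def vXp (u Ψ : ℝ) : ℝ := -(Ψ / u)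
/-- The slope of the linear part of `Y`. -/
def vlam (g u W Ψ : ℝ) : ℝ := ((2 * W - 4 * Ψ) * g + W * ((1 - 2 * g) * u)) / u ^ 2
/-- Its derivative. -/
def vlam1 (g u W Ψ Λ : ℝ) : ℝ :=
  ((2 * Λ - 16 * W + 20 * Ψ) * g + (Λ - 5 * W) * ((1 - 2 * g) * u)) / u ^ 3
/-- The cubic correction. -/
def vZ (g u σ q : ℝ) : ℝ := -g ^ 3 * ((u - q) ^ 2 * (2 * σ - q) / (σ ^ 6 * (σ + u)))
/-- Its `u` derivative. -/
def vZu (g u σ q : ℝ) : ℝ :=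
  -g ^ 3 * (((2 * (u - q) * (2 * σ - q) + (u - q) ^ 2 * (2 * (ct g u / σ))) * (σ ^ 6 * (σ + u)) -
    (u - q) ^ 2 * (2 * σ - q) * (6 * σ ^ 5 * (ct g u / σ) * (σ + u) + σ ^ 6 * (ct g u / σ + 1))) /
    (σ ^ 6 * (σ + u)) ^ 2)
/-- Its `q` derivative. -/
def vZq (g u σ q : ℝ) : ℝ :=
  -g ^ 3 * ((-(2 * (u - q) * (2 * σ - q)) - (u - q) ^ 2) / (σ ^ 6 * (σ + u)))
/-- Value of `Y`. -/
def vY (g u σ W Ψ q : ℝ) : ℝ := Ψ / u - vlam g u W Ψ * (u - q) / g + vZ g u σ q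
/-- Value of `Yu`. -/
def vYu (g u σ W Ψ Λ q : ℝ) : ℝ :=
  (W - 4 * Ψ) / u ^ 2 - (vlam1 g u W Ψ Λ * (u - q) + vlam g u W Ψ) / g + vZu g u σ q
/-- Value of `Yq`. -/
def vYq (g u σ W Ψ q : ℝ) : ℝ := vlam g u W Ψ / g + vZq g u σ q

end

theorem raw1 {g u c W Ψ p q M : ℝ} (hu : u ≠ 0) :
    (3 * vX u c Ψ p * (ct g u - q) + vXu u c W Ψ p * (sg2 g u - q ^ 2) +
        vXp u Ψ * (ct g u * p - M * q)) +
      (3 * vX u c Ψ q * (ct g u - p) + vXu u c W Ψ q * (sg2 g u - p ^ 2) +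
        vXp u Ψ * (ct g u * q - M * p)) + g * (2 * (3 * u * c - (1 - u) * W - Ψ)) =
    (u - p) * (u - q) * (8 * (Ψ / u) + 2 * vlam g u W Ψ + (W - 4 * Ψ) / u ^ 2 * (2 * u + p + q)) +
      (3 * c - W) / (2 * u) * ((u - p) ^ 2 + (u - q) ^ 2) +
      Ψ / u * (p + q) * (g + u - p - q + M) - g * (Ψ / u) * (p + q) +
      vlam g u W Ψ * ((u - q) * p + (u - p) * q) := by
  unfold vX vXu vXp vlam ct sg2
  field_simp
  ring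

/-- Normalised parameters. -/
theorem params {g r σ : ℝ} (hg0 : 0 < g) (hg1 : g ≤ 1 / 2) (hr : 0 < r) (hσ0 : 0 < σ)
    (hσ : σ ^ 2 = sg2 g (r ^ 2)) :
    ∃ s t h : ℝ, 0 < s ∧ 0 < t ∧ r = s * t ∧ σ = s * t ^ 2 ∧ g = h * t ^ 2 ∧ 0 < h ∧ h ≤ 1 / 2 ∧
      t ^ 2 = 2 * g + (1 - 2 * g) * r ^ 2 := by
  have htt : (σ / r) ^ 2 = 2 * g + (1 - 2 * g) * r ^ 2 := by
    rw [div_pow, hσ, sg2]
    field_simp
  have ht : 0 < σ / r := div_pos hσ0 hr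
  refine ⟨r / (σ / r), σ / r, g / (σ / r) ^ 2, by positivity, ht, by field_simp, by field_simp,
    by field_simp, by positivity, ?_, htt⟩
  rw [div_le_iff₀ (by positivity), htt]
  have := mul_nonneg (show 0 ≤ 1 - 2 * g by linarith) (sq_nonneg r)
  linarith

theorem abs_div_le {p σ : ℝ} (hσ : 0 < σ) (hp : p ^ 2 ≤ σ ^ 2) :
    ∃ a, p = σ * a ∧ -1 ≤ a ∧ a ≤ 1 := by
  obtain ⟨h1, h2⟩ := abs_le_of_sq_le_sq' hp hσ.le
  refine ⟨p / σ, by field_simp, ?_, ?_⟩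
  · rw [le_div_iff₀ hσ]; linarith
  · rw [div_le_iff₀ hσ]; linarith

theorem xi_ex {g σ k a b M : ℝ} (hg0 : 0 < g) (hσ : 0 < σ) (ha1 : -1 ≤ a) (ha2 : a ≤ 1)
    (hb1 : -1 ≤ b) (hb2 : b ≤ 1)
    (hM : (σ ^ 2 * M - k * (σ * a) * (σ * b)) ^ 2 ≤
      g ^ 2 * (σ ^ 2 - (σ * a) ^ 2) * (σ ^ 2 - (σ * b) ^ 2)) :
    ∃ ξ, 0 ≤ ξ ∧ ξ ≤ 2 ∧ M = k * a * b + g * (ξ - 1 + (a ^ 2 + b ^ 2) / 2) := by
  have ha : 0 ≤ 1 - a ^ 2 := by nlinarith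
  have hb : 0 ≤ 1 - b ^ 2 := by nlinarith
  obtain ⟨D, rfl⟩ : ∃ D, M = k * a * b + g * D := ⟨(M - k * a * b) / g, by field_simp; ring⟩
  have h1 : D ^ 2 ≤ (1 - a ^ 2) * (1 - b ^ 2) := by
    apply le_of_mul_le_mul_left _ (show 0 < g ^ 2 * σ ^ 4 by positivity)
    linarith
  have h2 : D ^ 2 ≤ (1 - (a ^ 2 + b ^ 2) / 2) ^ 2 := by
    have := sq_nonneg (a ^ 2 - b ^ 2)
    linarith
  obtain ⟨h3, h4⟩ := abs_le_of_sq_le_sq' h2 (by linarith)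
  have := sq_nonneg a
  have := sq_nonneg b
  exact ⟨D + 1 - (a ^ 2 + b ^ 2) / 2, by linarith, by linarith, by ring⟩

theorem raw2 {s t h a b ξ ω δ Ψ ι gx gy u σ g p q c W M lam : ℝ} (hs : 0 < s) (ht : 0 < t)
    (hh : 0 < h) (hΨ : 0 < Ψ) (hu : u = (s * t) ^ 2) (hσ : σ = s * t ^ 2) (hg : g = h * t ^ 2)
    (hp : p = σ * a) (hq : q = σ * b) (hc : c = δ * Ψ / u) (hW : W = (5 - ω) * Ψ / 2)
    (hM : M = (t ^ 2 - g) * a * b + g * (ξ - 1 + (a ^ 2 + b ^ 2) / 2))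
    (hlam : lam = ((2 * W - 4 * Ψ) * g + W * (t ^ 2 - 2 * g)) / u ^ 2) :
    (u - p) * (u - q) * (8 * (Ψ / u) + 2 * lam + (W - 4 * Ψ) / u ^ 2 * (2 * u + p + q)) +
      (3 * c - W) / (2 * u) * ((u - p) ^ 2 + (u - q) ^ 2) +
      Ψ / u * (p + q) * (g + u - p - q + M) - g * (Ψ / u) * (p + q) +
      lam * ((u - q) * p + (u - p) * q) +
      g * (ι * ((Ψ / u - lam * (u - q) / g + vZ g u σ q) * p +
        (Ψ / u - lam * (u - p) / g + vZ g u σ p) * q) + vX u c Ψ p * gy + vX u c Ψ q * gx) =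
    σ ^ 2 * Ψ / u ^ 2 * (Tl g (s * t) t s h (s - a) (s - b) a b ξ ω δ -
      (1 - ι) * (g * s * (a + b) -
        ((1 - ω) * g + (5 - ω) / 2 * (t ^ 2 - 2 * g)) * ((s - b) * a + (s - a) * b)) -
      ι * (g * (h ^ 3 * t ^ 2) / (s * t * (t + s * t) * Ψ) *
        ((s - b) ^ 2 * (2 - b) * a + (s - a) ^ 2 * (2 - a) * b)) +
      h * ((δ + s * t * t * (s - a)) * gy + (δ + s * t * t * (s - b)) * gx)) := by
  have e1 : σ + u = s * t ^ 2 * (1 + s) := by rw [hσ, hu]; ring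
  have e2 : t + s * t = t * (1 + s) := by ring
  unfold vZ vX Tl
  rw [e1, e2]
  subst hlam hM hW hc hq hp hg hσ hu
  field_simp
  ring

theorem main_raw {g r σ c W Ψ Λ p q M ι gx gy : ℝ} (hg0 : 0 < g) (hg1 : g ≤ 1 / 2) (hr : 0 < r)
    (hσ0 : 0 < σ) (hσ : σ ^ 2 = sg2 g (r ^ 2)) (F : Facts r c W Ψ Λ)
    (hp : p ^ 2 ≤ sg2 g (r ^ 2)) (hq : q ^ 2 ≤ sg2 g (r ^ 2))
    (hM : (sg2 g (r ^ 2) * M - ct g (r ^ 2) * p * q) ^ 2 ≤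
      g ^ 2 * (sg2 g (r ^ 2) - p ^ 2) * (sg2 g (r ^ 2) - q ^ 2))
    (hι0 : 0 ≤ ι) (hι1 : ι ≤ 1) (hgx : 0 ≤ gx) (hgy : 0 ≤ gy)
    (hxy : (p * q / sg2 g (r ^ 2) * (1 - ι)) ^ 2 ≤ gx * gy) :
    0 ≤ (3 * vX (r ^ 2) c Ψ p * (ct g (r ^ 2) - q) +
        vXu (r ^ 2) c W Ψ p * (sg2 g (r ^ 2) - q ^ 2) + vXp (r ^ 2) Ψ * (ct g (r ^ 2) * p - M * q)) +
      (3 * vX (r ^ 2) c Ψ q * (ct g (r ^ 2) - p) +
        vXu (r ^ 2) c W Ψ q * (sg2 g (r ^ 2) - p ^ 2) + vXp (r ^ 2) Ψ * (ct g (r ^ 2) * q - M * p)) +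
      g * (2 * (3 * r ^ 2 * c - (1 - r ^ 2) * W - Ψ) +
        ι * (vY g (r ^ 2) σ W Ψ q * p + vY g (r ^ 2) σ W Ψ p * q) +
        vX (r ^ 2) c Ψ p * gy + vX (r ^ 2) c Ψ q * gx) := by
  have hΨ := F.hΨ
  obtain ⟨s, t, h, hs, ht, hrs, hσs, hgh, hh0, hh, htt⟩ := params hg0 hg1 hr hσ0 hσ
  have hct : ct g (r ^ 2) = t ^ 2 - g := by rw [ct]; linarith
  rw [← hσ] at hp hq hxy
  obtain ⟨a, hpa, ha1, ha2⟩ := abs_div_le hσ0 hp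
  obtain ⟨b, hqb, hb1, hb2⟩ := abs_div_le hσ0 hq
  rw [← hσ, hct, hpa, hqb] at hM
  obtain ⟨ξ, hξ0, hξ, hMξ⟩ := xi_ex hg0 hσ0 ha1 ha2 hb1 hb2 hM
  obtain ⟨ω, hW⟩ : ∃ ω, W = (5 - ω) * Ψ / 2 := ⟨(5 * Ψ - 2 * W) / Ψ, by field_simp; ring⟩
  obtain ⟨δ, hc⟩ : ∃ δ, c = δ * Ψ / r ^ 2 := ⟨r ^ 2 * c / Ψ, by field_simp⟩
  have ho : 5 * Ψ - 2 * W = ω * Ψ := by rw [hW]; ring
  have hω0 : 0 ≤ ω := le_of_mul_le_mul_right (by linarith [F.o0]) hΨ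
  have hω1 : r ≤ 1 → r / 2 ≤ ω := fun h1 => le_of_mul_le_mul_right (by linarith [F.o3 h1]) hΨ
  have hω2 : ω ≤ 1 := le_of_mul_le_mul_right (by linarith [F.o1]) hΨ
  have hω3 : ω ≤ 13 / 10 * r := le_of_mul_le_mul_right (by linarith [F.o2]) hΨ
  have hδ : 113 / 100 + 34 / 25 * r + 79 / 50 * r ^ 2 ≤ δ := by
    have e : r ^ 2 * c = δ * Ψ := by rw [hc]; field_simp
    exact le_of_mul_le_mul_right (by linarith [F.f2]) hΨ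
  have hab : p * q / σ ^ 2 = a * b := by rw [hpa, hqb]; field_simp
  rw [hab] at hxy
  have key := main_n (x := s - a) (y := s - b) (z := g * (h ^ 3 * t ^ 2) / (r * (t + r) * Ψ))
    hg0 hg1 hr ht htt hrs.symm hs hh0.le hh hgh.symm (by ring) (by ring) ha1 ha2 hb1 hb2 hξ0 hξ hω0
    hω1 hω2 hω3 hδ hΨ F.f1 F.f1' (by positivity) (by field_simp) hι0 hι1 hgx hgy hxy
  have e1 := raw1 (g := g) (c := c) (W := W) (Ψ := Ψ) (p := p) (q := q) (M := M)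
    (pow_ne_zero 2 hr.ne')
  have hlam : vlam g (r ^ 2) W Ψ = ((2 * W - 4 * Ψ) * g + W * (t ^ 2 - 2 * g)) / (r ^ 2) ^ 2 := by
    rw [vlam, htt]; ring
  have e2 := raw2 (ι := ι) (gx := gx) (gy := gy) hs ht hh0 hΨ (by rw [hrs]) hσs hgh hpa hqb hc hW hMξ
    hlam
  rw [← hrs] at e2
  have e3 := mul_nonneg (show 0 ≤ σ ^ 2 * Ψ / (r ^ 2) ^ 2 by positivity) key
  rw [← e2] at e3
  unfold vY
  linarith only [e1, e3]

theorem X_raw {g r σ c W Ψ Λ p : ℝ} (hg0 : 0 < g) (hg1 : g ≤ 1 / 2) (hr : 0 < r)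
    (hσ0 : 0 < σ) (hσ : σ ^ 2 = sg2 g (r ^ 2)) (F : Facts r c W Ψ Λ)
    (hp : p ^ 2 ≤ sg2 g (r ^ 2)) : 0 ≤ vX (r ^ 2) c Ψ p := by
  have hΨ := F.hΨ
  obtain ⟨s, t, h, hs, ht, hrs, hσs, hgh, hh0, hh, htt⟩ := params hg0 hg1 hr hσ0 hσ
  have hp1 : p ≤ r * t := by
    rw [← hσ] at hp
    have := (abs_le_of_sq_le_sq' hp hσ0.le).2
    rw [hσs] at this
    rw [hrs]
    linarith
  have hp2 : p ≤ r + r ^ 2 := by
    have := sq_nonneg r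
    rcases le_total r 1 with h1 | h1
    · have := mul_le_mul_of_nonneg_left (t_small hg0 hg1 hr ht htt h1).2 hr.le
      linarith
    · have := mul_le_mul_of_nonneg_left (t_big hg0 hg1 hr ht htt h1).2 hr.le
      linarith
  have e : vX (r ^ 2) c Ψ p = (r ^ 2 * c + Ψ * (r ^ 2 - p)) / r ^ 2 := by
    unfold vX; field_simp
  rw [e]
  apply div_nonneg _ (sq_nonneg r)
  have e1 := mul_le_mul_of_nonneg_left hp2 hΨ.le
  have e2 := F.f2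
  have e3 : 0 ≤ r * Ψ := by positivity
  have e4 : 0 ≤ r ^ 2 * Ψ := by positivity
  linarith

theorem ray_id {s t h a W Ψ Λ u σ g q k d : ℝ} (hs : 0 < s) (ht : 0 < t) (hh : 0 < h)
    (hu : u = (s * t) ^ 2) (hσ : σ = s * t ^ 2) (hg : g = h * t ^ 2) (hq : q = σ * a)
    (hk : k = t ^ 2 - g) (hd : d = t ^ 2 - 2 * g) :
    4 * k * (Ψ / u - ((2 * W - 4 * Ψ) * g + W * d) / u ^ 2 * (u - q) / g + vZ g u σ q) +
      σ ^ 2 * ((W - 4 * Ψ) / u ^ 2 - (((2 * Λ - 16 * W + 20 * Ψ) * g + (Λ - 5 * W) * d) / u ^ 3 *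
        (u - q) + ((2 * W - 4 * Ψ) * g + W * d) / u ^ 2) / g +
        -g ^ 3 * (((2 * (u - q) * (2 * σ - q) + (u - q) ^ 2 * (2 * (k / σ))) * (σ ^ 6 * (σ + u)) -
        (u - q) ^ 2 * (2 * σ - q) * (6 * σ ^ 5 * (k / σ) * (σ + u) + σ ^ 6 * (k / σ + 1))) /
        (σ ^ 6 * (σ + u)) ^ 2)) +
      k * q * (((2 * W - 4 * Ψ) * g + W * d) / u ^ 2 / g + vZq g u σ q) =
    (q - u) * (g / u ^ 2) * (-(22 * W - 4 * Λ - 20 * Ψ) + (1 - 2 * h) / h * (4 * Λ - 11 * W) +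
      ((1 - 2 * h) / h) ^ 2 * Λ + h ^ 3 * ((2 - a) * (2 + s + a)) / (1 + s) ^ 2) := by
  have e1 : σ + u = s * t ^ 2 * (1 + s) := by rw [hσ, hu]; ring
  unfold vZ vZq
  rw [e1]
  subst hd hk hq hg hσ hu
  field_simp
  ring

theorem eps_id {g r s t h : ℝ} (ht : 0 < t) (hrs : r = s * t) (hgh : g = h * t ^ 2)
    (htt : t ^ 2 = 2 * g + (1 - 2 * g) * r ^ 2) :
    s ^ 2 = (1 - 2 * h) + (1 - (1 - 2 * h)) * r ^ 2 := by
  apply mul_right_cancel₀ (pow_ne_zero 2 ht.ne')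
  have : s ^ 2 * t ^ 2 = r ^ 2 := by rw [hrs]; ring
  linear_combination this - htt + 2 * (r ^ 2 - 1) * hgh

theorem v_ge {h W : ℝ} (hh0 : 0 < h) (hh : h ≤ 1 / 2) (hW : 0 ≤ W) :
    2 * (1 - 2 * h) * W ≤ (1 - 2 * h) / h * W := by
  apply mul_le_mul_of_nonneg_right _ hW
  rw [le_div_iff₀ hh0]
  nlinarith [sq_nonneg (1 - 2 * h)]

theorem ray_raw {g r σ c W Ψ Λ q : ℝ} (hg0 : 0 < g) (hg1 : g ≤ 1 / 2) (hr : 0 < r)
    (hσ0 : 0 < σ) (hσ : σ ^ 2 = sg2 g (r ^ 2)) (F : Facts r c W Ψ Λ)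
    (hq : q ^ 2 ≤ sg2 g (r ^ 2)) :
    ∃ R, 0 < R ∧ 4 * ct g (r ^ 2) * vY g (r ^ 2) σ W Ψ q + sg2 g (r ^ 2) * vYu g (r ^ 2) σ W Ψ Λ q +
      ct g (r ^ 2) * q * vYq g (r ^ 2) σ W Ψ q = (q - r ^ 2) * R := by
  obtain ⟨s, t, h, hs, ht, hrs, hσs, hgh, hh0, hh, htt⟩ := params hg0 hg1 hr hσ0 hσ
  have hct : ct g (r ^ 2) = t ^ 2 - g := by rw [ct]; linarith
  have hd : (1 - 2 * g) * r ^ 2 = t ^ 2 - 2 * g := by linarith
  rw [← hσ] at hq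
  obtain ⟨a, hqa, ha1, ha2⟩ := abs_div_le hσ0 hq
  have e := ray_id (W := W) (Ψ := Ψ) (Λ := Λ) (u := r ^ 2) hs ht hh0 (by rw [hrs]) hσs hgh hqa hct hd
  refine ⟨g / (r ^ 2) ^ 2 * (-(22 * W - 4 * Λ - 20 * Ψ) + (1 - 2 * h) / h * (4 * Λ - 11 * W) +
      ((1 - 2 * h) / h) ^ 2 * Λ + h ^ 3 * ((2 - a) * (2 + s + a)) / (1 + s) ^ 2), ?_, ?_⟩
  · apply mul_pos (by positivity)
    have hw : (1 + r)⁻¹ * (1 + r) = 1 := inv_mul_cancel₀ (by linarith)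
    have key := ray_s hr hw (ε := 1 - 2 * h) (by linarith) (by linarith) hs (eps_id ht hrs hgh htt)
      F.f4 F.f7
    have hW := W_pos hr hw F.f7
    have hv : 0 ≤ (1 - 2 * h) / h := div_nonneg (by linarith) hh0.le
    have e1 := v_ge hh0 hh hW.le
    have e2 := mul_le_mul_of_nonneg_left F.f5 hv
    have e3 := mul_nonneg (sq_nonneg ((1 - 2 * h) / h)) F.f6
    have e4 : 3 + s ≤ (2 - a) * (2 + s + a) := by
      have := mul_nonneg (show 0 ≤ 1 - a by linarith) (show 0 ≤ 1 + a + s by linarith)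
      linarith
    have e5 : h ^ 3 * (3 + s) / (1 + s) ^ 2 ≤ h ^ 3 * ((2 - a) * (2 + s + a)) / (1 + s) ^ 2 := by
      gcongr
    have e6 : (1 - (1 - 2 * h)) ^ 3 * ((3 + s) / (8 * (1 + s) ^ 2)) =
        h ^ 3 * (3 + s) / (1 + s) ^ 2 := by field_simp; ring
    rw [e6] at key
    linarith only [key, e1, e2, e3, e5]
  · rw [← mul_assoc, ← e, ← hσ]
    rfl

theorem Ypos_raw {g r σ c W Ψ Λ q : ℝ} (hg0 : 0 < g) (hg1 : g ≤ 1 / 2) (hr : 0 < r)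
    (hσ0 : 0 < σ) (hσ : σ ^ 2 = sg2 g (r ^ 2)) (F : Facts r c W Ψ Λ)
    (hq : q ^ 2 ≤ sg2 g (r ^ 2)) (huq : r ^ 2 ≤ q) : 0 ≤ vY g (r ^ 2) σ W Ψ q := by
  have hΨ := F.hΨ
  obtain ⟨s, t, h, hs, ht, hrs, hσs, hgh, hh0, hh, htt⟩ := params hg0 hg1 hr hσ0 hσ
  have hd : (1 - 2 * g) * r ^ 2 = t ^ 2 - 2 * g := by linarith
  rw [← hσ] at hq
  obtain ⟨a, hqa, ha1, ha2⟩ := abs_div_le hσ0 hq
  have hsa : s ≤ a := by
    apply le_of_mul_le_mul_left _ hσ0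
    rw [← hqa, hσs]
    rw [hrs] at huq
    linarith
  have h1 : r ≤ 1 := by
    by_contra hc
    have h2 := (t_big hg0 hg1 hr ht htt (not_le.1 hc).le).1
    have h3 : 0 < r ^ 2 - 1 := by nlinarith
    have h4 := mul_pos hg0 h3
    have h5 : r ≤ t := by
      have := mul_le_mul_of_nonneg_right (hsa.trans ha2) ht.le
      linarith
    have := pow_le_pow_left₀ hr.le h5 2
    linarith
  obtain ⟨htr, ht1⟩ := t_small hg0 hg1 hr ht htt h1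
  have hrs' : r ≤ s := by
    have := mul_le_mul_of_nonneg_left ht1 hs.le
    linarith
  have key := pos_s (τ := a - s) hr hrs' ht ht1 (by linarith) (by linarith) hΨ hh0.le hh (F.f8 h1)
  have hw : (1 + r)⁻¹ * (1 + r) = 1 := inv_mul_cancel₀ (by linarith)
  have hW := W_pos hr hw F.f7
  have e : vY g (r ^ 2) σ W Ψ q = t / (r ^ 2) ^ 2 * (Ψ * r * s + (Ψ - (5 * Ψ - 2 * W)) * r * (a - s) -
      h ^ 3 * (a - s) ^ 2 * (2 - (s + (a - s))) * t / (1 + s) +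
      W * ((1 - 2 * h) / h) * r * (a - s)) := by
    have e1 : σ + r ^ 2 = s * t ^ 2 * (1 + s) := by rw [hσs, hrs]; ring
    unfold vY vlam vZ
    rw [e1, hd]
    clear key F hd htt hσ huq hq e1
    subst hqa hgh hσs hrs
    field_simp
    ring
  rw [e]
  have hv : 0 ≤ (1 - 2 * h) / h := div_nonneg (by linarith) hh0.le
  have e2 : 0 ≤ W * ((1 - 2 * h) / h) * r * (a - s) :=
    mul_nonneg (by positivity) (by linarith)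
  exact mul_nonneg (by positivity) (by linarith only [key, e2])

theorem Yneg_raw {g r σ c W Ψ Λ q : ℝ} (hg0 : 0 < g) (hg1 : g ≤ 1 / 2) (hr : 0 < r)
    (hσ0 : 0 < σ) (hσ : σ ^ 2 = sg2 g (r ^ 2)) (F : Facts r c W Ψ Λ)
    (hq0 : q ≤ 0) : vY g (r ^ 2) σ W Ψ q ≤ 0 := by
  obtain ⟨s, t, h, hs, ht, hrs, hσs, hgh, hh0, hh, htt⟩ := params hg0 hg1 hr hσ0 hσ
  have hd : (1 - 2 * g) * r ^ 2 = t ^ 2 - 2 * g := by linarith
  obtain ⟨a, ha, hqa⟩ : ∃ a, 0 ≤ a ∧ q = -(σ * a) :=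
    ⟨-q / σ, div_nonneg (by linarith) hσ0.le, by field_simp⟩
  have hw : (1 + r)⁻¹ * (1 + r) = 1 := inv_mul_cancel₀ (by linarith)
  have key := neg_s hr hw (ε := 1 - 2 * h) (by linarith) (by linarith) hs (eps_id ht hrs hgh htt)
    F.f9 F.f7
  have hW := W_pos hr hw F.f7
  have hv : 0 ≤ (1 - 2 * h) / h := div_nonneg (by linarith) hh0.le
  have e1 := v_ge hh0 hh hW.le
  have e : vY g (r ^ 2) σ W Ψ q = -(1 / r ^ 2 * (-(5 * Ψ - 2 * W) + (1 - 2 * h) / h * W +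
      (1 - (1 - 2 * h)) ^ 3 * (1 / (4 * (1 + s))) +
      ((Ψ - (5 * Ψ - 2 * W)) + (1 - 2 * h) / h * W) * (a / s) +
      h ^ 3 * (a * (4 * s + s ^ 2 + 2 * a + 2 * s * a + a ^ 2)) / (s ^ 2 * (1 + s)))) := by
    have e1 : σ + r ^ 2 = s * t ^ 2 * (1 + s) := by rw [hσs, hrs]; ring
    unfold vY vlam vZ
    rw [e1, hd]
    clear key F hd htt hσ hq0 e1
    subst hqa hgh hσs hrs
    field_simp
    ring
  rw [e, neg_nonpos]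
  have e2 : 0 ≤ ((Ψ - (5 * Ψ - 2 * W)) + (1 - 2 * h) / h * W) * (a / s) :=
    mul_nonneg (add_nonneg (by linarith [F.o1]) (by positivity)) (by positivity)
  have e3 : 0 ≤ h ^ 3 * (a * (4 * s + s ^ 2 + 2 * a + 2 * s * a + a ^ 2)) / (s ^ 2 * (1 + s)) := by
    positivity
  exact mul_nonneg (by positivity) (by linarith only [key, e1, e2, e3])

end Vale.Agent.P219.C3
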