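import Vale.Agent.P219.G.Cert3F
import Vale.Agent.P219.G.Cert3R

/-!
# The certificate for `m = 3`

`X = chi + psi (u - p)`, `Y = psi - lam (u - q) / γ - γ ^ 3 (u - q) ^ 2 (2 σ - q) / (σ ^ 6 (σ + u))`
with `σ = √(sg2)`, `η = 2 / 3`, where `chi` solves `(4 + u d/du) chi = u ^ (-3/2) J` and
`J u = ∫ x in 0..1, 2 x ^ 2 √(1 - x ^ 2 + u x ^ 2)`.
-/

namespace Vale.Agent.P219.C3

open Set Filter Topology

theorem comp_sqrt {F : ℝ → ℝ} {d u : ℝ} (hu : 0 < u) (h : HasDerivAt F (d / √u) √u) :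
    HasDerivAt (fun u => F √u) (d / (2 * u)) u := by
  refine (HasDerivAt.comp u (h := fun u : ℝ => √u) (h₂ := F) h
    (Real.hasDerivAt_sqrt hu.ne')).congr_deriv ?_
  have h1 := Real.sqrt_pos.2 hu
  have h2 := Real.sq_sqrt hu.le
  generalize √u = r at h1 h2
  rw [← h2]
  field_simp

theorem jr_cd {r : ℝ} (hr : 0 < r) : ContDiffAt ℝ 2 jr r := by
  have h1 : ContDiffAt ℝ 2 (K 2 (1 / 2)) (r ^ 2) := by
    simpa using (K_contDiffOn 2 2 (1 / 2)).contDiffAt (Ioi_mem_nhds (pow_pos hr 2))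
  exact contDiffAt_const.mul
    (ContDiffAt.comp (f := fun r : ℝ => r ^ 2) (g := K 2 (1 / 2)) r h1 (by fun_prop))

theorem Gr_cd {r : ℝ} (hr : 0 < r) : ContDiffAt ℝ 2 Gr r := by
  have h : ContDiffOn ℝ (1 + 1) Gr (Ioi 0) := by
    rw [contDiffOn_succ_iff_deriv_of_isOpen isOpen_Ioi]
    refine ⟨fun t _ => (Gr_deriv t).differentiableAt.differentiableWithinAt, by simp, ?_⟩
    refine ContDiffOn.congr (f := fun t => 2 * t ^ 4 * jr t) (fun t ht => ?_)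
      fun t _ => (Gr_deriv t).deriv
    exact (ContDiffAt.mul (by fun_prop) ((jr_cd ht).of_le (by norm_num))).contDiffWithinAt
  rw [one_add_one_eq_two] at h
  exact h.contDiffAt (Ioi_mem_nhds hr)

theorem cr_cd {r : ℝ} (hr : 0 < r) : ContDiffAt ℝ 2 cr r :=
  (Gr_cd hr).div (by fun_prop) (pow_ne_zero 8 hr.ne')

theorem f_cd {r : ℝ} (hr : 0 < r) : ContDiffAt ℝ 2 (fun r => jr r / r ^ 3) r :=
  (jr_cd hr).div (by fun_prop) (pow_ne_zero 3 hr.ne')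

theorem Wr_cd {r : ℝ} (hr : 0 < r) : ContDiffAt ℝ 2 Wr r :=
  (contDiffAt_const.mul (f_cd hr)).sub (contDiffAt_const.mul (cr_cd hr))

theorem Pr_cd {r : ℝ} (hr : 0 < r) : ContDiffAt ℝ 2 Pr r :=
  ((ContDiffAt.mul (by fun_prop) (cr_cd hr)).sub
    (ContDiffAt.mul (by fun_prop) (f_cd hr))).sub contDiffAt_const

theorem lift_cd {F : ℝ → ℝ} (h : ∀ r, 0 < r → ContDiffAt ℝ 2 F r) {z : ℝ × ℝ} (hz : 0 < z.1) :
    ContDiffAt ℝ 2 (fun z : ℝ × ℝ => F √z.1) z :=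
  ContDiffAt.comp (f := fun z : ℝ × ℝ => √z.1) (g := F) z (h _ (Real.sqrt_pos.2 hz))
    (contDiffAt_fst.sqrt hz.ne')

theorem sg_pos {g u : ℝ} (h0 : 0 < g) (h1 : g ≤ 1 / 2) (hu : 0 < u) : 0 < sg2 g u := by
  have := mul_nonneg (show 0 ≤ 1 - 2 * g by linarith) hu.le
  exact mul_pos hu (by linarith)

theorem sg_deriv {g u : ℝ} (h0 : 0 < g) (h1 : g ≤ 1 / 2) (hu : 0 < u) :
    HasDerivAt (fun u => √(sg2 g u)) (ct g u / √(sg2 g u)) u := by
  have h4 : HasDerivAt (sg2 g) (2 * ct g u) u := by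
    refine ((hasDerivAt_id' u).mul (((hasDerivAt_id' u).const_mul (1 - 2 * g)).const_add
      (2 * g))).congr_deriv ?_
    rw [ct]
    ring
  refine (h4.sqrt (sg_pos h0 h1 hu).ne').congr_deriv ?_
  have := (Real.sqrt_pos.2 (sg_pos h0 h1 hu)).ne'
  field_simp

theorem c_du {u : ℝ} (hu : 0 < u) :
    HasDerivAt (fun u => cr √u) (-(3 * cr √u - Wr √u) / (2 * u)) u :=
  comp_sqrt hu (cr_deriv (Real.sqrt_pos.2 hu))

theorem W_du {u : ℝ} (hu : 0 < u) :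
    HasDerivAt (fun u => Wr √u) (2 * (Lr √u - 4 * Wr √u) / (2 * u)) u :=
  comp_sqrt hu (Wr_deriv (Real.sqrt_pos.2 hu))

theorem P_du {u : ℝ} (hu : 0 < u) :
    HasDerivAt (fun u => Pr √u) (2 * (Wr √u - 3 * Pr √u) / (2 * u)) u :=
  comp_sqrt hu (Pr_deriv (Real.sqrt_pos.2 hu))

theorem psi_du {u : ℝ} (hu : 0 < u) :
    HasDerivAt (fun u => Pr √u / u) ((Wr √u - 4 * Pr √u) / u ^ 2) u := by
  refine ((P_du hu).fun_div (hasDerivAt_id' u) hu.ne').congr_deriv ?_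
  field_simp
  ring

theorem lam_du (g : ℝ) {u : ℝ} (hu : 0 < u) :
    HasDerivAt (fun u => vlam g u (Wr √u) (Pr √u)) (vlam1 g u (Wr √u) (Pr √u) (Lr √u)) u := by
  refine ((((((W_du hu).const_mul 2).fun_sub ((P_du hu).const_mul 4)).mul_const g).fun_add
    ((W_du hu).fun_mul ((hasDerivAt_id' u).const_mul (1 - 2 * g)))).fun_div (sq_deriv u)
    (pow_ne_zero 2 hu.ne')).congr_deriv ?_
  unfold vlam1
  field_simp
  ring

theorem derX : Der2 (fun u p => vX u (cr √u) (Pr √u) p)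
    (fun u p => vXu u (cr √u) (Wr √u) (Pr √u) p) (fun u _ => vXp u (Pr √u)) := by
  refine ⟨fun z hz => ContDiffAt.contDiffWithinAt ?_, fun u p hu => ⟨?_, ?_⟩⟩
  · exact (lift_cd (fun _ => cr_cd) hz).add
      (((lift_cd (fun _ => Pr_cd) hz).div contDiffAt_fst (ne_of_gt hz)).mul
        (contDiffAt_fst.sub contDiffAt_snd))
  · refine ((c_du hu).fun_add ((psi_du hu).fun_mul ((hasDerivAt_id' u).sub_const p))).congr_deriv ?_
    simp only [vXu, mul_one]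
  · refine ((((hasDerivAt_id' p).const_sub u).const_mul (Pr √u / u)).const_add
      (cr √u)).congr_deriv ?_
    simp only [vXp, mul_neg, mul_one]

theorem derY {g : ℝ} (h0 : 0 < g) (h1 : g ≤ 1 / 2) :
    Der2 (fun u q => vY g u √(sg2 g u) (Wr √u) (Pr √u) q)
      (fun u q => vYu g u √(sg2 g u) (Wr √u) (Pr √u) (Lr √u) q)
      (fun u q => vYq g u √(sg2 g u) (Wr √u) (Pr √u) q) := by
  have hD : ∀ u, 0 < u → √(sg2 g u) ^ 6 * (√(sg2 g u) + u) ≠ 0 := fun u hu => by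
    have := Real.sqrt_pos.2 (sg_pos h0 h1 hu)
    positivity
  refine ⟨fun z hz => ContDiffAt.contDiffWithinAt ?_, fun u q hu => ⟨?_, ?_⟩⟩
  · have hP := lift_cd (fun _ => Pr_cd) hz
    have hW := lift_cd (fun _ => Wr_cd) hz
    have hs : ContDiffAt ℝ 2 (fun z : ℝ × ℝ => √(sg2 g z.1)) z :=
      ContDiffAt.sqrt (by unfold sg2; fun_prop) (sg_pos h0 h1 hz).ne'
    have hQ : ContDiffAt ℝ 2 (fun z : ℝ × ℝ => z.1 - z.2) z := contDiffAt_fst.sub contDiffAt_snd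
    exact ((hP.div contDiffAt_fst (ne_of_gt hz)).sub
      (((((((contDiffAt_const.mul hW).sub (contDiffAt_const.mul hP)).mul contDiffAt_const).add
        (hW.mul (contDiffAt_const.mul contDiffAt_fst))).div (contDiffAt_fst.pow 2)
        (pow_ne_zero 2 (ne_of_gt hz))).mul hQ).div_const g)).add
      (contDiffAt_const.mul (((hQ.pow 2).mul ((contDiffAt_const.mul hs).sub contDiffAt_snd)).div
        ((hs.pow 6).mul (hs.add contDiffAt_fst)) (hD _ hz)))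
  · have hs := sg_deriv h0 h1 hu
    have hQ := (hasDerivAt_id' u).sub_const q
    refine (((psi_du hu).fun_sub (((lam_du g hu).fun_mul hQ).div_const g)).fun_add
      ((((hQ.fun_pow 2).fun_mul ((hs.const_mul 2).sub_const q)).fun_div
        ((hs.fun_pow 6).fun_mul (hs.fun_add (hasDerivAt_id' u))) (hD u hu)).const_mul
        (-g ^ 3))).congr_deriv ?_
    simp only [vYu, vZu, Nat.cast_ofNat, mul_one, Nat.add_one_sub_one, pow_one]
  · have hQ := (hasDerivAt_id' q).const_sub u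
    refine ((((hQ.const_mul (vlam g u (Wr √u) (Pr √u))).div_const g).const_sub
      (Pr √u / u)).fun_add ((((hQ.fun_pow 2).fun_mul ((hasDerivAt_id' q).const_sub
        (2 * √(sg2 g u)))).div_const (√(sg2 g u) ^ 6 * (√(sg2 g u) + u))).const_mul
        (-g ^ 3))).congr_deriv ?_
    simp only [vYq, vZq, Nat.cast_ofNat, Nat.add_one_sub_one, pow_one]
    ring

theorem eta_eq {r : ℝ} : 3 * r ^ 2 * cr r - (1 - r ^ 2) * Wr r - Pr r = 2 / 3 := by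
  unfold Wr Pr
  ring

theorem sing_r {g : ℝ} (h0 : 0 < g) (h1 : g ≤ 1 / 2) {l : ℝ} (hl : 0 < l) :
    ∃ r₀, 0 < r₀ ∧ ∀ r p, 0 < r → r ≤ r₀ → p ^ 2 ≤ sg2 g (r ^ 2) →
      |r ^ 3 * vX (r ^ 2) (cr r) (Pr r) p - 2 / 5 * jr 0| ≤ l := by
  have h2 := (Metric.tendsto_nhds.1 lim_c) (l / 2) (by positivity)
  obtain ⟨a, ha, h3⟩ := (mem_nhdsGT_iff_exists_Ioc_subset).1 h2
  refine ⟨min a (min 1 (l / 4)), lt_min ha (lt_min one_pos (by positivity)),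
    fun r p hr hr0 hp => ?_⟩
  have e1 : r ≤ a := hr0.trans (min_le_left _ _)
  have e2 : r ≤ 1 := hr0.trans ((min_le_right _ _).trans (min_le_left _ _))
  have e3 : r ≤ l / 4 := hr0.trans ((min_le_right _ _).trans (min_le_right _ _))
  have e4 : |r ^ 3 * cr r - 2 / 5 * jr 0| < l / 2 := h3 ⟨hr, e1⟩
  have hr2 : r ^ 2 ≤ 1 := pow_le_one₀ hr.le e2
  have e5 : p ^ 2 ≤ r ^ 2 := by
    refine hp.trans ?_
    have := mul_nonneg (sq_nonneg r)
      (mul_nonneg (show 0 ≤ 1 - 2 * g by linarith) (show 0 ≤ 1 - r ^ 2 by linarith))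
    unfold sg2
    linarith
  obtain ⟨e6, e7⟩ := abs_le_of_sq_le_sq' e5 hr.le
  have e8 : r ^ 2 ≤ r := by nlinarith
  have e9 : |r ^ 2 - p| ≤ l / 2 := abs_le.2 ⟨by linarith [sq_nonneg r], by linarith⟩
  have hP0 : 0 ≤ r * Pr r := mul_nonneg hr.le (facts hr).hΨ.le
  have e10 : |r * Pr r * (r ^ 2 - p)| ≤ 1 * (l / 2) := by
    rw [abs_mul, abs_of_nonneg hP0]
    exact mul_le_mul (rP_le hr) e9 (abs_nonneg _) zero_le_one
  have e : r ^ 3 * vX (r ^ 2) (cr r) (Pr r) p - 2 / 5 * jr 0 =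
      (r ^ 3 * cr r - 2 / 5 * jr 0) + r * Pr r * (r ^ 2 - p) := by
    unfold vX
    field_simp
    ring
  rw [e]
  linarith [abs_add_le (r ^ 3 * cr r - 2 / 5 * jr 0) (r * Pr r * (r ^ 2 - p))]

theorem ex_r {u : ℝ} (hu : 0 < u) : ∃ r, 0 < r ∧ u = r ^ 2 :=
  ⟨√u, Real.sqrt_pos.2 hu, (Real.sq_sqrt hu.le).symm⟩

end Vale.Agent.P219.C3

namespace Vale.Agent.P219

open C3

theorem ncert3 {γ : ℝ} (h0 : 0 < γ) (h1 : γ ≤ 1 / 2) : Nonempty (NCert 3 γ) := by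
  have hσ0 : ∀ r, 0 < r → 0 < √(sg2 γ (r ^ 2)) := fun r hr =>
    Real.sqrt_pos.2 (sg_pos h0 h1 (pow_pos hr 2))
  have hσ : ∀ r, 0 < r → √(sg2 γ (r ^ 2)) ^ 2 = sg2 γ (r ^ 2) := fun r hr =>
    Real.sq_sqrt (sg_pos h0 h1 (pow_pos hr 2)).le
  have eD : ∀ u q, 0 < u → q ^ 2 ≤ sg2 γ u → ∃ R, 0 < R ∧
      nD 3 γ (fun u q => vY γ u √(sg2 γ u) (Wr √u) (Pr √u) q)
        (fun u q => vYu γ u √(sg2 γ u) (Wr √u) (Pr √u) (Lr √u) q)
        (fun u q => vYq γ u √(sg2 γ u) (Wr √u) (Pr √u) q) u q = (q - u) * R := by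
    intro u q hu hq
    obtain ⟨r, hr, rfl⟩ := ex_r hu
    obtain ⟨R, hR, e⟩ := ray_raw h0 h1 hr (hσ0 r hr) (hσ r hr) (facts hr) hq
    refine ⟨R, hR, ?_⟩
    simp only [nD, Real.sqrt_sq hr.le, Nat.cast_ofNat]
    linarith only [e]
  refine ⟨⟨_, _, _, _, _, _, 2 / 3, 2 / 5 * jr 0, by norm_num, by linarith [jr_zero_pos], derX,
    derY h0 h1, fun u p hu hp => ?_, fun l hl => ?_,
    fun u p q M ι gx gy hu hp hq hM i0 i1 hx hy hxy => ?_, fun u q hu hq h => ?_,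
    fun u q hu hq h => ?_, fun u q hu hq h => ?_, fun u q hu _ h => ?_, fun u hu _ => ?_⟩⟩
  · obtain ⟨r, hr, rfl⟩ := ex_r hu
    simp only [Real.sqrt_sq hr.le]
    exact X_raw h0 h1 hr (hσ0 r hr) (hσ r hr) (facts hr) hp
  · obtain ⟨r₀, hr₀, h⟩ := sing_r h0 h1 hl
    refine ⟨r₀ ^ 2, by positivity, fun u p hu hu0 hp => ?_⟩
    obtain ⟨r, hr, rfl⟩ := ex_r hu
    simp only [Real.sqrt_sq hr.le]
    exact h r p hr (abs_le_of_sq_le_sq' hu0 hr₀.le).2 hp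
  · obtain ⟨r, hr, rfl⟩ := ex_r hu
    have key := main_raw h0 h1 hr (hσ0 r hr) (hσ r hr) (facts hr) hp hq hM i0 i1 hx hy hxy
    rw [eta_eq] at key
    simp only [nB, Real.sqrt_sq hr.le, Nat.cast_ofNat]
    exact key
  · obtain ⟨R, hR, e⟩ := eD u q hu hq
    rw [e]
    exact mul_pos (by linarith) hR
  · obtain ⟨R, hR, e⟩ := eD u q hu hq
    rw [e]
    exact mul_nonpos_of_nonpos_of_nonneg (by linarith) hR.le
  · obtain ⟨r, hr, rfl⟩ := ex_r hu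
    simp only [Real.sqrt_sq hr.le]
    exact Ypos_raw h0 h1 hr (hσ0 r hr) (hσ r hr) (facts hr) hq h
  · obtain ⟨r, hr, rfl⟩ := ex_r hu
    simp only [Real.sqrt_sq hr.le]
    exact Yneg_raw h0 h1 hr (hσ0 r hr) (hσ r hr) (facts hr) h
  · obtain ⟨r, hr, rfl⟩ := ex_r hu
    simp only [Real.sqrt_sq hr.le, Nat.cast_ofNat]
    rw [← eta_eq (r := r)]
    apply le_of_eq
    unfold vX vXu vXp vY vZ
    field_simp
    ring

end Vale.Agent.P219
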