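import Mathlib

/-!
# Certificate for `m = 3`: scalar inequalities
-/

namespace Vale.Agent.P219.C3

theorem core {x y a b s ξ A0 A3 B G L : ℝ} (hx : a + x = s) (hy : b + y = s)
    (ha1 : -1 ≤ a) (ha2 : a ≤ 1) (hb1 : -1 ≤ b) (hb2 : b ≤ 1) (hs : 0 < s) (hξ0 : 0 ≤ ξ)
    (hξ : ξ ≤ 2) (hA0 : 0 ≤ A0) (hA3 : 0 ≤ A3) (hG : 0 ≤ G)
    (h1 : G * s + G / 2 + L ≤ B) (h2 : s < 1 → A0 / 2 + A3 * (1 - s) + 5 * G / 8 + L ≤ B) :
    L * (x ^ 2 + y ^ 2) ≤ x * y * (A0 + A3 * (x + y)) + B * (x ^ 2 + y ^ 2) +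
      G * s * (a + b) * ((x ^ 2 + y ^ 2) / 2 + ξ) := by
  set n := x ^ 2 + y ^ 2 with hn
  have hn0 : 0 ≤ n := by positivity
  have hGs : 0 ≤ G * s := by positivity
  have third : ∀ k : ℝ, 0 ≤ k → s * (-(a + b)) / 2 ≤ k →
      -((G * k + G / 2) * n) ≤ G * s * (a + b) * (n / 2 + ξ) := by
    intro k hk hk2
    rcases le_total 0 (a + b) with h | h
    · have : 0 ≤ G * s * (a + b) * (n / 2 + ξ) := by positivity
      have : 0 ≤ (G * k + G / 2) * n := by positivity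
      linarith
    · have hτ : 0 ≤ -(a + b) := by linarith
      have e1 : 4 * (s * (-(a + b))) ≤ n := by
        have : x + y = 2 * s + (-(a + b)) := by linarith
        nlinarith [sq_nonneg (x - y), sq_nonneg (2 * s + (a + b))]
      have e2 : G * (s * (-(a + b)) / 2 * n) ≤ G * (k * n) :=
        mul_le_mul_of_nonneg_left (mul_le_mul_of_nonneg_right hk2 hn0) hG
      have e3 : s * (-(a + b)) * ξ ≤ s * (-(a + b)) * 2 :=
        mul_le_mul_of_nonneg_left hξ (by positivity)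
      have e4 : G * (s * (-(a + b)) * ξ) ≤ G * (n / 2) :=
        mul_le_mul_of_nonneg_left (by linarith) hG
      nlinarith
  by_cases hxy : 0 ≤ x ∧ 0 ≤ y
  · obtain ⟨hx0, hy0⟩ := hxy
    have t1 : 0 ≤ x * y * (A0 + A3 * (x + y)) := by positivity
    have t2 := third s hs.le (by nlinarith)
    have t3 : (G * s + G / 2 + L) * n ≤ B * n := mul_le_mul_of_nonneg_right h1 hn0
    nlinarith
  · have hs1 : s < 1 := by
      by_contra hc
      exact hxy ⟨by linarith, by linarith⟩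
    have hτ : -(a + b) ≤ 1 - s := by
      rcases not_and_or.1 hxy with h | h <;> push Not at h <;> linarith
    have t2 := third (1 / 8) (by norm_num) (by nlinarith [sq_nonneg (2 * s - 1)])
    have t3 := mul_le_mul_of_nonneg_right (h2 hs1) hn0
    have t4 : -(n / 2) ≤ x * y := by nlinarith [sq_nonneg (x + y)]
    have t5 : -((1 - s) * n) ≤ x * y * (x + y) := by
      have e1 : 0 ≤ x ^ 2 * (y + (1 - s)) := mul_nonneg (sq_nonneg _) (by linarith)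
      have e2 : 0 ≤ y ^ 2 * (x + (1 - s)) := mul_nonneg (sq_nonneg _) (by linarith)
      nlinarith
    have t6 := mul_le_mul_of_nonneg_left t4 hA0
    have t7 := mul_le_mul_of_nonneg_left t5 hA3
    nlinarith

theorem zloss1 {x y a b s : ℝ} (hx : a + x = s) (hy : b + y = s)
    (ha1 : -1 ≤ a) (ha2 : a ≤ 1) (hb1 : -1 ≤ b) (hb2 : b ≤ 1) (hs : 0 < s) :
    y ^ 2 * (2 - b) * a + x ^ 2 * (2 - a) * b ≤ (1 + 4 * s) * (x ^ 2 + y ^ 2) := by
  have e1 : 0 ≤ (1 - a) * (1 - b) := mul_nonneg (by linarith) (by linarith)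
  have e2 : 0 ≤ (1 + a) * (1 + b) := mul_nonneg (by linarith) (by linarith)
  have e3 : 0 ≤ (1 - a) * (1 - b) * (x + y) ^ 2 := mul_nonneg e1 (sq_nonneg _)
  have e4 : 0 ≤ (1 + a) * (1 + b) * (x - y) ^ 2 := mul_nonneg e2 (sq_nonneg _)
  have e5 : 0 ≤ s * (x + y) ^ 2 := by positivity
  have ea : a = s - x := by linarith
  have eb : b = s - y := by linarith
  subst ea eb
  nlinarith

theorem zloss2 {x y a b : ℝ} (ha1 : -1 ≤ a) (ha2 : a ≤ 1) (hb1 : -1 ≤ b) (hb2 : b ≤ 1) :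
    y ^ 2 * (2 - b) * a + x ^ 2 * (2 - a) * b ≤ 3 * (x ^ 2 + y ^ 2) := by
  have e1 : (2 - b) * a ≤ 3 := by nlinarith
  have e2 : (2 - a) * b ≤ 3 := by nlinarith
  have e3 := mul_le_mul_of_nonneg_left e1 (sq_nonneg y)
  have e4 := mul_le_mul_of_nonneg_left e2 (sq_nonneg x)
  nlinarith

theorem cross {x y a b s : ℝ} (hx : a + x = s) (hy : b + y = s) :
    y * a + x * b ≤ 5 / 4 * (x ^ 2 + y ^ 2) + a * b / 2 := by
  have ea : a = s - x := by linarith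
  have eb : b = s - y := by linarith
  subst ea eb
  nlinarith [sq_nonneg (s - 3 / 2 * (x + y)), sq_nonneg (x + y)]

theorem h2s {r g t ω δ ζ κ : ℝ} (hr : 0 < r) (hr1 : r ≤ 1) (hg0 : 0 < g) (hg1 : g ≤ 1 / 2)
    (htr : r ≤ t) (htt : t ^ 2 = 2 * g + (1 - 2 * g) * r ^ 2) (hκ1 : 1 / 2 ≤ κ)
    (hκ2 : κ ≤ 1 - g) (hω1 : r / 2 ≤ ω) (hω2 : ω ≤ 1) (hω3 : ω ≤ 13 / 10 * r)
    (hδ : 113 / 100 + 34 / 25 * r + 79 / 50 * r ^ 2 ≤ δ)
    (hζ1 : ζ ≤ (38 / 5 + 13 / 10 * r) * (1 + 4 * r) / 8) (hζ2 : ζ ≤ (38 / 5 + 13 / 10 * r) * 3 / 8) :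
    (1 - ω) * (r ^ 2 + g) + (5 - ω) / 2 * (t ^ 2 - 2 * g) + r ^ 2 * κ +
      ((3 + ω) / 2 - κ) * (r * t - r ^ 2) + 5 * g / 8 + g * ζ ≤
      (3 * δ - (5 - ω) / 2 * r ^ 2) / 2 := by
  have hd : 0 ≤ 1 - 2 * g := by linarith
  have hr2 : 0 ≤ r ^ 2 := sq_nonneg r
  have e0 : t ^ 2 - 2 * g = (1 - 2 * g) * r ^ 2 := by linarith
  have e1 : (1 - ω) * (r ^ 2 + g) ≤ (1 - r / 2) * (r ^ 2 + g) :=
    mul_le_mul_of_nonneg_right (by linarith) (by positivity)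
  have e2 : (5 - ω) / 2 * ((1 - 2 * g) * r ^ 2) ≤ (5 - r / 2) / 2 * ((1 - 2 * g) * r ^ 2) :=
    mul_le_mul_of_nonneg_right (by linarith) (by positivity)
  have e3 : r ^ 2 * κ ≤ r ^ 2 * (1 - g) := mul_le_mul_of_nonneg_left hκ2 hr2
  have e4 : (5 - ω) / 2 * r ^ 2 ≤ (5 - r / 2) / 2 * r ^ 2 :=
    mul_le_mul_of_nonneg_right (by linarith) hr2
  have e5 : 0 ≤ r * t - r ^ 2 := by nlinarith
  have e6 : r * t - r ^ 2 ≤ r * (1 + 2 * g + (1 - 2 * g) * r ^ 2) / 2 - r ^ 2 := by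
    have : 0 ≤ r * (t - 1) ^ 2 := by positivity
    have e : r * t ^ 2 = r * (2 * g + (1 - 2 * g) * r ^ 2) := by rw [htt]
    nlinarith
  rw [e0]
  rcases le_total r (1 / 2) with h | h
  · have e7 : ((3 + ω) / 2 - κ) * (r * t - r ^ 2) ≤
        (1 + 13 / 20 * r) * (r * (1 + 2 * g + (1 - 2 * g) * r ^ 2) / 2 - r ^ 2) :=
      mul_le_mul (by linarith) e6 e5 (by positivity)
    have e8 := mul_le_mul_of_nonneg_left hζ1 hg0.le
    have hy : 0 ≤ 1 / 2 - r := by linarith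
    have hr3 : 0 ≤ r ^ 3 := by positivity
    have p0 : 0 ≤ 339 / 200 + 77 / 50 * r - 541 / 200 * r ^ 2 + 41 / 40 * r ^ 3 - 13 / 40 * r ^ 4 := by
      have := mul_nonneg hy hr.le
      have := mul_nonneg hy hr3
      linarith
    have p1 : 0 ≤ 163 / 400 - 553 / 800 * r - 71 / 200 * r ^ 2 + 51 / 40 * r ^ 3 := by
      have := mul_nonneg hr.le (sq_nonneg (r - 1 / 2))
      have := sq_nonneg (r - 11 / 20)
      linarith
    linarith [mul_nonneg hd p0, mul_nonneg hg0.le p1]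
  · have e7 : ((3 + ω) / 2 - κ) * (r * t - r ^ 2) ≤
        (3 / 2) * (r * (1 + 2 * g + (1 - 2 * g) * r ^ 2) / 2 - r ^ 2) :=
      mul_le_mul (by linarith) e6 e5 (by positivity)
    have e8 := mul_le_mul_of_nonneg_left hζ2 hg0.le
    have hy : 0 ≤ 1 - r := by linarith
    have hz : 0 ≤ r - 1 / 2 := by linarith
    have hr3 : 0 ≤ r ^ 3 := by positivity
    have p0 : 0 ≤ 339 / 200 + 129 / 100 * r - 47 / 25 * r ^ 2 + 1 / 8 * r ^ 3 := by
      have := mul_nonneg hy hr.le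
      linarith
    have p1 : 0 ≤ -217 / 400 + 437 / 800 * r + 28 / 25 * r ^ 2 + 5 / 8 * r ^ 3 := by
      have := mul_nonneg hz hr.le
      linarith
    linarith [mul_nonneg hd p0, mul_nonneg hg0.le p1]

theorem w_pos {r w : ℝ} (hr : 0 < r) (hw : w * (1 + r) = 1) : 0 < w := by
  by_contra h
  have := mul_nonneg (neg_nonneg.2 (not_lt.1 h)) (show 0 ≤ 1 + r by linarith)
  linarith

theorem w_lt {r w : ℝ} (hr : 0 < r) (hw : w * (1 + r) = 1) : w < 1 := by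
  have := mul_pos hr (w_pos hr hw)
  linarith

theorem W_pos {r w W : ℝ} (hr : 0 < r) (hw : w * (1 + r) = 1)
    (hW : w * (41 / 250 + 17 / 100 * w) ≤ r * W) : 0 < W := by
  have hw0 := w_pos hr hw
  have : 0 < r * W := lt_of_lt_of_le (by positivity) hW
  exact (mul_pos_iff_of_pos_left hr).1 this

theorem cube_ge {ε : ℝ} (h : ε < 1 / 3) : 1 - 3 * ε ≤ (1 - ε) ^ 3 := by
  have := mul_nonneg (sq_nonneg ε) (show 0 ≤ 3 - ε by linarith)
  linarith

theorem s_big {r w ε s : ℝ} (hw : w * (1 + r) = 1) (hε0 : 0 ≤ ε) (h : ε < 1 / 3)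
    (hs : 0 < s) (hss : s ^ 2 = ε + (1 - ε) * r ^ 2) (hr2 : 1 / 2 ≤ r) :
    1 / 2 ≤ s ∧ w ≤ 2 / 3 ∧ w * (1 + s) ≤ 4 / 3 := by
  have hr : 0 < r := by linarith
  have hw0 := w_pos hr hw
  have hεr : 0 ≤ ε * r ^ 2 := by positivity
  have hs1 : s ≤ r + 1 / 2 := by
    apply (abs_le_of_sq_le_sq' _ (by linarith)).2
    linarith
  have hs2 : 1 / 2 ≤ s := by
    apply (abs_le_of_sq_le_sq' _ hs.le).2
    have : 0 ≤ (1 - ε) * (r ^ 2 - 1 / 4) := mul_nonneg (by linarith) (by nlinarith)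
    linarith
  have e1 := mul_le_mul_of_nonneg_left hr2 hw0.le
  have e2 := mul_le_mul_of_nonneg_left hs1 hw0.le
  exact ⟨hs2, by linarith, by linarith⟩

theorem s_small {r w ε s : ℝ} (hr : 0 < r) (hw : w * (1 + r) = 1) (hε0 : 0 ≤ ε)
    (hs : 0 < s) (hss : s ^ 2 = ε + (1 - ε) * r ^ 2) (hr2 : r < 1 / 2) :
    r ≤ s ∧ (s - r) ^ 2 ≤ ε ∧ 2 / 3 < w := by
  have hw0 := w_pos hr hw
  have hεr : 0 ≤ ε * r ^ 2 := by positivity
  have hη : r ≤ s := by
    apply (abs_le_of_sq_le_sq' _ hs.le).2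
    have : 0 ≤ ε * (1 - r ^ 2) := mul_nonneg hε0 (by nlinarith)
    linarith
  have e1 := mul_lt_mul_of_pos_left hr2 hw0
  have e2 := mul_nonneg hr.le (sub_nonneg.2 hη)
  exact ⟨hη, by linarith, by linarith⟩

theorem ray_A {r w O W : ℝ} (hr : 0 < r) (hw : w * (1 + r) = 1)
    (hO : O ≤ w ^ 2 * (1 / 50 + 24 / 125 * w + 7 / 50 * w ^ 2))
    (hW : w * (41 / 250 + 17 / 100 * w) ≤ r * W) : O < 2 / 3 * W := by
  have hw0 := w_pos hr hw
  have hy : r * w = 1 - w := by linarith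
  apply lt_of_mul_lt_mul_left _ hr.le
  have e1 := mul_le_mul_of_nonneg_left hO hr.le
  have e2 : r * (w ^ 2 * (1 / 50 + 24 / 125 * w + 7 / 50 * w ^ 2)) =
      w * ((1 - w) * (1 / 50 + 24 / 125 * w + 7 / 50 * w ^ 2)) := by rw [← hy]; ring
  have e3 : (1 - w) * (1 / 50 + 24 / 125 * w + 7 / 50 * w ^ 2) <
      2 / 3 * (41 / 250 + 17 / 100 * w) := by
    have := pow_pos hw0 2
    have := pow_pos hw0 3
    have := w_lt hr hw
    linarith
  have e4 := mul_lt_mul_of_pos_left e3 hw0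
  linarith

theorem ray_C {r w ε η O W : ℝ} (hr : 0 < r) (hw : w * (1 + r) = 1) (hε0 : 0 ≤ ε)
    (hη2 : η ^ 2 ≤ ε) (hw23 : 2 / 3 < w)
    (hO : O ≤ w ^ 2 * (1 / 50 + 24 / 125 * w + 7 / 50 * w ^ 2))
    (hW : w * (41 / 250 + 17 / 100 * w) ≤ r * W) :
    O < 2 * ε * W + 3 / 8 * w ^ 2 * (1 - 3 * ε - 2 * (w * η)) := by
  have hw0 := w_pos hr hw
  have hy : r * w = 1 - w := by linarith
  have hy0 : 0 < 1 - w := by linarith [w_lt hr hw]
  apply lt_of_mul_lt_mul_left _ hy0.le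
  have f1 := mul_le_mul_of_nonneg_left hO hy0.le
  have f2 : 2 * ε * w * (w * (41 / 250 + 17 / 100 * w)) ≤ 2 * ε * w * (r * W) :=
    mul_le_mul_of_nonneg_left hW (by positivity)
  have f3 : 2 * ε * w * (r * W) = (1 - w) * (2 * ε * W) := by rw [← hy]; ring
  have f4 : (1 - w) * η ≤ 3 / 4 * (1 - w) ^ 2 + ε / 3 := by
    have := sq_nonneg (η - 3 / 2 * (1 - w))
    linarith
  have f5 := mul_le_mul_of_nonneg_left f4 (show 0 ≤ 3 / 4 * w ^ 3 by positivity)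
  have f6 : 0 < 3 / 8 - (1 / 50 + 24 / 125 * w + 7 / 50 * w ^ 2) - 9 / 16 * w * (1 - w) := by
    have := sq_nonneg (w - 9 / 10)
    linarith
  have f7 : 0 ≤ 2 * (41 / 250 + 17 / 100 * w) - 9 / 8 * (1 - w) - w / 4 := by linarith
  have f8 := mul_pos (mul_pos (pow_pos hw0 2) hy0) f6
  have f9 := mul_nonneg (mul_nonneg (pow_pos hw0 2).le hε0) f7
  linarith

theorem ray_s {r w ε s O W : ℝ} (hr : 0 < r) (hw : w * (1 + r) = 1) (hε0 : 0 ≤ ε) (hε1 : ε < 1)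
    (hs : 0 < s) (hss : s ^ 2 = ε + (1 - ε) * r ^ 2)
    (hO : O ≤ w ^ 2 * (1 / 50 + 24 / 125 * w + 7 / 50 * w ^ 2))
    (hW : w * (41 / 250 + 17 / 100 * w) ≤ r * W) :
    O < 2 * ε * W + (1 - ε) ^ 3 * ((3 + s) / (8 * (1 + s) ^ 2)) := by
  have hw0 := w_pos hr hw
  have hW0 := W_pos hr hw hW
  have hA := ray_A hr hw hO hW
  have hφ0 : 0 < (3 + s) / (8 * (1 + s) ^ 2) := by positivity
  have h1ε : 0 < (1 - ε) ^ 3 := pow_pos (by linarith) 3
  rcases le_or_gt (1 / 3) ε with h | h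
  · have := mul_pos h1ε hφ0
    have := mul_le_mul_of_nonneg_right h hW0.le
    linarith
  have hc2 := mul_le_mul_of_nonneg_right (cube_ge h) hφ0.le
  rcases le_or_gt (1 / 2) r with hr2 | hr2
  · obtain ⟨hs2, hw23, hz⟩ := s_big hw hε0 h hs hss hr2
    have hz2 : (w * (1 + s)) ^ 2 ≤ (4 / 3) ^ 2 := pow_le_pow_left₀ (by positivity) hz 2
    have hO2 : O ≤ w ^ 2 * (211 / 1000) := by
      refine hO.trans (mul_le_mul_of_nonneg_left ?_ (sq_nonneg w))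
      have := mul_le_mul_of_nonneg_left hw23 hw0.le
      linarith
    have hB : O < (3 + s) / (8 * (1 + s) ^ 2) := by
      rw [lt_div_iff₀ (by positivity)]
      have := mul_le_mul_of_nonneg_right hO2 (show 0 ≤ 8 * (1 + s) ^ 2 by positivity)
      linarith
    generalize (3 + s) / (8 * (1 + s) ^ 2) = φ at *
    have e1 := mul_le_mul_of_nonneg_left hA.le (show 0 ≤ 3 * ε by positivity)
    have e2 := mul_lt_mul_of_pos_left hB (show 0 < 1 - 3 * ε by linarith)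
    linarith
  · obtain ⟨hη, hη2, hw23⟩ := s_small hr hw hε0 hs hss hr2
    have hC := ray_C hr hw hε0 hη2 hw23 hO hW
    have hz0 : 0 ≤ w * (s - r) := mul_nonneg hw0.le (by linarith)
    have hB : 3 / 8 * w ^ 2 * (1 - 2 * (w * (s - r))) ≤ (3 + s) / (8 * (1 + s) ^ 2) := by
      rw [le_div_iff₀ (by positivity)]
      have e : 3 / 8 * w ^ 2 * (1 - 2 * (w * (s - r))) * (8 * (1 + s) ^ 2) =
          3 * (1 - 2 * (w * (s - r))) * (w * (1 + r) + w * (s - r)) ^ 2 := by ring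
      rw [e, hw]
      have h2 := pow_nonneg hz0 2
      have h3 := pow_nonneg hz0 3
      generalize w * (s - r) = z at h2 h3 ⊢
      linarith
    have e1 := mul_le_mul_of_nonneg_left hB (show 0 ≤ 1 - 3 * ε by linarith)
    have e2 : 0 ≤ w ^ 2 * (ε * (w * (s - r))) := by positivity
    generalize (3 + s) / (8 * (1 + s) ^ 2) = φ at *
    generalize w * (s - r) = z at hC e1 e2
    linarith

theorem neg_A {r w o W : ℝ} (hr : 0 < r) (hw : w * (1 + r) = 1)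
    (hO : o ≤ w ^ 2 * (21 / 200 + 3 / 40 * w))
    (hW : w * (41 / 250 + 17 / 100 * w) ≤ r * W) : o ≤ 2 / 3 * W := by
  have hw0 := w_pos hr hw
  have hy : r * w = 1 - w := by linarith
  apply le_of_mul_le_mul_left _ hr
  have e1 := mul_le_mul_of_nonneg_left hO hr.le
  have e2 : r * (w ^ 2 * (21 / 200 + 3 / 40 * w)) =
      w * ((1 - w) * (21 / 200 + 3 / 40 * w)) := by
    rw [← hy]; ring
  have e3 : (1 - w) * (21 / 200 + 3 / 40 * w) ≤ 2 / 3 * (41 / 250 + 17 / 100 * w) := by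
    have := pow_pos hw0 2
    linarith
  have e4 := mul_le_mul_of_nonneg_left e3 hw0.le
  linarith

theorem neg_C {r w ε η o W : ℝ} (hr : 0 < r) (hw : w * (1 + r) = 1) (hε0 : 0 ≤ ε)
    (hη2 : η ^ 2 ≤ ε) (hw23 : 2 / 3 < w) (hO1 : o ≤ 9 / 50 * w ^ 2)
    (hW : w * (41 / 250 + 17 / 100 * w) ≤ r * W) :
    o ≤ 2 * ε * W + w / 4 * (1 - 3 * ε - w * η) := by
  have hw0 := w_pos hr hw
  have hw1 := w_lt hr hw
  have f4 : w ^ 2 ≤ w := by nlinarith
  have f0 : 2 / 3 * w ≤ w ^ 2 := by nlinarith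
  have hW1 : 3 / 8 * w + w ^ 2 / 8 ≤ W := by
    have : r * (3 / 8 * w + w ^ 2 / 8) ≤ r * W := by
      have hy : r * w = 1 - w := by linarith
      have e : r * (3 / 8 * w + w ^ 2 / 8) = (1 - w) * (3 / 8 + w / 8) := by rw [← hy]; ring
      rw [e]
      linarith
    exact le_of_mul_le_mul_left this hr
  have f1 := mul_le_mul_of_nonneg_left hW1 hε0
  have f2 : η ≤ 1 / 4 + ε := by
    have := sq_nonneg (η - 1 / 2)
    linarith
  have f3 := mul_le_mul_of_nonneg_left f2 (sq_nonneg w)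
  linarith

theorem neg_s {r w ε s o W : ℝ} (hr : 0 < r) (hw : w * (1 + r) = 1) (hε0 : 0 ≤ ε) (hε1 : ε < 1)
    (hs : 0 < s) (hss : s ^ 2 = ε + (1 - ε) * r ^ 2)
    (hO : o ≤ w ^ 2 * (21 / 200 + 3 / 40 * w))
    (hW : w * (41 / 250 + 17 / 100 * w) ≤ r * W) :
    o ≤ 2 * ε * W + (1 - ε) ^ 3 * (1 / (4 * (1 + s))) := by
  have hw0 := w_pos hr hw
  have hw1 := w_lt hr hw
  have hW0 := W_pos hr hw hW
  have hA := neg_A hr hw hO hW
  have hφ0 : 0 < 1 / (4 * (1 + s)) := by positivity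
  have h1ε : 0 < (1 - ε) ^ 3 := pow_pos (by linarith) 3
  rcases le_or_gt (1 / 3) ε with h | h
  · have := mul_pos h1ε hφ0
    have := mul_le_mul_of_nonneg_right h hW0.le
    linarith
  have hc2 := mul_le_mul_of_nonneg_right (cube_ge h) hφ0.le
  have hO1 : o ≤ 9 / 50 * w ^ 2 := by
    have := mul_le_mul_of_nonneg_left hw1.le (sq_nonneg w)
    linarith
  rcases le_or_gt (1 / 2) r with hr2 | hr2
  · obtain ⟨hs2, hw23, hz⟩ := s_big hw hε0 h hs hss hr2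
    have hB : o ≤ 1 / (4 * (1 + s)) := by
      rw [le_div_iff₀ (by positivity)]
      have e1 := mul_le_mul_of_nonneg_right hO1 (show 0 ≤ 4 * (1 + s) by positivity)
      have e2 := mul_le_mul_of_nonneg_left hz hw0.le
      linarith
    generalize 1 / (4 * (1 + s)) = φ at *
    have e1 := mul_le_mul_of_nonneg_left hA (show 0 ≤ 3 * ε by positivity)
    have e2 := mul_le_mul_of_nonneg_left hB (show 0 ≤ 1 - 3 * ε by linarith)
    linarith
  · obtain ⟨hη, hη2, hw23⟩ := s_small hr hw hε0 hs hss hr2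
    have hC := neg_C hr hw hε0 hη2 hw23 hO1 hW
    have hz0 : 0 ≤ w * (s - r) := mul_nonneg hw0.le (by linarith)
    have hB : w / 4 * (1 - w * (s - r)) ≤ 1 / (4 * (1 + s)) := by
      rw [le_div_iff₀ (by positivity)]
      have e : w / 4 * (1 - w * (s - r)) * (4 * (1 + s)) =
          (1 - w * (s - r)) * (w * (1 + r) + w * (s - r)) := by ring
      rw [e, hw]
      have h2 := pow_nonneg hz0 2
      generalize w * (s - r) = z at h2 ⊢
      linarith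
    have e1 := mul_le_mul_of_nonneg_left hB (show 0 ≤ 1 - 3 * ε by linarith)
    have e2 : 0 ≤ w * (ε * (w * (s - r))) := by positivity
    generalize 1 / (4 * (1 + s)) = φ at *
    generalize w * (s - r) = z at hC e1 e2
    linarith

theorem pos_s {r s t τ Ψ o h : ℝ} (hr : 0 < r) (hrs : r ≤ s) (ht0 : 0 < t) (ht : t ≤ 1)
    (hτ0 : 0 ≤ τ) (hτ : τ ≤ 1 - s) (hΨ : 0 < Ψ) (hh0 : 0 ≤ h) (hh : h ≤ 1 / 2)
    (hF : (1 - r) / (8 * (1 + r)) ≤ r * (1 + r) * Ψ - r * o) :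
    h ^ 3 * τ ^ 2 * (2 - (s + τ)) * t / (1 + s) ≤ Ψ * r * s + (Ψ - o) * r * τ := by
  have hs : 0 < s := by linarith
  have e1 : τ * (2 - (s + τ)) ≤ 1 - s := by
    have := mul_nonneg (show 0 ≤ 1 - τ by linarith) (show 0 ≤ 1 - s - τ by linarith)
    linarith
  have e0 : 0 ≤ τ * (2 - (s + τ)) := mul_nonneg hτ0 (by linarith)
  have e2 : h ^ 3 ≤ (1 / 2) ^ 3 := pow_le_pow_left₀ hh0 hh 3
  have e3 : h ^ 3 * t ≤ 1 / 8 := by
    have := mul_le_mul e2 ht ht0.le (by norm_num)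
    linarith
  have e4 : h ^ 3 * t * (τ * (2 - (s + τ))) ≤ 1 / 8 * (1 - s) := mul_le_mul e3 e1 e0 (by norm_num)
  have e5 : h ^ 3 * t * (τ * (2 - (s + τ))) / (1 + s) ≤ (1 - r) / (8 * (1 + r)) := by
    rw [div_le_div_iff₀ (by positivity) (by positivity)]
    have := mul_le_mul_of_nonneg_right e4 (show 0 ≤ 8 * (1 + r) by positivity)
    linarith
  have e6 := mul_le_mul_of_nonneg_left (e5.trans hF) hτ0
  have e7 : τ * r ≤ s := by nlinarith
  have e8 := mul_le_mul_of_nonneg_left e7 (show 0 ≤ Ψ * r by positivity)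
  have e9 : h ^ 3 * τ ^ 2 * (2 - (s + τ)) * t / (1 + s) =
      τ * (h ^ 3 * t * (τ * (2 - (s + τ))) / (1 + s)) := by ring
  rw [e9]
  linarith

end Vale.Agent.P219.C3
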