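import Mathlib

/-!
# Certificates in normalised variables (see `notes/P219G.md`)

`m` is the dimension of the boundary, `γ ∈ (0, 1/2]` the only parameter of the model ball
(`γ = 1/2` is the Euclidean case), `u > 0` the normalised distance variable, `p, q` the normalised
normal components of the chord at its two ends, `p ^ 2, q ^ 2 ≤ sg2 γ u`.
-/

namespace Vale.Agent.P219

open Set

/-- The normalised `cosh`. -/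
def ct (γ u : ℝ) : ℝ := γ + (1 - 2 * γ) * u

/-- The normalised `sinh ^ 2`. -/
def sg2 (γ u : ℝ) : ℝ := u * (2 * γ + (1 - 2 * γ) * u)

/-- The first variation term. -/
def nB (m : ℕ) (γ : ℝ) (X Xu Xp : ℝ → ℝ → ℝ) (u p q M : ℝ) : ℝ :=
  m * X u p * (ct γ u - q) + Xu u p * (sg2 γ u - q ^ 2) + Xp u p * (ct γ u * p - M * q)

/-- The derivative along rays. -/
def nD (m : ℕ) (γ : ℝ) (Y Yu Yq : ℝ → ℝ → ℝ) (u q : ℝ) : ℝ :=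
  (m + 1) * ct γ u * Y u q + sg2 γ u * Yu u q + ct γ u * q * Yq u q

/-- `F` is `C²` on the half plane `u > 0` with first derivatives `Fu`, `Fp`. -/
def Der2 (F Fu Fp : ℝ → ℝ → ℝ) : Prop :=
  ContDiffOn ℝ 2 (fun z : ℝ × ℝ => F z.1 z.2) {z | 0 < z.1} ∧
    ∀ u p, 0 < u → HasDerivAt (fun t => F t p) (Fu u p) u ∧ HasDerivAt (F u) (Fp u p) p

/-- A certificate. -/
structure NCert (m : ℕ) (γ : ℝ) where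
  X : ℝ → ℝ → ℝ
  Xu : ℝ → ℝ → ℝ
  Xp : ℝ → ℝ → ℝ
  Y : ℝ → ℝ → ℝ
  Yu : ℝ → ℝ → ℝ
  Yq : ℝ → ℝ → ℝ
  η : ℝ
  x₀ : ℝ
  η_pos : 0 < η
  x₀_pos : 0 < x₀
  derX : Der2 X Xu Xp
  derY : Der2 Y Yu Yq
  X_nonneg : ∀ u p, 0 < u → p ^ 2 ≤ sg2 γ u → 0 ≤ X u p
  sing : ∀ l : ℝ, 0 < l → ∃ u₀ : ℝ, 0 < u₀ ∧ ∀ u p, 0 < u → u ≤ u₀ → p ^ 2 ≤ sg2 γ u →
    |√u ^ m * X u p - x₀| ≤ l
  main : ∀ u p q M ι gx gy : ℝ, 0 < u → p ^ 2 ≤ sg2 γ u → q ^ 2 ≤ sg2 γ u →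
    (sg2 γ u * M - ct γ u * p * q) ^ 2 ≤ γ ^ 2 * (sg2 γ u - p ^ 2) * (sg2 γ u - q ^ 2) →
    0 ≤ ι → ι ≤ 1 → 0 ≤ gx → 0 ≤ gy → (p * q / sg2 γ u * (1 - ι)) ^ 2 ≤ gx * gy →
    0 ≤ nB m γ X Xu Xp u p q M + nB m γ X Xu Xp u q p M +
      γ * (2 * η + ι * (Y u q * p + Y u p * q) + X u p * gy + X u q * gx)
  ray_pos : ∀ u q, 0 < u → q ^ 2 ≤ sg2 γ u → u < q → 0 < nD m γ Y Yu Yq u q
  ray_neg : ∀ u q, 0 < u → q ^ 2 ≤ sg2 γ u → q ≤ u → nD m γ Y Yu Yq u q ≤ 0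
  Y_pos : ∀ u q, 0 < u → q ^ 2 ≤ sg2 γ u → u ≤ q → 0 ≤ Y u q
  Y_neg : ∀ u q, 0 < u → q ^ 2 ≤ sg2 γ u → q ≤ 0 → Y u q ≤ 0
  model : ∀ u, 0 < u → u < 1 →
    m * X u u * (1 - 2 * u) + 2 * u * (1 - u) * (Xu u u + Xp u u) + η + u * Y u u ≤ 0

end Vale.Agent.P219
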