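import Vale.Agent.P219.G.Cert3A
import Vale.Agent.P219.G.NCert

/-!
# Certificate for `m = 3`: the main inequality
-/

namespace Vale.Agent.P219.C3

/-- The bounds on the values of the one-variable functions at `u = r ^ 2`. -/
structure Facts (r c W Ψ Λ : ℝ) : Prop where
  hΨ : 0 < Ψ
  f1 : r ≤ 1 → 1 ≤ (38 / 5 + 13 / 10 * r) * (r * (1 + r) * Ψ)
  f1' : 2 / 25 ≤ r * (1 + r) * Ψ
  f2 : (113 / 100 + 34 / 25 * r + 79 / 50 * r ^ 2) * Ψ ≤ r ^ 2 * c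
  o0 : 0 ≤ 5 * Ψ - 2 * W
  o1 : 5 * Ψ - 2 * W ≤ Ψ
  o2 : 5 * Ψ - 2 * W ≤ 13 / 10 * r * Ψ
  o3 : r ≤ 1 → r / 2 * Ψ ≤ 5 * Ψ - 2 * W
  f4 : 22 * W - 4 * Λ - 20 * Ψ ≤
    (1 + r)⁻¹ ^ 2 * (1 / 50 + 24 / 125 * (1 + r)⁻¹ + 7 / 50 * (1 + r)⁻¹ ^ 2)
  f5 : W ≤ 4 * Λ - 11 * W
  f6 : 0 ≤ Λ
  f7 : (1 + r)⁻¹ * (41 / 250 + 17 / 100 * (1 + r)⁻¹) ≤ r * W
  f8 : r ≤ 1 → (1 - r) / (8 * (1 + r)) ≤ r * (1 + r) * Ψ - r * (5 * Ψ - 2 * W)
  f9 : 5 * Ψ - 2 * W ≤ (1 + r)⁻¹ ^ 2 * (21 / 200 + 3 / 40 * (1 + r)⁻¹)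

theorem t_small {g r t : ℝ} (hg0 : 0 < g) (hg1 : g ≤ 1 / 2) (hr : 0 < r) (ht : 0 < t)
    (htt : t ^ 2 = 2 * g + (1 - 2 * g) * r ^ 2) (hr1 : r ≤ 1) : r ≤ t ∧ t ≤ 1 := by
  have h1 : 0 ≤ 1 - r ^ 2 := by nlinarith
  have h2 := mul_nonneg hg0.le h1
  have h3 := mul_nonneg (show 0 ≤ 1 - 2 * g by linarith) h1
  exact ⟨(abs_le_of_sq_le_sq' (by linarith) ht.le).2,
    (abs_le_of_sq_le_sq' (by linarith) zero_le_one).2⟩

theorem t_big {g r t : ℝ} (hg0 : 0 < g) (hg1 : g ≤ 1 / 2) (hr : 0 < r) (ht : 0 < t)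
    (htt : t ^ 2 = 2 * g + (1 - 2 * g) * r ^ 2) (hr1 : 1 ≤ r) : 1 ≤ t ∧ t ≤ r := by
  have h1 : 0 ≤ r ^ 2 - 1 := by nlinarith
  have h2 := mul_nonneg hg0.le h1
  have h3 := mul_nonneg (show 0 ≤ 1 - 2 * g by linarith) h1
  exact ⟨(abs_le_of_sq_le_sq' (by linarith) ht.le).2,
    (abs_le_of_sq_le_sq' (by linarith) hr.le).2⟩

theorem zeta_ex {g r t s h Ψ ω z : ℝ} (hg0 : 0 < g) (hg1 : g ≤ 1 / 2) (hr : 0 < r) (ht : 0 < t)
    (htt : t ^ 2 = 2 * g + (1 - 2 * g) * r ^ 2) (hs : s * t = r) (hh0 : 0 ≤ h) (hh : h ≤ 1 / 2)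
    (hht : h * t ^ 2 = g) (hΨ : 0 < Ψ)
    (f1 : r ≤ 1 → 1 ≤ (38 / 5 + 13 / 10 * r) * (r * (1 + r) * Ψ)) (f1' : 2 / 25 ≤ r * (1 + r) * Ψ)
    (hω2 : ω ≤ 1) (hω3 : ω ≤ 13 / 10 * r) (hz : z * (r * (t + r) * Ψ) = g * (h ^ 3 * t ^ 2)) :
    ∃ ζ, ζ ≤ 47 / 10 ∧ (r ≤ 1 → ζ ≤ (38 / 5 + 13 / 10 * r) * (1 + 4 * r) / 8 ∧
      ζ ≤ (38 / 5 + 13 / 10 * r) * 3 / 8) ∧ 5 / 4 * ω ≤ ζ ∧
      (z * (1 + 4 * s) ≤ g * ζ ∨ z * 3 ≤ g * ζ) := by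
  have hD : 0 < r * (t + r) * Ψ := by positivity
  have h8 : h ^ 3 ≤ (1 / 2) ^ 3 := pow_le_pow_left₀ hh0 hh 3
  have hh3 : 0 ≤ h ^ 3 := by positivity
  have small : r ≤ 1 → ∀ k m : ℝ, 0 ≤ k → 0 ≤ m → t ^ 2 * k * (1 + r) ≤ m * (t + r) →
      z * k ≤ g * ((38 / 5 + 13 / 10 * r) * m / 8) := by
    intro hr1 k m hk hm hkm
    apply le_of_mul_le_mul_right _ (mul_pos hD (show 0 < 1 + r by linarith))
    have e1 : z * k * (r * (t + r) * Ψ * (1 + r)) = g * (h ^ 3 * (t ^ 2 * k * (1 + r))) := by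
      linear_combination k * (1 + r) * hz
    have e2 : h ^ 3 * (t ^ 2 * k * (1 + r)) ≤ (1 / 2) ^ 3 * (m * (t + r)) :=
      mul_le_mul h8 hkm (by positivity) (by positivity)
    have e3 := mul_le_mul_of_nonneg_left (f1 hr1) (show 0 ≤ m * (t + r) by positivity)
    have e4 : h ^ 3 * (t ^ 2 * k * (1 + r)) ≤
        (38 / 5 + 13 / 10 * r) * m / 8 * (r * (t + r) * Ψ * (1 + r)) := by linarith
    have e5 := mul_le_mul_of_nonneg_left e4 hg0.le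
    rw [e1]
    linarith
  rcases le_or_gt r (1 / 2) with h1 | h1
  · obtain ⟨htr, ht1⟩ := t_small hg0 hg1 hr ht htt (by linarith)
    have hs0 : 0 < s := by
      by_contra hc
      have := mul_nonneg (neg_nonneg.2 (not_lt.1 hc)) ht.le
      linarith
    have hr2 := mul_le_mul_of_nonneg_left h1 hr.le
    refine ⟨(38 / 5 + 13 / 10 * r) * (1 + 4 * r) / 8, by linarith, fun _ => ⟨le_rfl, by linarith⟩,
      by nlinarith, Or.inl (small (by linarith) _ _ (by positivity) (by positivity) ?_)⟩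
    have e : t ^ 2 * (1 + 4 * s) = t ^ 2 + 4 * r * t := by rw [← hs]; ring
    rw [e]
    have := mul_nonneg (show 0 ≤ 1 - t by linarith)
      (show 0 ≤ t + r + r * t + 4 * r ^ 2 by positivity)
    linarith
  rcases le_or_gt r 1 with h2 | h2
  · obtain ⟨htr, ht1⟩ := t_small hg0 hg1 hr ht htt h2
    have hr2 := mul_le_mul_of_nonneg_left h1.le hr.le
    refine ⟨(38 / 5 + 13 / 10 * r) * 3 / 8, by linarith, fun _ => ⟨by linarith, le_rfl⟩,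
      by linarith, Or.inr (small h2 _ _ (by positivity) (by positivity) ?_)⟩
    have := mul_nonneg (show 0 ≤ 1 - t by linarith) (show 0 ≤ t + r + r * t by positivity)
    linarith
  · obtain ⟨ht1, htr⟩ := t_big hg0 hg1 hr ht htt h2.le
    refine ⟨47 / 10, le_rfl, fun h => absurd h (by linarith), by linarith, Or.inr ?_⟩
    apply le_of_mul_le_mul_right _ hD
    have e0 : h ^ 3 * t ^ 2 = h ^ 2 * g := by rw [← hht]; ring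
    have e1 : h ^ 2 ≤ (1 / 2) ^ 2 := pow_le_pow_left₀ hh0 hh 2
    have e2 : h ^ 2 * g ≤ (1 / 2) ^ 2 * (1 / 2) := mul_le_mul e1 hg1 hg0.le (by norm_num)
    have e3 : r * (1 + r) * Ψ ≤ r * (t + r) * Ψ := by gcongr
    have e4 : h ^ 3 * t ^ 2 * 3 ≤ 47 / 10 * (r * (t + r) * Ψ) := by linarith
    have e5 := mul_le_mul_of_nonneg_left e4 hg0.le
    have e6 : z * 3 * (r * (t + r) * Ψ) = g * (h ^ 3 * t ^ 2 * 3) := by linear_combination 3 * hz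
    rw [e6]
    linarith

theorem Tn {g r t s h x y a b ξ ω δ ζ A0 : ℝ} (hg0 : 0 < g) (hg1 : g ≤ 1 / 2) (hr : 0 < r)
    (ht : 0 < t) (htt : t ^ 2 = 2 * g + (1 - 2 * g) * r ^ 2) (hs : s * t = r) (hs0 : 0 < s)
    (hh0 : 0 ≤ h) (hh : h ≤ 1 / 2) (hht : h * t ^ 2 = g)
    (hx : a + x = s) (hy : b + y = s) (ha1 : -1 ≤ a) (ha2 : a ≤ 1) (hb1 : -1 ≤ b) (hb2 : b ≤ 1)
    (hξ0 : 0 ≤ ξ) (hξ : ξ ≤ 2) (hω0 : 0 ≤ ω) (hω1 : r ≤ 1 → r / 2 ≤ ω) (hω2 : ω ≤ 1)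
    (hω3 : ω ≤ 13 / 10 * r) (hδ : 113 / 100 + 34 / 25 * r + 79 / 50 * r ^ 2 ≤ δ)
    (hζ0 : ζ ≤ 47 / 10) (hζ : r ≤ 1 → ζ ≤ (38 / 5 + 13 / 10 * r) * (1 + 4 * r) / 8 ∧
      ζ ≤ (38 / 5 + 13 / 10 * r) * 3 / 8) (hζp : 0 ≤ ζ) (hA0 : 0 ≤ A0)
    (hA1 : A0 ≤ (2 - 2 * ω) * (r ^ 2 + g) + (5 - ω) * (t ^ 2 - 2 * g) + 2 * r ^ 2 * (1 - h)) :
    g * ζ * (x ^ 2 + y ^ 2) ≤ x * y * (A0 + ((3 + ω) / 2 - (1 - h)) * (r * t) * (x + y)) +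
      (3 * δ - (5 - ω) / 2 * r ^ 2) / 2 * (x ^ 2 + y ^ 2) +
      g * s * (a + b) * ((x ^ 2 + y ^ 2) / 2 + ξ) := by
  have hr2 : 0 ≤ r ^ 2 := sq_nonneg r
  have hωr := mul_nonneg hω0 hr2
  refine core hx hy ha1 ha2 hb1 hb2 hs0 hξ0 hξ hA0
    (mul_nonneg (by linarith) (by positivity)) hg0.le ?_ ?_
  · rcases le_total r 1 with h1 | h1
    · obtain ⟨htr, ht1⟩ := t_small hg0 hg1 hr ht htt h1
      have hs1 : s ≤ 1 := by
        apply le_of_mul_le_mul_right _ ht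
        linarith
      have e1 : g * (s + 1 / 2 + ζ) ≤ 1 / 2 * (s + 1 / 2 + ζ) :=
        mul_le_mul_of_nonneg_right hg1 (by positivity)
      have := (hζ h1).1
      linarith
    · obtain ⟨ht1, htr⟩ := t_big hg0 hg1 hr ht htt h1
      have hs1 : s ≤ r := by
        have := mul_le_mul_of_nonneg_left ht1 hs0.le
        linarith
      have e1 : g * (s + 1 / 2 + ζ) ≤ 1 / 2 * (s + 1 / 2 + ζ) :=
        mul_le_mul_of_nonneg_right hg1 (by positivity)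
      linarith
  · intro hs1
    have hrt : r < t := by
      have := mul_lt_mul_of_pos_right hs1 ht
      linarith
    have h1 : r ≤ 1 := by
      by_contra hc
      linarith [(t_big hg0 hg1 hr ht htt (not_le.1 hc).le).2]
    obtain ⟨htr, ht1⟩ := t_small hg0 hg1 hr ht htt h1
    have hgh : g ≤ h := by
      have : t ^ 2 ≤ 1 := by nlinarith
      have := mul_le_mul_of_nonneg_left this hh0
      linarith
    have key := h2s (κ := 1 - h) hr h1 hg0 hg1 htr htt (by linarith) (by linarith) (hω1 h1) hω2 hω3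
      hδ (hζ h1).1 (hζ h1).2
    have e : ((3 + ω) / 2 - (1 - h)) * (r * t) * (1 - s) =
        ((3 + ω) / 2 - (1 - h)) * (r * t - r ^ 2) := by rw [← hs]; ring
    rw [e]
    linarith

theorem brk {g r t s h ω δ : ℝ} (hg0 : 0 < g) (hg1 : g ≤ 1 / 2) (hr : 0 < r)
    (ht : 0 < t) (htt : t ^ 2 = 2 * g + (1 - 2 * g) * r ^ 2) (hs : s * t = r)
    (hh0 : 0 ≤ h) (hht : h * t ^ 2 = g) (hω0 : 0 ≤ ω) (hω2 : ω ≤ 1)
    (hω3 : ω ≤ 13 / 10 * r) (hδ : 113 / 100 + 34 / 25 * r + 79 / 50 * r ^ 2 ≤ δ) {m n : ℝ}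
    (hm0 : 0 ≤ m) (hm1 : m ≤ 1) (hn : n ≤ m) :
    0 ≤ -(2 * g * m) - ω * g * m / 2 + (5 - ω) / 2 * (t ^ 2 - 2 * g) * (s ^ 2 - n) +
      2 * h * m * (δ + r ^ 2 - r * t) := by
  have hr2 : 0 ≤ r ^ 2 := sq_nonneg r
  have hdu : t ^ 2 - 2 * g = (1 - 2 * g) * r ^ 2 := by linarith
  have hdu0 : 0 ≤ t ^ 2 - 2 * g := by rw [hdu]; exact mul_nonneg (by linarith) hr2
  have hK0 : 0 ≤ (5 - ω) / 2 * (t ^ 2 - 2 * g) := mul_nonneg (by linarith) hdu0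
  have hhm : 0 ≤ h * m := by positivity
  rcases le_total r 1 with h1 | h1
  · obtain ⟨htr, ht1⟩ := t_small hg0 hg1 hr ht htt h1
    have hr1 : 0 ≤ 1 - r ^ 2 := by nlinarith
    have e0 : 1 - s ^ 2 = 2 * h * (1 - r ^ 2) := by
      apply mul_right_cancel₀ (pow_ne_zero 2 ht.ne')
      have : s ^ 2 * t ^ 2 = r ^ 2 := by rw [← hs]; ring
      linear_combination htt - this - 2 * (1 - r ^ 2) * hht
    have e1 : -(m * (2 * h * (1 - r ^ 2))) ≤ s ^ 2 - n := by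
      rw [← e0]
      have := mul_nonneg (sq_nonneg s) (show 0 ≤ 1 - m by linarith)
      linarith
    have e2 := mul_le_mul_of_nonneg_left e1 hK0
    have e3 : (5 - ω) / 2 * (t ^ 2 - 2 * g) ≤ 5 / 2 * r ^ 2 := by
      apply mul_le_mul (by linarith) _ hdu0 (by norm_num)
      have := mul_nonneg hg0.le hr2
      linarith
    have e4 := mul_le_mul_of_nonneg_right e3 hr1
    have ht2 : t ^ 2 ≤ 1 := by nlinarith
    have e5 : ω * t ^ 2 ≤ 13 / 10 * r * 1 := mul_le_mul hω3 ht2 (sq_nonneg t) (by positivity)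
    have e6 := mul_le_mul_of_nonneg_left ht1 hr.le
    have e7 : 0 ≤ δ + r ^ 2 - r * t - t ^ 2 - ω * t ^ 2 / 4 -
        (5 - ω) / 2 * (t ^ 2 - 2 * g) * (1 - r ^ 2) := by
      have := pow_nonneg hr.le 4
      linarith
    have e8 := mul_nonneg hhm e7
    generalize (5 - ω) / 2 * (t ^ 2 - 2 * g) = K at e2 e8 ⊢
    rw [← hht]
    linarith
  · obtain ⟨ht1, htr⟩ := t_big hg0 hg1 hr ht htt h1
    have hs1 : 1 ≤ s := by
      apply le_of_mul_le_mul_right _ ht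
      linarith
    have e1 : 0 ≤ s ^ 2 - n := by nlinarith
    have e2 := mul_nonneg hK0 e1
    have ht2 : t ^ 2 ≤ r ^ 2 := pow_le_pow_left₀ ht.le htr 2
    have e5 : ω * t ^ 2 ≤ 1 * r ^ 2 := mul_le_mul hω2 ht2 (sq_nonneg t) (by positivity)
    have e6 := mul_le_mul_of_nonneg_left htr hr.le
    have e7 : 0 ≤ δ + r ^ 2 - r * t - t ^ 2 - ω * t ^ 2 / 4 := by linarith
    have e8 := mul_nonneg hhm e7
    generalize (5 - ω) / 2 * (t ^ 2 - 2 * g) = K at e2 ⊢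
    rw [← hht]
    linarith

/-- The normalised linear part. -/
noncomputable def Tl (g r t s h x y a b ξ ω δ : ℝ) : ℝ :=
  x * y * ((2 - 2 * ω) * (r ^ 2 + g) + (5 - ω) * (t ^ 2 - 2 * g) + 2 * r ^ 2 * (1 - h) +
    ((3 + ω) / 2 - (1 - h)) * (r * t) * (x + y)) +
  (3 * δ - (5 - ω) / 2 * r ^ 2) / 2 * (x ^ 2 + y ^ 2) + g * s * (a + b) * ((x ^ 2 + y ^ 2) / 2 + ξ)

theorem u2_alg {g r t s h x y a b ξ ω δ ζ m : ℝ} (hg0 : 0 < g) (hx : a + x = s) (hy : b + y = s)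
    (hω0 : 0 ≤ ω) (hmn : a * b ≤ m) (hζω : 5 / 4 * ω ≤ ζ)
    (T2 : g * ζ * (x ^ 2 + y ^ 2) ≤ x * y * ((2 - 2 * ω) * (r ^ 2 + g) +
      (5 - ω) / 2 * (t ^ 2 - 2 * g) + 2 * r ^ 2 * (1 - h) +
      ((3 + ω) / 2 - (1 - h)) * (r * t) * (x + y)) +
      (3 * δ - (5 - ω) / 2 * r ^ 2) / 2 * (x ^ 2 + y ^ 2) +
      g * s * (a + b) * ((x ^ 2 + y ^ 2) / 2 + ξ))
    (Bk : 0 ≤ -(2 * g * m) - ω * g * m / 2 + (5 - ω) / 2 * (t ^ 2 - 2 * g) * (s ^ 2 - a * b) +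
      2 * h * m * (δ + r ^ 2 - r * t)) :
    0 ≤ Tl g r t s h x y a b ξ ω δ -
      (g * s * (a + b) - ((1 - ω) * g + (5 - ω) / 2 * (t ^ 2 - 2 * g)) * (y * a + x * b)) +
      h * ((δ + r ^ 2 - r * t) * (2 * m)) := by
  have hn0 : 0 ≤ x ^ 2 + y ^ 2 := by positivity
  have hωg : 0 ≤ ω * g := by positivity
  have C1 := mul_le_mul_of_nonneg_left (cross hx hy) hωg
  have C2 := mul_le_mul_of_nonneg_left hmn hωg
  have C3 := mul_le_mul_of_nonneg_left hmn hg0.le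
  have C4 := mul_le_mul_of_nonneg_right (mul_le_mul_of_nonneg_left hζω hg0.le) hn0
  have I1 : s * (a + b) = 2 * (a * b) + (y * a + x * b) := by
    linear_combination (-b) * hx - a * hy
  have I2 : s ^ 2 - a * b = x * y + (y * a + x * b) := by
    linear_combination -(b + y) * hx - s * hy
  have I3 : g * s * (a + b) = g * (2 * (a * b) + (y * a + x * b)) := by rw [← I1]; ring
  rw [I2] at Bk
  unfold Tl
  have I5 : (5 - ω) * (t ^ 2 - 2 * g) = 2 * ((5 - ω) / 2 * (t ^ 2 - 2 * g)) := by ring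
  rw [I5]
  generalize (5 - ω) / 2 * (t ^ 2 - 2 * g) = K at T2 Bk ⊢
  generalize g * s * (a + b) * ((x ^ 2 + y ^ 2) / 2 + ξ) = T3 at T2 ⊢
  generalize (3 * δ - (5 - ω) / 2 * r ^ 2) / 2 = B at T2 ⊢
  generalize ((3 + ω) / 2 - (1 - h)) * (r * t) * (x + y) = A3 at T2 ⊢
  generalize (2 - 2 * ω) * (r ^ 2 + g) = A1 at T2 ⊢
  generalize 2 * r ^ 2 * (1 - h) = A2 at T2 ⊢
  generalize δ + r ^ 2 - r * t = Xm at Bk ⊢
  rw [I3]
  generalize y * a + x * b = c at C1 Bk ⊢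
  generalize x ^ 2 + y ^ 2 = n at C1 C4 T2 ⊢
  linarith only [T2, Bk, C1, C2, C3, C4]

theorem g_alg {g r t s h x y a b δ ι gx gy m : ℝ} (hg0 : 0 < g) (hg1 : g ≤ 1 / 2)
    (hr : 0 < r) (ht : 0 < t) (htt : t ^ 2 = 2 * g + (1 - 2 * g) * r ^ 2) (hs : s * t = r)
    (hh0 : 0 ≤ h) (hx : a + x = s) (hy : b + y = s) (ha2 : a ≤ 1) (hb2 : b ≤ 1)
    (hδ : 113 / 100 + 34 / 25 * r + 79 / 50 * r ^ 2 ≤ δ) (hgx : 0 ≤ gx) (hgy : 0 ≤ gy)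
    (hxy : (a * b * (1 - ι)) ^ 2 ≤ gx * gy) (hm2 : m ^ 2 = (a * b) ^ 2) :
    (1 - ι) * (h * ((δ + r ^ 2 - r * t) * (2 * m))) ≤
      h * ((δ + r * t * x) * gy + (δ + r * t * y) * gx) := by
  have hr2 : 0 ≤ r ^ 2 := sq_nonneg r
  have hrt : 0 < r * t := mul_pos hr ht
  have hst : r * t * s = r ^ 2 := by rw [← hs]; ring
  have hXm : 0 ≤ δ + r ^ 2 - r * t := by
    rcases le_total r 1 with h1 | h1
    · have := mul_le_mul_of_nonneg_left (t_small hg0 hg1 hr ht htt h1).2 hr.le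
      linarith
    · have := mul_le_mul_of_nonneg_left (t_big hg0 hg1 hr ht htt h1).2 hr.le
      linarith
  have hXp : δ + r ^ 2 - r * t ≤ δ + r * t * x := by
    have := mul_nonneg hrt.le (show 0 ≤ x - s + 1 by linarith)
    linarith
  have hXq : δ + r ^ 2 - r * t ≤ δ + r * t * y := by
    have := mul_nonneg hrt.le (show 0 ≤ y - s + 1 by linarith)
    linarith
  have hG : 2 * (m * (1 - ι)) ≤ gx + gy := by
    apply (abs_le_of_sq_le_sq' _ (by positivity)).2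
    have e : (2 * (m * (1 - ι))) ^ 2 = 4 * (a * b * (1 - ι)) ^ 2 := by
      linear_combination 4 * (1 - ι) ^ 2 * hm2
    rw [e]
    have := sq_nonneg (gx - gy)
    linarith only [this, hxy]
  have G1 := mul_le_mul_of_nonneg_right hXp hgy
  have G2 := mul_le_mul_of_nonneg_right hXq hgx
  have G3 := mul_le_mul_of_nonneg_left hG hXm
  have G4 : h * ((δ + r ^ 2 - r * t) * (2 * (m * (1 - ι)))) ≤
      h * ((δ + r * t * x) * gy + (δ + r * t * y) * gx) :=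
    mul_le_mul_of_nonneg_left (by linarith only [G1, G2, G3]) hh0
  linarith only [G4]

theorem main_n {g r t s h x y a b ξ ω δ z Ψ ι gx gy : ℝ} (hg0 : 0 < g) (hg1 : g ≤ 1 / 2)
    (hr : 0 < r) (ht : 0 < t) (htt : t ^ 2 = 2 * g + (1 - 2 * g) * r ^ 2) (hs : s * t = r)
    (hs0 : 0 < s) (hh0 : 0 ≤ h) (hh : h ≤ 1 / 2) (hht : h * t ^ 2 = g)
    (hx : a + x = s) (hy : b + y = s) (ha1 : -1 ≤ a) (ha2 : a ≤ 1) (hb1 : -1 ≤ b) (hb2 : b ≤ 1)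
    (hξ0 : 0 ≤ ξ) (hξ : ξ ≤ 2) (hω0 : 0 ≤ ω) (hω1 : r ≤ 1 → r / 2 ≤ ω) (hω2 : ω ≤ 1)
    (hω3 : ω ≤ 13 / 10 * r) (hδ : 113 / 100 + 34 / 25 * r + 79 / 50 * r ^ 2 ≤ δ) (hΨ : 0 < Ψ)
    (f1 : r ≤ 1 → 1 ≤ (38 / 5 + 13 / 10 * r) * (r * (1 + r) * Ψ)) (f1' : 2 / 25 ≤ r * (1 + r) * Ψ)
    (hz0 : 0 ≤ z) (hz : z * (r * (t + r) * Ψ) = g * (h ^ 3 * t ^ 2))
    (hι0 : 0 ≤ ι) (hι1 : ι ≤ 1) (hgx : 0 ≤ gx) (hgy : 0 ≤ gy)
    (hxy : (a * b * (1 - ι)) ^ 2 ≤ gx * gy) :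
    0 ≤ Tl g r t s h x y a b ξ ω δ -
      (1 - ι) * (g * s * (a + b) - ((1 - ω) * g + (5 - ω) / 2 * (t ^ 2 - 2 * g)) * (y * a + x * b)) -
      ι * (z * (y ^ 2 * (2 - b) * a + x ^ 2 * (2 - a) * b)) +
      h * ((δ + r * t * x) * gy + (δ + r * t * y) * gx) := by
  obtain ⟨ζ, hζ0, hζ, hζω, hζz⟩ := zeta_ex hg0 hg1 hr ht htt hs hh0 hh hht hΨ f1 f1' hω2 hω3 hz
  have hr2 : 0 ≤ r ^ 2 := sq_nonneg r
  have hdu0 : 0 ≤ t ^ 2 - 2 * g := by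
    have := mul_nonneg (show 0 ≤ 1 - 2 * g by linarith) hr2
    linarith
  have hK0 : 0 ≤ (5 - ω) / 2 * (t ^ 2 - 2 * g) := mul_nonneg (by linarith) hdu0
  have hA : 0 ≤ (2 - 2 * ω) * (r ^ 2 + g) + 2 * r ^ 2 * (1 - h) :=
    add_nonneg (mul_nonneg (by linarith) (by positivity)) (mul_nonneg (by positivity) (by linarith))
  have hn0 : 0 ≤ x ^ 2 + y ^ 2 := by positivity
  have hζp : 0 ≤ ζ := by linarith
  have T1 : g * ζ * (x ^ 2 + y ^ 2) ≤ Tl g r t s h x y a b ξ ω δ :=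
    Tn hg0 hg1 hr ht htt hs hs0 hh0 hh hht hx hy ha1 ha2 hb1 hb2 hξ0 hξ hω0 hω1 hω2 hω3 hδ
      hζ0 hζ hζp (by linarith only [hA, hK0]) le_rfl
  have T2 := Tn (A0 := (2 - 2 * ω) * (r ^ 2 + g) + (5 - ω) / 2 * (t ^ 2 - 2 * g) +
    2 * r ^ 2 * (1 - h)) hg0 hg1 hr ht htt hs hs0 hh0 hh hht hx hy ha1 ha2 hb1 hb2 hξ0 hξ hω0 hω1
    hω2 hω3 hδ hζ0 hζ hζp (by linarith only [hA, hK0]) (by linarith only [hK0])
  have Z : z * (y ^ 2 * (2 - b) * a + x ^ 2 * (2 - a) * b) ≤ g * ζ * (x ^ 2 + y ^ 2) := by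
    rcases hζz with h1 | h1
    · have e1 := mul_le_mul_of_nonneg_left (zloss1 hx hy ha1 ha2 hb1 hb2 hs0) hz0
      have e2 := mul_le_mul_of_nonneg_right h1 hn0
      linarith only [e1, e2]
    · have e1 := mul_le_mul_of_nonneg_left (zloss2 (x := x) (y := y) ha1 ha2 hb1 hb2) hz0
      have e2 := mul_le_mul_of_nonneg_right h1 hn0
      linarith only [e1, e2]
  obtain ⟨m, hm0, hm1, hmn, hm2⟩ : ∃ m, 0 ≤ m ∧ m ≤ 1 ∧ a * b ≤ m ∧ m ^ 2 = (a * b) ^ 2 := by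
    refine ⟨|a * b|, abs_nonneg _, ?_, le_abs_self _, sq_abs _⟩
    rw [abs_mul]
    exact mul_le_one₀ (abs_le.2 ⟨ha1, ha2⟩) (abs_nonneg _) (abs_le.2 ⟨hb1, hb2⟩)
  have Bk := brk hg0 hg1 hr ht htt hs hh0 hht hω0 hω2 hω3 hδ hm0 hm1 hmn
  have U2 := u2_alg hg0 hx hy hω0 hmn hζω T2 Bk
  have G4 := g_alg hg0 hg1 hr ht htt hs hh0 hx hy ha2 hb2 hδ hgx hgy hxy hm2
  have V1 := mul_le_mul_of_nonneg_left (Z.trans T1) hι0
  have V2 := mul_nonneg (show 0 ≤ 1 - ι by linarith) U2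
  generalize z * (y ^ 2 * (2 - b) * a + x ^ 2 * (2 - a) * b) = e1 at V1 ⊢
  generalize g * s * (a + b) - ((1 - ω) * g + (5 - ω) / 2 * (t ^ 2 - 2 * g)) * (y * a + x * b) = e2
    at V2 ⊢
  generalize h * ((δ + r ^ 2 - r * t) * (2 * m)) = e3 at V2 G4
  generalize h * ((δ + r * t * x) * gy + (δ + r * t * y) * gx) = e4 at G4 ⊢
  linarith only [V1, V2, G4]

end Vale.Agent.P219.C3
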