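import Vale.Agent.P219.G.Cert3K
import Vale.Agent.P219.G.Cert3M

/-!
# Certificate for `m = 3`: the one-variable functions and their bounds
-/

namespace Vale.Agent.P219.C3

open Set Filter Topology MeasureTheory

noncomputable section

/-- The basic integral. -/
def jr (r : ℝ) : ℝ := 2 * K 2 (1 / 2) (r ^ 2)
/-- Its first derivative. -/
def lr (r : ℝ) : ℝ := K 4 (1 / 2 - 1) (r ^ 2)
/-- Its second derivative. -/
def Mr (r : ℝ) : ℝ := r * (1 / 2 * K 6 (1 / 2 - 1 - 1) (r ^ 2))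
/-- A primitive. -/
def Gr (r : ℝ) : ℝ := ∫ t in (0 : ℝ)..r, 2 * t ^ 4 * jr t
/-- The function `chi`. -/
def cr (r : ℝ) : ℝ := Gr r / r ^ 8
/-- The function `W`. -/
def Wr (r : ℝ) : ℝ := 2 * (jr r / r ^ 3) - 5 * cr r
/-- The function `Psi`. -/
def Pr (r : ℝ) : ℝ := (5 - 2 * r ^ 2) * cr r - 2 * (1 - r ^ 2) * (jr r / r ^ 3) - 2 / 3
/-- The function `Lambda`. -/
def Lr (r : ℝ) : ℝ := 2 * lr r / r
/-- Polynomials in `1 / (1 + r)`. -/
def pw (a b c d r : ℝ) : ℝ :=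
  a * (1 + r)⁻¹ + b * (1 + r)⁻¹ ^ 2 + c * (1 + r)⁻¹ ^ 3 + d * (1 + r)⁻¹ ^ 4
/-- Their derivatives. -/
def pw1 (a b c d r : ℝ) : ℝ :=
  -((1 + r)⁻¹ ^ 2 * (a + 2 * b * (1 + r)⁻¹ + 3 * c * (1 + r)⁻¹ ^ 2 + 4 * d * (1 + r)⁻¹ ^ 3))

end

theorem pw_deriv (a b c d : ℝ) {r : ℝ} (hr : 0 ≤ r) :
    HasDerivAt (pw a b c d) (pw1 a b c d r) r := by
  have h0 : (1 + r) ≠ 0 := by positivity
  have h : HasDerivAt (fun r : ℝ => (1 + r)⁻¹) (-(1 + r)⁻¹ ^ 2) r :=
    (((hasDerivAt_id r).const_add 1).fun_inv h0).congr_deriv (by simp only [id]; field_simp)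
  refine ((((h.const_mul a).fun_add ((h.fun_pow 2).const_mul b)).fun_add
    ((h.fun_pow 3).const_mul c)).fun_add ((h.fun_pow 4).const_mul d)).congr_deriv ?_
  simp only [pw1, Nat.cast_ofNat]
  ring

theorem deriv_eq {f g : ℝ → ℝ} {a b r : ℝ} (hr : 0 < r) (hf : HasDerivAt f a r)
    (hg : HasDerivAt g b r) (h : ∀ t, 0 < t → f t = g t) : a = b :=
  hf.unique (hg.congr_of_eventuallyEq ((lt_mem_nhds hr).mono h))

theorem sq_deriv (r : ℝ) : HasDerivAt (fun r : ℝ => r ^ 2) (2 * r) r := by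
  simpa using hasDerivAt_pow 2 r

theorem Ksq_deriv (n : ℕ) (a : ℝ) {r : ℝ} (hr : 0 < r) :
    HasDerivAt (fun r => K n a (r ^ 2)) (a * K (n + 2) (a - 1) (r ^ 2) * (2 * r)) r :=
  HasDerivAt.comp r (h := fun r : ℝ => r ^ 2) (h₂ := K n a) (K_deriv n a (pow_pos hr 2)) (sq_deriv r)

theorem jr_deriv {r : ℝ} (hr : 0 < r) : HasDerivAt jr (2 * r * lr r) r :=
  ((Ksq_deriv 2 (1 / 2) hr).const_mul 2).congr_deriv (by unfold lr; ring)

theorem lr_deriv {r : ℝ} (hr : 0 < r) : HasDerivAt lr (-(2 * Mr r)) r :=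
  (Ksq_deriv 4 (1 / 2 - 1) hr).congr_deriv (by unfold Mr; ring)

theorem ode0 {r : ℝ} (hr : 0 < r) : 2 * (1 - r ^ 2) * lr r = 3 * jr r - 2 * r := by
  have := K_ode hr
  unfold lr jr
  linarith

theorem omsq_deriv (r : ℝ) : HasDerivAt (fun r : ℝ => 2 * (1 - r ^ 2)) (2 * -(2 * r)) r :=
  ((sq_deriv r).const_sub 1).const_mul 2

theorem ode1 {r : ℝ} (hr : 0 < r) : 2 * (1 - r ^ 2) * Mr r = 1 - 5 * (r * lr r) := by
  have := deriv_eq hr ((omsq_deriv r).fun_mul (lr_deriv hr))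
    (((jr_deriv hr).const_mul 3).fun_sub ((hasDerivAt_id' r).const_mul 2)) fun t ht => ode0 ht
  linarith

theorem odeM {r : ℝ} (hr : 0 < r) :
    ∃ d, HasDerivAt Mr d r ∧ r * (1 - r ^ 2) * d = (1 + 6 * r ^ 2) * Mr r - 1 / 2 := by
  obtain ⟨d, hd⟩ : ∃ d, HasDerivAt Mr d r :=
    ⟨_, (hasDerivAt_id' r).fun_mul ((Ksq_deriv 6 (1 / 2 - 1 - 1) hr).const_mul (1 / 2))⟩
  refine ⟨d, hd, ?_⟩
  have h1 := deriv_eq hr ((omsq_deriv r).fun_mul hd)
    ((((hasDerivAt_id' r).fun_mul (lr_deriv hr)).const_mul 5).const_sub 1) fun t ht => ode1 ht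
  have h2 := ode1 hr
  linear_combination r / 2 * h1 - 1 / 2 * h2

theorem jr_cont : Continuous jr := continuous_const.mul j_cont

theorem Gr_deriv (r : ℝ) : HasDerivAt Gr (2 * r ^ 4 * jr r) r :=
  (((continuous_const.mul (continuous_pow 4)).mul jr_cont).integral_hasStrictDerivAt 0 r).hasDerivAt

theorem cr_deriv {r : ℝ} (hr : 0 < r) : HasDerivAt cr (-(3 * cr r - Wr r) / r) r := by
  refine ((Gr_deriv r).fun_div (hasDerivAt_pow 8 r) (pow_ne_zero 8 hr.ne')).congr_deriv ?_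
  simp only [Wr, cr, Nat.cast_ofNat]
  field_simp
  ring

theorem f_deriv {r : ℝ} (hr : 0 < r) :
    HasDerivAt (fun r => jr r / r ^ 3) ((Lr r - 3 * (jr r / r ^ 3)) / r) r := by
  refine ((jr_deriv hr).fun_div (hasDerivAt_pow 3 r) (pow_ne_zero 3 hr.ne')).congr_deriv ?_
  simp only [Lr, Nat.cast_ofNat]
  field_simp
  ring

theorem Wr_deriv {r : ℝ} (hr : 0 < r) : HasDerivAt Wr (2 * (Lr r - 4 * Wr r) / r) r := by
  refine (((f_deriv hr).const_mul 2).fun_sub ((cr_deriv hr).const_mul 5)).congr_deriv ?_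
  simp only [Wr]
  field_simp
  ring

theorem Pr_deriv {r : ℝ} (hr : 0 < r) : HasDerivAt Pr (2 * (Wr r - 3 * Pr r) / r) r := by
  refine ((((((sq_deriv r).const_mul 2).const_sub 5).fun_mul (cr_deriv hr)).fun_sub
    ((omsq_deriv r).fun_mul (f_deriv hr))).sub_const (2 / 3)).congr_deriv ?_
  have h := ode0 hr
  simp only [Wr, Pr, Lr]
  field_simp
  linear_combination (-2 * r ^ 2) * h

theorem Lr_deriv {r : ℝ} (hr : 0 < r) : HasDerivAt Lr ((-(4 * Mr r) - Lr r) / r) r := by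
  refine (((lr_deriv hr).const_mul 2).fun_div (hasDerivAt_id' r) hr.ne').congr_deriv ?_
  simp only [Lr]
  field_simp
  ring

theorem lim_id : Tendsto (fun r : ℝ => r) (𝓝[>] 0) (𝓝 0) :=
  tendsto_id.mono_left nhdsWithin_le_nhds

theorem lim_cont {f : ℝ → ℝ} (hf : ContinuousAt f 0) : Tendsto f (𝓝[>] 0) (𝓝 (f 0)) :=
  hf.tendsto.mono_left nhdsWithin_le_nhds

theorem lim_c : Tendsto (fun r => r ^ 3 * cr r) (𝓝[>] 0) (𝓝 (2 / 5 * jr 0)) := by
  have h1 : Tendsto Gr (𝓝[>] 0) (𝓝 0) := by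
    have := lim_cont (Gr_deriv 0).continuousAt
    rwa [show Gr 0 = 0 from intervalIntegral.integral_same] at this
  have h2 : Tendsto (fun r : ℝ => r ^ 5) (𝓝[>] 0) (𝓝 0) := by
    simpa using lim_id.pow 5
  have h3 : Tendsto (fun r : ℝ => 2 * r ^ 4 * jr r / (5 * r ^ 4)) (𝓝[>] 0) (𝓝 (2 / 5 * jr 0)) := by
    refine ((lim_cont jr_cont.continuousAt).const_mul (2 / 5)).congr' ?_
    filter_upwards [self_mem_nhdsWithin] with r hr
    have : r ≠ 0 := ne_of_gt hr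
    field_simp
  have h4 := HasDerivAt.lhopital_zero_nhdsGT (Eventually.of_forall Gr_deriv)
    (Eventually.of_forall fun r : ℝ => by simpa using hasDerivAt_pow 5 r)
    (by
      filter_upwards [self_mem_nhdsWithin] with r hr
      have : r ≠ 0 := ne_of_gt hr
      positivity) h1 h2 h3
  refine h4.congr' ?_
  filter_upwards [self_mem_nhdsWithin] with r hr
  have : r ≠ 0 := ne_of_gt hr
  unfold cr
  field_simp

theorem lim_comb (α β γ : ℝ) {φ : ℝ → ℝ} (hφ : ContinuousAt φ 0) :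
    ∃ l, Tendsto (fun r => r ^ 3 * (α * Wr r + β * Pr r + γ * Lr r + φ r)) (𝓝[>] 0) (𝓝 l) := by
  have hj := lim_cont jr_cont.continuousAt
  have h2 := lim_id.pow 2
  have h3 := lim_id.pow 3
  have hW := (hj.const_mul 2).sub (lim_c.const_mul 5)
  have hP := ((((h2.const_mul 2).const_sub 5).mul lim_c).sub
    (((h2.const_sub 1).const_mul 2).mul hj)).sub (h3.const_mul (2 / 3))
  have hL := (h2.mul ((hj.const_mul 3).sub (lim_id.const_mul 2))).div (h2.const_sub 1)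
    (by norm_num)
  refine ⟨_, ((((hW.const_mul α).add (hP.const_mul β)).add (hL.const_mul γ)).add
    (h3.mul (lim_cont hφ))).congr' ?_⟩
  filter_upwards [Ioo_mem_nhdsGT one_pos] with r hr
  have h0 : r ≠ 0 := ne_of_gt hr.1
  have h1 : 1 - r ^ 2 ≠ 0 := by nlinarith [hr.1, hr.2]
  simp only [Pi.div_apply, ← ode0 hr.1, Wr, Pr, Lr]
  field_simp

theorem barC (n : ℕ) (α β γ a b c d : ℝ)
    (h : ∀ r, 0 < r → 0 ≤ (n + 4 : ℝ) * (α * Wr r + β * Pr r + γ * Lr r + pw a b c d r) +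
      (α * (2 * (Lr r - 4 * Wr r)) + β * (2 * (Wr r - 3 * Pr r)) + γ * (-(4 * Mr r) - Lr r) +
        r * pw1 a b c d r)) {r : ℝ} (hr : 0 < r) :
    0 ≤ α * Wr r + β * Pr r + γ * Lr r + pw a b c d r := by
  refine barA n (D := fun r => α * Wr r + β * Pr r + γ * Lr r + pw a b c d r) (fun t ht => ⟨_,
    ((((Wr_deriv ht).const_mul α).fun_add ((Pr_deriv ht).const_mul β)).fun_add
      ((Lr_deriv ht).const_mul γ)).fun_add (pw_deriv a b c d ht.le), ?_⟩)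
    (lim_comb α β γ (pw_deriv a b c d le_rfl).continuousAt) hr
  refine (h t ht).trans_eq ?_
  field_simp

theorem barM (s a b c d : ℝ)
    (h : ∀ r, 0 < r → 0 ≤ s * (r * (1 - r ^ 2) * pw1 a b c d r - (1 + 6 * r ^ 2) * pw a b c d r +
      1 / 2)) {r : ℝ} (hr : 0 < r) : 0 ≤ s * (Mr r - pw a b c d r) := by
  have key := barB (k := 7 / 2) (by norm_num) (D := fun r => s * (Mr r - pw a b c d r) / r)
    (fun t ht => by
      obtain ⟨e, he, h1⟩ := odeM ht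
      refine ⟨_, ((he.fun_sub (pw_deriv a b c d ht.le)).const_mul s).fun_div (hasDerivAt_id' t)
        ht.ne', ?_⟩
      have h2 := h t ht
      rw [← sub_nonneg]
      refine (div_nonneg h2 (sq_nonneg t)).trans_eq ?_
      field_simp
      linear_combination (2 * s) * h1) hr
  exact (div_nonneg_iff.1 key).elim (fun h => h.1) fun h => absurd h.2 (not_le.2 hr)

theorem barL (s a b c d : ℝ)
    (h : ∀ r, 0 < r → 0 ≤ s * ((1 - r ^ 2) * pw1 a b c d r - 5 * r * pw a b c d r + 1))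
    {r : ℝ} (hr : 0 < r) : 0 ≤ s * (lr r - pw a b c d r) :=
  barB (k := 5 / 2) (by norm_num) (D := fun r => s * (lr r - pw a b c d r))
    (fun t ht => ⟨_, ((lr_deriv ht).fun_sub (pw_deriv a b c d ht.le)).const_mul s, by
      have h1 := ode1 ht
      have h2 := h t ht
      have h3 : s * (2 * (1 - t ^ 2) * Mr t) = s * (1 - 5 * (t * lr t)) := by rw [h1]
      linarith⟩) hr

theorem bLm {r : ℝ} (hr : 0 < r) : pw (247 / 1000) (267 / 1000) (73 / 1000) 0 r ≤ lr r := by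
  have := barL (1) (247 / 1000) (267 / 1000) (73 / 1000) 0 (fun r hr => by
    have e : 1 * ((1 - r ^ 2) * pw1 (247 / 1000) (267 / 1000) (73 / 1000) 0 r - 5 * r * pw (247 / 1000) (267 / 1000) (73 / 1000) 0 r + 1) =
        ((37 / 1000) * r ^ 1 + (1 / 20) * r ^ 2 + (1 / 1000) * r ^ 3 + (3 / 250) * r ^ 5) / (1 + r) ^ 5 := by
      unfold pw pw1
      field_simp
      ring
    rw [e]
    positivity) hr
  linarith

theorem bLp {r : ℝ} (hr : 0 < r) : lr r ≤ pw (1 / 4) (53 / 200) (79 / 1000) 0 r := by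
  have := barL (-1) (1 / 4) (53 / 200) (79 / 1000) 0 (fun r hr => by
    have e : -1 * ((1 - r ^ 2) * pw1 (1 / 4) (53 / 200) (79 / 1000) 0 r - 5 * r * pw (1 / 4) (53 / 200) (79 / 1000) 0 r + 1) =
        ((17 / 1000) + (7 / 250) * r ^ 2 + (9 / 200) * r ^ 3) / (1 + r) ^ 4 := by
      unfold pw pw1
      field_simp
      ring
    rw [e]
    positivity) hr
  linarith

theorem bMm {r : ℝ} (hr : 0 < r) : pw 0 (3 / 25) (11 / 40) (103 / 1000) r ≤ Mr r := by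
  have := barM (1) 0 (3 / 25) (11 / 40) (103 / 1000) (fun r hr => by
    have e : 1 * (r * (1 - r ^ 2) * pw1 0 (3 / 25) (11 / 40) (103 / 1000) r - (1 + 6 * r ^ 2) * pw 0 (3 / 25) (11 / 40) (103 / 1000) r + 1 / 2) =
        ((1 / 500) + (3 / 250) * r ^ 1 + (41 / 500) * r ^ 2 + (111 / 1000) * r ^ 3 + (17 / 500) * r ^ 4 + (3 / 200) * r ^ 5 + (1 / 50) * r ^ 6) / (1 + r) ^ 6 := by
      unfold pw pw1
      field_simp
      ring
    rw [e]
    positivity) hr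
  linarith

theorem bMp {r : ℝ} (hr : 0 < r) : Mr r ≤ pw 0 (1 / 8) (27 / 100) (11 / 100) r := by
  have := barM (-1) 0 (1 / 8) (27 / 100) (11 / 100) (fun r hr => by
    have e : -1 * (r * (1 - r ^ 2) * pw1 0 (1 / 8) (27 / 100) (11 / 100) r - (1 + 6 * r ^ 2) * pw 0 (1 / 8) (27 / 100) (11 / 100) r + 1 / 2) =
        ((1 / 200) + (3 / 100) * r ^ 1 + (1 / 100) * r ^ 2 + (1 / 100) * r ^ 3 + (17 / 200) * r ^ 4 + (3 / 50) * r ^ 5) / (1 + r) ^ 6 := by
      unfold pw pw1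
      field_simp
      ring
    rw [e]
    positivity) hr
  linarith

theorem bJm {r : ℝ} (hr : 0 < r) : r / 2 + pw (1 / 4) (9 / 50) (-9 / 200) 0 r ≤ jr r := by
  have := barB (k := 3 / 2) (by norm_num) (D := fun r => jr r - r / 2 - pw (1 / 4) (9 / 50) (-9 / 200) 0 r)
    (fun r hr => ⟨_, ((jr_deriv hr).fun_sub ((hasDerivAt_id' r).div_const 2)).fun_sub
      (pw_deriv _ _ _ _ hr.le), by
    have e : (1 - r ^ 2) * pw1 (1 / 4) (9 / 50) (-9 / 200) 0 r - 3 * r * pw (1 / 4) (9 / 50) (-9 / 200) 0 r + 1 / 2 =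
        ((1 / 40) + (1 / 100) * r ^ 1 + (3 / 200) * r ^ 2 + (1 / 10) * r ^ 3 + (7 / 100) * r ^ 4) / (1 + r) ^ 5 := by
      unfold pw pw1
      field_simp
      ring
    have h1 : r * (2 * (1 - r ^ 2) * lr r) = r * (3 * jr r - 2 * r) := by rw [ode0 hr]
    have h2 := e.symm ▸ (show 0 ≤ ((1 / 40) + (1 / 100) * r ^ 1 + (3 / 200) * r ^ 2 + (1 / 10) * r ^ 3 + (7 / 100) * r ^ 4) / (1 + r) ^ 5 by positivity)
    linarith⟩) hr
  linarith

theorem pw_neg (a b c d r : ℝ) : pw (-a) (-b) (-c) (-d) r = -pw a b c d r := by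
  unfold pw; ring

theorem pw1_neg (a b c d r : ℝ) : pw1 (-a) (-b) (-c) (-d) r = -pw1 a b c d r := by
  unfold pw1; ring

theorem bAp {r : ℝ} (hr : 0 < r) : 7 * Wr r - 2 * Lr r ≤ pw 0 (17 / 100) (7 / 20) (-7 / 500) r := by
  have := barC 4 (-7) 0 2 0 (17 / 100) (7 / 20) (-7 / 500) (fun r hr => by
    have e : 8 * pw 0 (17 / 100) (7 / 20) (-7 / 500) r + r * pw1 0 (17 / 100) (7 / 20) (-7 / 500) r - 8 * pw 0 (1 / 8) (27 / 100) (11 / 100) r =
        ((1 / 125) + (21 / 500) * r ^ 1 + (3 / 125) * r ^ 2 + (1 / 100) * r ^ 3 + (1 / 50) * r ^ 4) / (1 + r) ^ 6 := by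
      unfold pw pw1
      field_simp
      ring
    have h2 := e.symm ▸ (show 0 ≤ ((1 / 125) + (21 / 500) * r ^ 1 + (3 / 125) * r ^ 2 + (1 / 100) * r ^ 3 + (1 / 50) * r ^ 4) / (1 + r) ^ 6 by positivity)
    have h3 := bMp hr
    simp only [Nat.cast_ofNat]
    linarith) hr
  linarith

theorem bAm {r : ℝ} (hr : 0 < r) : pw 0 (4 / 25) (179 / 500) (-21 / 1000) r ≤ 7 * Wr r - 2 * Lr r := by
  have := barC 4 7 0 (-2) (-0) (-(4 / 25)) (-(179 / 500)) (-(-21 / 1000)) (fun r hr => by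
    have e : -(8 * pw 0 (4 / 25) (179 / 500) (-21 / 1000) r + r * pw1 0 (4 / 25) (179 / 500) (-21 / 1000) r - 8 * pw 0 (3 / 25) (11 / 40) (103 / 1000) r) =
        ((1 / 125) + (7 / 500) * r ^ 1 + (9 / 100) * r ^ 2) / (1 + r) ^ 5 := by
      unfold pw pw1
      field_simp
      ring
    have h2 := e.symm ▸ (show 0 ≤ ((1 / 125) + (7 / 500) * r ^ 1 + (9 / 100) * r ^ 2) / (1 + r) ^ 5 by positivity)
    have h3 := bMm hr
    simp only [Nat.cast_ofNat, pw_neg, pw1_neg]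
    linarith) hr
  rw [pw_neg] at this
  linarith

theorem bOp {r : ℝ} (hr : 0 < r) : 5 * Pr r - 2 * Wr r ≤ pw 0 (97 / 1000) (107 / 1000) (-7 / 200) r := by
  have := barC 2 2 (-5) 0 0 (97 / 1000) (107 / 1000) (-7 / 200) (fun r hr => by
    have e : 6 * pw 0 (97 / 1000) (107 / 1000) (-7 / 200) r + r * pw1 0 (97 / 1000) (107 / 1000) (-7 / 200) r - 2 * pw 0 (17 / 100) (7 / 20) (-7 / 500) r =
        ((1 / 500) + (11 / 200) * r ^ 1 + (3 / 250) * r ^ 2 + (7 / 1000) * r ^ 3 + (6 / 125) * r ^ 4) / (1 + r) ^ 6 := by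
      unfold pw pw1
      field_simp
      ring
    have h2 := e.symm ▸ (show 0 ≤ ((1 / 500) + (11 / 200) * r ^ 1 + (3 / 250) * r ^ 2 + (7 / 1000) * r ^ 3 + (6 / 125) * r ^ 4) / (1 + r) ^ 6 by positivity)
    have h3 := bAp hr
    simp only [Nat.cast_ofNat]
    linarith) hr
  linarith

theorem bOm {r : ℝ} (hr : 0 < r) : pw 0 (2 / 25) (127 / 1000) (-21 / 500) r ≤ 5 * Pr r - 2 * Wr r := by
  have := barC 2 (-2) 5 0 (-0) (-(2 / 25)) (-(127 / 1000)) (-(-21 / 500)) (fun r hr => by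
    have e : -(6 * pw 0 (2 / 25) (127 / 1000) (-21 / 500) r + r * pw1 0 (2 / 25) (127 / 1000) (-21 / 500) r - 2 * pw 0 (4 / 25) (179 / 500) (-21 / 1000) r) =
        ((1 / 250) + (11 / 1000) * r ^ 1 + (7 / 40) * r ^ 2) / (1 + r) ^ 5 := by
      unfold pw pw1
      field_simp
      ring
    have h2 := e.symm ▸ (show 0 ≤ ((1 / 250) + (11 / 1000) * r ^ 1 + (7 / 40) * r ^ 2) / (1 + r) ^ 5 by positivity)
    have h3 := bAm hr
    simp only [Nat.cast_ofNat, pw_neg, pw1_neg]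
    linarith) hr
  rw [pw_neg] at this
  linarith

theorem bL4 {r : ℝ} (hr : 0 < r) : r * lr r ≤ 1 / 4 := by
  have := barB (k := 5 / 2) (by norm_num) (D := fun r => 1 / 4 * r⁻¹ - lr r)
    (fun r hr => ⟨_, ((hasDerivAt_inv hr.ne').const_mul (1 / 4)).fun_sub (lr_deriv hr), by
      have h1 := ode1 hr
      have h2 : r * r⁻¹ = 1 := mul_inv_cancel₀ hr.ne'
      have h3 : r ^ 2 * (r ^ 2)⁻¹ = 1 := mul_inv_cancel₀ (pow_ne_zero 2 hr.ne')
      have h4 : 0 ≤ (r ^ 2)⁻¹ := by positivity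
      linarith⟩) hr
  have h1 := mul_nonneg hr.le this
  have h2 : r * r⁻¹ = 1 := mul_inv_cancel₀ hr.ne'
  linarith

theorem bN {r : ℝ} (hr : 0 < r) : 0 ≤ lr r - 2 * (r * Mr r) :=
  barB (k := 7 / 2) (by norm_num) (D := fun r => lr r - 2 * (r * Mr r))
    (fun r hr => by
      obtain ⟨e, he, h1⟩ := odeM hr
      refine ⟨_, (lr_deriv hr).fun_sub (((hasDerivAt_id' r).fun_mul he).const_mul 2), ?_⟩
      have h2 := ode1 hr
      have h3 := bL4 hr
      linarith) hr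

theorem pw_zero (r : ℝ) : pw 0 0 0 0 r = 0 := by unfold pw; ring

theorem pw1_zero (r : ℝ) : pw1 0 0 0 0 r = 0 := by unfold pw1; ring

theorem bU3 {r : ℝ} (hr : 0 < r) : 3 * Wr r ≤ Lr r := by
  have := barC 4 (-3) 0 1 0 0 0 0 (fun r hr => by
    have h1 := div_nonneg (bN hr) hr.le
    have h2 : Lr r - 4 * Mr r = 2 * ((lr r - 2 * (r * Mr r)) / r) := by
      unfold Lr; field_simp; ring
    simp only [Nat.cast_ofNat, pw_zero, pw1_zero]
    linarith) hr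
  rw [pw_zero] at this
  linarith

theorem bU {r : ℝ} (hr : 0 < r) : 2 * Pr r ≤ Wr r := by
  have := barC 2 1 (-2) 0 0 0 0 0 (fun r hr => by
    have h1 := bU3 hr
    simp only [Nat.cast_ofNat, pw_zero, pw1_zero]
    linarith) hr
  rw [pw_zero] at this
  linarith

end Vale.Agent.P219.C3
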