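import Vale.Agent.P219.G.Cert3B

/-!
# Certificate for `m = 3`: the numerical facts
-/

namespace Vale.Agent.P219.C3

theorem rL {r : ℝ} (hr : 0 < r) : r * Lr r = 2 * lr r := by
  unfold Lr; field_simp

theorem hPL {r : ℝ} (hr : 0 < r) : (8 * pw (247 / 1000) (267 / 1000) (73 / 1000) 0 r + 2 * (r * pw 0 (4 / 25) (179 / 500) (-21 / 1000) r) + 7 * (r * pw 0 (2 / 25) (127 / 1000) (-21 / 500) r)) / 35 ≤ r * Pr r := by
  have h1 := bLm hr
  have h2 := mul_le_mul_of_nonneg_left (bAm hr) hr.le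
  have h3 := mul_le_mul_of_nonneg_left (bOm hr) hr.le
  have h4 := rL hr
  linarith

theorem hPU {r : ℝ} (hr : 0 < r) : r * Pr r ≤ (8 * pw (1 / 4) (53 / 200) (79 / 1000) 0 r + 2 * (r * pw 0 (17 / 100) (7 / 20) (-7 / 500) r) + 7 * (r * pw 0 (97 / 1000) (107 / 1000) (-7 / 200) r)) / 35 := by
  have h1 := bLp hr
  have h2 := mul_le_mul_of_nonneg_left (bAp hr) hr.le
  have h3 := mul_le_mul_of_nonneg_left (bOp hr) hr.le
  have h4 := rL hr
  linarith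

theorem hWL {r : ℝ} (hr : 0 < r) : (4 * pw (247 / 1000) (267 / 1000) (73 / 1000) 0 r + r * pw 0 (4 / 25) (179 / 500) (-21 / 1000) r) / 7 ≤ r * Wr r := by
  have h1 := bLm hr
  have h2 := mul_le_mul_of_nonneg_left (bAm hr) hr.le
  have h4 := rL hr
  linarith

theorem hWU {r : ℝ} (hr : 0 < r) : r * Wr r ≤ (4 * pw (1 / 4) (53 / 200) (79 / 1000) 0 r + r * pw 0 (17 / 100) (7 / 20) (-7 / 500) r) / 7 := by
  have h1 := bLp hr
  have h2 := mul_le_mul_of_nonneg_left (bAp hr) hr.le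
  have h4 := rL hr
  linarith

theorem c_f1 {r : ℝ} (hr : 0 < r) (h1 : r ≤ 1) : 0 ≤ (38 / 5 + 13 / 10 * r) * (1 + r) * ((8 * pw (247 / 1000) (267 / 1000) (73 / 1000) 0 r + 2 * (r * pw 0 (4 / 25) (179 / 500) (-21 / 1000) r) + 7 * (r * pw 0 (2 / 25) (127 / 1000) (-21 / 500) r)) / 35) - 1 := by
  have e : (38 / 5 + 13 / 10 * r) * (1 + r) * ((8 * pw (247 / 1000) (267 / 1000) (73 / 1000) 0 r + 2 * (r * pw 0 (4 / 25) (179 / 500) (-21 / 1000) r) + 7 * (r * pw 0 (2 / 25) (127 / 1000) (-21 / 500) r)) / 35) - 1 =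
      ((431 / 21875) * r ^ 0 * (1 - r) ^ 5 + (7109 / 87500) * r ^ 1 * (1 - r) ^ 4 + (31517 / 350000) * r ^ 2 * (1 - r) ^ 3 + (533 / 21875) * r ^ 3 * (1 - r) ^ 2 + (38897 / 350000) * r ^ 4 * (1 - r) ^ 1 + (20173 / 175000) * r ^ 5 * (1 - r) ^ 0) / (1 + r) ^ 3 := by
    unfold pw
    field_simp
    ring
  have h2 : 0 ≤ 1 - r := by linarith
  rw [e]
  positivity

theorem c_f1p {r : ℝ} (hr : 0 < r) : 0 ≤ (1 + r) * ((8 * pw (247 / 1000) (267 / 1000) (73 / 1000) 0 r + 2 * (r * pw 0 (4 / 25) (179 / 500) (-21 / 1000) r) + 7 * (r * pw 0 (2 / 25) (127 / 1000) (-21 / 500) r)) / 35) - 2 / 25 := by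
  have e : (1 + r) * ((8 * pw (247 / 1000) (267 / 1000) (73 / 1000) 0 r + 2 * (r * pw 0 (4 / 25) (179 / 500) (-21 / 1000) r) + 7 * (r * pw 0 (2 / 25) (127 / 1000) (-21 / 500) r)) / 35) - 2 / 25 =
      ((237 / 4375) + (4533 / 35000) * r ^ 1 + (3029 / 35000) * r ^ 2 + (1 / 625) * r ^ 3) / (1 + r) ^ 3 := by
    unfold pw
    field_simp
    ring
  rw [e]
  positivity

theorem c_f2 {r : ℝ} (hr : 0 < r) : 0 ≤ (r + 2 * pw (1 / 4) (9 / 50) (-9 / 200) 0 r - r ^ 2 * ((4 * pw (1 / 4) (53 / 200) (79 / 1000) 0 r + r * pw 0 (17 / 100) (7 / 20) (-7 / 500) r) / 7)) / 5 - (113 / 100 + 34 / 25 * r + 79 / 50 * r ^ 2) * ((8 * pw (1 / 4) (53 / 200) (79 / 1000) 0 r + 2 * (r * pw 0 (17 / 100) (7 / 20) (-7 / 500) r) + 7 * (r * pw 0 (97 / 1000) (107 / 1000) (-7 / 200) r)) / 35) := by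
  have e : (r + 2 * pw (1 / 4) (9 / 50) (-9 / 200) 0 r - r ^ 2 * ((4 * pw (1 / 4) (53 / 200) (79 / 1000) 0 r + r * pw 0 (17 / 100) (7 / 20) (-7 / 500) r) / 7)) / 5 - (113 / 100 + 34 / 25 * r + 79 / 50 * r ^ 2) * ((8 * pw (1 / 4) (53 / 200) (79 / 1000) 0 r + 2 * (r * pw 0 (17 / 100) (7 / 20) (-7 / 500) r) + 7 * (r * pw 0 (97 / 1000) (107 / 1000) (-7 / 200) r)) / 35) =
      ((253 / 437500) + (2063 / 100000) * r ^ 1 + (23317 / 500000) * r ^ 2 + (44717 / 1750000) * r ^ 3 + (48421 / 3500000) * r ^ 4 + (238533 / 3500000) * r ^ 5 + (146253 / 1750000) * r ^ 6 + (52999 / 1750000) * r ^ 7) / (1 + r) ^ 6 := by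
    unfold pw
    field_simp
    ring
  rw [e]
  positivity

theorem c_o0 {r : ℝ} (hr : 0 < r) : 0 ≤ pw 0 (2 / 25) (127 / 1000) (-21 / 500) r := by
  have e : pw 0 (2 / 25) (127 / 1000) (-21 / 500) r =
      ((33 / 200) + (287 / 1000) * r ^ 1 + (2 / 25) * r ^ 2) / (1 + r) ^ 4 := by
    unfold pw
    field_simp
    ring
  rw [e]
  positivity

theorem c_o2 {r : ℝ} (hr : 0 < r) : 0 ≤ 13 / 10 * ((8 * pw (247 / 1000) (267 / 1000) (73 / 1000) 0 r + 2 * (r * pw 0 (4 / 25) (179 / 500) (-21 / 1000) r) + 7 * (r * pw 0 (2 / 25) (127 / 1000) (-21 / 500) r)) / 35) - pw 0 (97 / 1000) (107 / 1000) (-7 / 200) r := by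
  have e : 13 / 10 * ((8 * pw (247 / 1000) (267 / 1000) (73 / 1000) 0 r + 2 * (r * pw 0 (4 / 25) (179 / 500) (-21 / 1000) r) + 7 * (r * pw 0 (2 / 25) (127 / 1000) (-21 / 500) r)) / 35) - pw 0 (97 / 1000) (107 / 1000) (-7 / 200) r =
      ((949 / 175000) + (62779 / 350000) * r ^ 1 + (114627 / 350000) * r ^ 2 + (663 / 6250) * r ^ 3) / (1 + r) ^ 4 := by
    unfold pw
    field_simp
    ring
  rw [e]
  positivity

theorem c_o3 {r : ℝ} (hr : 0 < r) (h1 : r ≤ 1) : 0 ≤ pw 0 (2 / 25) (127 / 1000) (-21 / 500) r - 1 / 2 * ((8 * pw (1 / 4) (53 / 200) (79 / 1000) 0 r + 2 * (r * pw 0 (17 / 100) (7 / 20) (-7 / 500) r) + 7 * (r * pw 0 (97 / 1000) (107 / 1000) (-7 / 200) r)) / 35) := by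
  have e : pw 0 (2 / 25) (127 / 1000) (-21 / 500) r - 1 / 2 * ((8 * pw (1 / 4) (53 / 200) (79 / 1000) 0 r + 2 * (r * pw 0 (17 / 100) (7 / 20) (-7 / 500) r) + 7 * (r * pw 0 (97 / 1000) (107 / 1000) (-7 / 200) r)) / 35) =
      ((3399 / 35000) * r ^ 0 * (1 - r) ^ 3 + (27417 / 70000) * r ^ 1 * (1 - r) ^ 2 + (28433 / 70000) * r ^ 2 * (1 - r) ^ 1 + (137 / 2000) * r ^ 3 * (1 - r) ^ 0) / (1 + r) ^ 4 := by
    unfold pw
    field_simp
    ring
  have h2 : 0 ≤ 1 - r := by linarith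
  rw [e]
  positivity

theorem c_f7 {r : ℝ} (hr : 0 < r) : 0 ≤ (4 * pw (247 / 1000) (267 / 1000) (73 / 1000) 0 r + r * pw 0 (4 / 25) (179 / 500) (-21 / 1000) r) / 7 - (1 + r)⁻¹ * (41 / 250 + 17 / 100 * (1 + r)⁻¹) := by
  have e : (4 * pw (247 / 1000) (267 / 1000) (73 / 1000) 0 r + r * pw 0 (4 / 25) (179 / 500) (-21 / 1000) r) / 7 - (1 + r)⁻¹ * (41 / 250 + 17 / 100 * (1 + r)⁻¹) =
      ((1 / 700) + (13 / 1400) * r ^ 1 + (19 / 1750) * r ^ 2) / (1 + r) ^ 4 := by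
    unfold pw
    field_simp
    ring
  rw [e]
  positivity

theorem c_f8 {r : ℝ} (hr : 0 < r) (h1 : r ≤ 1) : 0 ≤ (1 + r) * ((8 * pw (247 / 1000) (267 / 1000) (73 / 1000) 0 r + 2 * (r * pw 0 (4 / 25) (179 / 500) (-21 / 1000) r) + 7 * (r * pw 0 (2 / 25) (127 / 1000) (-21 / 500) r)) / 35) - r * pw 0 (97 / 1000) (107 / 1000) (-7 / 200) r - (1 - r) / (8 * (1 + r)) := by
  have e : (1 + r) * ((8 * pw (247 / 1000) (267 / 1000) (73 / 1000) 0 r + 2 * (r * pw 0 (4 / 25) (179 / 500) (-21 / 1000) r) + 7 * (r * pw 0 (2 / 25) (127 / 1000) (-21 / 500) r)) / 35) - r * pw 0 (97 / 1000) (107 / 1000) (-7 / 200) r - (1 - r) / (8 * (1 + r)) =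
      ((321 / 35000) * r ^ 0 * (1 - r) ^ 4 + (531 / 4375) * r ^ 1 * (1 - r) ^ 3 + (4929 / 7000) * r ^ 2 * (1 - r) ^ 2 + (821 / 500) * r ^ 3 * (1 - r) ^ 1 + (43983 / 35000) * r ^ 4 * (1 - r) ^ 0) / (1 + r) ^ 4 := by
    unfold pw
    field_simp
    ring
  have h2 : 0 ≤ 1 - r := by linarith
  rw [e]
  positivity

theorem c_Lm {r : ℝ} (hr : 0 < r) : 0 ≤ pw (247 / 1000) (267 / 1000) (73 / 1000) 0 r := by
  have e : pw (247 / 1000) (267 / 1000) (73 / 1000) 0 r =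
      ((587 / 1000) + (761 / 1000) * r ^ 1 + (247 / 1000) * r ^ 2) / (1 + r) ^ 3 := by
    unfold pw
    field_simp
    ring
  rw [e]
  positivity

theorem facts {r : ℝ} (hr : 0 < r) : Facts r (cr r) (Wr r) (Pr r) (Lr r) := by
  have h1r : 0 < 1 + r := by linarith
  have PL1 := mul_le_mul_of_nonneg_left (hPL hr) h1r.le
  have f1' : 2 / 25 ≤ r * (1 + r) * Pr r := by linarith only [PL1, c_f1p hr]
  have hL : 0 ≤ Lr r := div_nonneg (by linarith only [c_Lm hr, bLm hr]) hr.le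
  refine ⟨?_, fun h1 => ?_, f1', ?_, ?_, ?_, ?_, fun h1 => ?_, ?_, ?_, hL, ?_, fun h1 => ?_, ?_⟩
  · exact (mul_pos_iff_of_pos_left (mul_pos hr h1r)).1 (by linarith only [f1'])
  · have := mul_le_mul_of_nonneg_left PL1 (show 0 ≤ 38 / 5 + 13 / 10 * r by positivity)
    linarith only [this, c_f1 hr h1]
  · apply le_of_mul_le_mul_left _ hr
    have e1 := mul_le_mul_of_nonneg_left (hPU hr)
      (show 0 ≤ 113 / 100 + 34 / 25 * r + 79 / 50 * r ^ 2 by positivity)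
    have e2 := mul_le_mul_of_nonneg_left (hWU hr) (sq_nonneg r)
    have e3 : r * (r ^ 2 * cr r) = (2 * jr r - r ^ 2 * (r * Wr r)) / 5 := by
      unfold Wr; field_simp; ring
    rw [e3]
    linarith only [e1, e2, bJm hr, c_f2 hr]
  · linarith only [c_o0 hr, bOm hr]
  · linarith only [bU hr]
  · linarith only [c_o2 hr, hPL hr, bOp hr]
  · linarith only [c_o3 hr h1, hPU hr, bOm hr]
  · have e1 := bAp hr
    have e2 := bOm hr
    unfold pw at e1 e2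
    linarith only [e1, e2]
  · linarith only [bU3 hr]
  · linarith only [c_f7 hr, hWL hr]
  · have := mul_le_mul_of_nonneg_left (bOp hr) hr.le
    linarith only [this, PL1, c_f8 hr h1]
  · have e1 := bOp hr
    unfold pw at e1
    have e2 := mul_nonneg (sq_nonneg (1 + r)⁻¹) (sq_nonneg ((1 + r)⁻¹ - 16 / 35))
    have e3 := sq_nonneg (1 + r)⁻¹
    linarith only [e1, e2, e3]

theorem jr_zero_pos : 0 < jr 0 := by
  have h : ∀ r, 0 < r → r ≤ 1 → 1 / 10 ≤ jr r := by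
    intro r hr h1
    have e1 := bJm hr
    unfold pw at e1
    have hw0 : 1 / 2 ≤ (1 + r)⁻¹ := by
      rw [le_inv_comm₀ (by norm_num) (by linarith)]; linarith
    have hw1 : (1 + r)⁻¹ ≤ 1 := inv_le_one_of_one_le₀ (by linarith)
    generalize (1 + r)⁻¹ = w at e1 hw0 hw1
    have := mul_nonneg (sq_nonneg w) (show 0 ≤ 1 - w by linarith)
    have := sq_nonneg w
    linarith
  have := ge_of_tendsto (lim_cont jr_cont.continuousAt)
    (Filter.mem_of_superset (Ioo_mem_nhdsGT one_pos) fun r hr => h r hr.1 hr.2.le)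
  linarith

theorem rP_le {r : ℝ} (hr : 0 < r) : r * Pr r ≤ 1 := by
  have e1 := hPU hr
  unfold pw at e1
  have hw : (1 + r)⁻¹ * (1 + r) = 1 := inv_mul_cancel₀ (by linarith)
  have hw0 := w_pos hr hw
  have hw1 := w_lt hr hw
  generalize (1 + r)⁻¹ = w at e1 hw hw0 hw1
  have h2 : w ^ 2 ≤ 1 := pow_le_one₀ hw0.le hw1.le
  have h3 : w ^ 3 ≤ 1 := pow_le_one₀ hw0.le hw1.le
  have h4 : r * w ^ 2 = w - w ^ 2 := by linear_combination w * hw
  have h5 : r * w ^ 3 = w ^ 2 - w ^ 3 := by linear_combination w ^ 2 * hw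
  have h6 : 0 ≤ r * w ^ 4 := by positivity
  have h7 := pow_pos hw0 2
  have h8 := pow_pos hw0 3
  linarith

end Vale.Agent.P219.C3
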