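import Mathlib

/-!
# Certificate for `m = 3`: parametric integrals and barrier lemmas
-/

namespace Vale.Agent.P219.C3

open Set Filter Topology MeasureTheory

/-- The parametric integrals. -/
noncomputable def K (n : ℕ) (a u : ℝ) : ℝ := ∫ x in (0 : ℝ)..1, x ^ n * (1 - x ^ 2 + u * x ^ 2) ^ a

theorem q_pos {u x : ℝ} (hu : 0 < u) (hx : x ∈ Icc (0 : ℝ) 1) : 0 < 1 - x ^ 2 + u * x ^ 2 := by
  have h1 : x ^ 2 ≤ 1 := pow_le_one₀ hx.1 hx.2
  rcases eq_or_lt_of_le h1 with h | h
  · rw [h]; linarith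
  · have := mul_nonneg hu.le (sq_nonneg x)
    linarith

theorem K_cont (n : ℕ) (a : ℝ) {u : ℝ} (hu : 0 < u) :
    ContinuousOn (fun x : ℝ => x ^ n * (1 - x ^ 2 + u * x ^ 2) ^ a) (Icc 0 1) :=
  (continuousOn_pow n).mul (ContinuousOn.rpow_const (by fun_prop)
    fun _ hx => Or.inl (q_pos hu hx).ne')

theorem K_int (n : ℕ) (a : ℝ) {u : ℝ} (hu : 0 < u) :
    IntervalIntegrable (fun x : ℝ => x ^ n * (1 - x ^ 2 + u * x ^ 2) ^ a) volume 0 1 :=
  (K_cont n a hu).intervalIntegrable_of_Icc zero_le_one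

theorem K_deriv (n : ℕ) (a : ℝ) {u : ℝ} (hu : 0 < u) :
    HasDerivAt (K n a) (a * K (n + 2) (a - 1) u) u := by
  have hc : ContinuousOn (fun z : ℝ × ℝ => a * (z.2 ^ (n + 2) * (1 - z.2 ^ 2 + z.1 * z.2 ^ 2) ^ (a - 1)))
      (Icc (u / 2) (2 * u) ×ˢ Icc 0 1) :=
    continuousOn_const.mul ((by fun_prop : ContinuousOn (fun z : ℝ × ℝ => z.2 ^ (n + 2)) _).mul
      (ContinuousOn.rpow_const (by fun_prop)
        fun z hz => Or.inl (q_pos (by linarith [hz.1.1]) hz.2).ne'))
  obtain ⟨C, hC⟩ := (isCompact_Icc.prod isCompact_Icc).exists_bound_of_continuousOn hc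
  have hI : uIoc (0 : ℝ) 1 ⊆ Icc 0 1 := by
    rw [uIoc_of_le zero_le_one]; exact Ioc_subset_Icc_self
  have key := intervalIntegral.hasDerivAt_integral_of_dominated_loc_of_deriv_le (μ := volume)
    (F := fun v x : ℝ => x ^ n * (1 - x ^ 2 + v * x ^ 2) ^ a)
    (F' := fun v x : ℝ => a * (x ^ (n + 2) * (1 - x ^ 2 + v * x ^ 2) ^ (a - 1))) (x₀ := u)
    (a := 0) (b := 1) (bound := fun _ => C) (s := Icc (u / 2) (2 * u))
    (Icc_mem_nhds (by linarith) (by linarith))
    ((lt_mem_nhds hu).mono fun v hv =>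
      ((K_cont n a hv).mono hI).aestronglyMeasurable measurableSet_uIoc)
    (K_int n a hu)
    (((continuousOn_const.mul (K_cont (n + 2) (a - 1) hu)).mono hI).aestronglyMeasurable
      measurableSet_uIoc)
    (Eventually.of_forall fun x hx v hv => hC (v, x) ⟨hv, hI hx⟩) intervalIntegrable_const
    (Eventually.of_forall fun x hx v hv => by
      have hq := q_pos (u := v) (by linarith [hv.1]) (hI hx)
      have h1 : HasDerivAt (fun v : ℝ => 1 - x ^ 2 + v * x ^ 2) (x ^ 2) v := by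
        simpa using ((hasDerivAt_id v).mul_const (x ^ 2)).const_add (1 - x ^ 2)
      refine ((h1.rpow_const (p := a) (Or.inl hq.ne')).const_mul (x ^ n)).congr_deriv ?_
      ring)
  refine key.2.congr_deriv ?_
  rw [intervalIntegral.integral_const_mul]
  rfl

theorem K_contDiffOn (m : ℕ) : ∀ (n : ℕ) (a : ℝ), ContDiffOn ℝ m (K n a) (Ioi 0) := by
  induction m with
  | zero =>
    intro n a
    exact contDiffOn_zero.2 fun u hu => (K_deriv n a hu).continuousAt.continuousWithinAt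
  | succ m ih =>
    intro n a
    rw [Nat.cast_succ, contDiffOn_succ_iff_deriv_of_isOpen isOpen_Ioi]
    refine ⟨fun u hu => (K_deriv n a hu).differentiableAt.differentiableWithinAt, by simp, ?_⟩
    exact (contDiffOn_const.mul (ih (n + 2) (a - 1))).congr fun u hu => (K_deriv n a hu).deriv

theorem K_ode {r : ℝ} (hr : 0 < r) :
    3 * K 2 (1 / 2) (r ^ 2) - (1 - r ^ 2) * K 4 (1 / 2 - 1) (r ^ 2) = r := by
  have hu : 0 < r ^ 2 := by positivity
  have h := intervalIntegral.integral_eq_sub_of_hasDerivAt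
    (f := fun x : ℝ => x ^ 3 * (1 - x ^ 2 + r ^ 2 * x ^ 2) ^ (1 / 2 : ℝ))
    (f' := fun x : ℝ => 3 * (x ^ 2 * (1 - x ^ 2 + r ^ 2 * x ^ 2) ^ (1 / 2 : ℝ)) -
      (1 - r ^ 2) * (x ^ 4 * (1 - x ^ 2 + r ^ 2 * x ^ 2) ^ (1 / 2 - 1 : ℝ))) (a := 0) (b := 1)
    (fun x hx => by
      rw [uIcc_of_le zero_le_one] at hx
      have hq := q_pos hu hx
      have h1 : HasDerivAt (fun x : ℝ => 1 - x ^ 2 + r ^ 2 * x ^ 2)
          (-(2 * x) + r ^ 2 * (2 * x)) x := by
        simpa using ((hasDerivAt_pow 2 x).const_sub 1).fun_add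
          ((hasDerivAt_pow 2 x).const_mul (r ^ 2))
      refine ((hasDerivAt_pow 3 x).mul (h1.rpow_const (p := 1 / 2) (Or.inl hq.ne'))).congr_deriv ?_
      simp only [Nat.cast_ofNat]
      ring)
    (((K_int 2 _ hu).const_mul 3).sub ((K_int 4 _ hu).const_mul _))
  rw [intervalIntegral.integral_sub ((K_int 2 _ hu).const_mul 3) ((K_int 4 _ hu).const_mul _),
    intervalIntegral.integral_const_mul, intervalIntegral.integral_const_mul] at h
  have e : (r ^ 2) ^ (1 / 2 : ℝ) = r := by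
    rw [← Real.sqrt_eq_rpow, Real.sqrt_sq hr.le]
  simp only [one_pow, sub_self, zero_add, mul_one, one_mul, e] at h
  unfold K
  rw [h]
  simp

theorem j_cont : Continuous fun t : ℝ => K 2 (1 / 2) (t ^ 2) := by
  unfold K
  apply intervalIntegral.continuous_parametric_intervalIntegral_of_continuous'
  exact (by fun_prop : Continuous fun z : ℝ × ℝ => z.2 ^ 2).mul
    (Continuous.rpow_const (by fun_prop) fun _ => Or.inr (by norm_num))

theorem barA (n : ℕ) {D : ℝ → ℝ}
    (h : ∀ r, 0 < r → ∃ d, HasDerivAt D d r ∧ 0 ≤ (n + 4 : ℝ) * D r + r * d)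
    (hl : ∃ l, Tendsto (fun r => r ^ 3 * D r) (𝓝[>] 0) (𝓝 l)) {r : ℝ} (hr : 0 < r) : 0 ≤ D r := by
  obtain ⟨l, hl⟩ := hl
  have hd : ∀ t, 0 < t → ∃ d, HasDerivAt (fun t => t ^ (n + 4) * D t) d t ∧ 0 ≤ d := by
    intro t ht
    obtain ⟨d, h1, h2⟩ := h t ht
    refine ⟨t ^ (n + 3) * ((n + 4 : ℝ) * D t + t * d),
      ((hasDerivAt_pow (n + 4) t).mul h1).congr_deriv ?_, by positivity⟩
    simp only [Nat.cast_add, Nat.cast_ofNat, show n + 4 - 1 = n + 3 from rfl]
    ring
  have hm : MonotoneOn (fun t => t ^ (n + 4) * D t) (Ioi 0) := by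
    apply monotoneOn_of_deriv_nonneg (convex_Ioi 0)
    · exact fun t ht => (hd t ht).choose_spec.1.continuousAt.continuousWithinAt
    · rw [interior_Ioi]
      exact fun t ht => (hd t ht).choose_spec.1.differentiableAt.differentiableWithinAt
    · rw [interior_Ioi]
      intro t ht
      rw [(hd t ht).choose_spec.1.deriv]
      exact (hd t ht).choose_spec.2
  have h0 : Tendsto (fun t : ℝ => t ^ (n + 1)) (𝓝[>] 0) (𝓝 0) := by
    have := (continuous_pow (n + 1)).tendsto (0 : ℝ)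
    rw [zero_pow (by omega)] at this
    exact this.mono_left nhdsWithin_le_nhds
  have h1 : Tendsto (fun t => t ^ (n + 4) * D t) (𝓝[>] 0) (𝓝 0) := by
    have := h0.mul hl
    rw [zero_mul] at this
    exact this.congr fun t => by ring
  have h2 : 0 ≤ r ^ (n + 4) * D r :=
    le_of_tendsto h1 (mem_of_superset (Ioo_mem_nhdsGT hr) fun t ht => hm ht.1 hr ht.2.le)
  exact (mul_nonneg_iff_of_pos_left (by positivity)).1 h2

theorem barB {k : ℝ} (hk : 0 < k) {D : ℝ → ℝ}
    (h : ∀ r, 0 < r → ∃ d, HasDerivAt D d r ∧ (1 - r ^ 2) * d ≤ 2 * k * r * D r)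
    {r : ℝ} (hr : 0 < r) : 0 ≤ D r := by
  have hc : ∀ t, 0 < t → ContinuousAt D t := fun t ht => (h t ht).choose_spec.1.continuousAt
  rcases lt_trichotomy r 1 with h1 | h1 | h1
  · have hd : ∀ t ∈ Ioo r 1, ∃ d, HasDerivAt (fun t => (1 - t ^ 2) ^ k * D t) d t ∧ d ≤ 0 := by
      intro t ht
      obtain ⟨d, e1, e2⟩ := h t (hr.trans ht.1)
      have hq : 0 < 1 - t ^ 2 := by nlinarith [ht.1, ht.2]
      have e3 : HasDerivAt (fun t : ℝ => 1 - t ^ 2) (-(2 * t)) t := by
        simpa using (hasDerivAt_pow 2 t).const_sub 1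
      refine ⟨(1 - t ^ 2) ^ (k - 1) * ((1 - t ^ 2) * d - 2 * k * t * D t),
        ((e3.rpow_const (p := k) (Or.inl hq.ne')).mul e1).congr_deriv ?_,
        mul_nonpos_of_nonneg_of_nonpos (Real.rpow_nonneg hq.le _) (by linarith)⟩
      rw [Real.rpow_sub_one hq.ne']
      field_simp
      ring
    have hm : AntitoneOn (fun t => (1 - t ^ 2) ^ k * D t) (Icc r 1) := by
      apply antitoneOn_of_deriv_nonpos (convex_Icc r 1)
      · exact (ContinuousOn.rpow_const (by fun_prop) fun _ _ => Or.inr hk.le).mul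
          fun t ht => (hc t (hr.trans_le ht.1)).continuousWithinAt
      · rw [interior_Icc]
        exact fun t ht => (hd t ht).choose_spec.1.differentiableAt.differentiableWithinAt
      · rw [interior_Icc]
        intro t ht
        rw [(hd t ht).choose_spec.1.deriv]
        exact (hd t ht).choose_spec.2
    have h2 := hm (left_mem_Icc.2 h1.le) (right_mem_Icc.2 h1.le) h1.le
    simp only [one_pow, sub_self, Real.zero_rpow hk.ne', zero_mul] at h2
    exact (mul_nonneg_iff_of_pos_left (Real.rpow_pos_of_pos (by nlinarith) _)).1 h2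
  · obtain ⟨d, -, e2⟩ := h r hr
    rw [h1] at e2 ⊢
    exact (mul_nonneg_iff_of_pos_left hk).1 (by linarith)
  · have hd : ∀ t ∈ Ioo 1 r, ∃ d, HasDerivAt (fun t => (t ^ 2 - 1) ^ k * D t) d t ∧ 0 ≤ d := by
      intro t ht
      obtain ⟨d, e1, e2⟩ := h t (one_pos.trans ht.1)
      have hq : 0 < t ^ 2 - 1 := by nlinarith [ht.1]
      have e3 : HasDerivAt (fun t : ℝ => t ^ 2 - 1) (2 * t) t := by
        simpa using (hasDerivAt_pow 2 t).sub_const 1
      refine ⟨(t ^ 2 - 1) ^ (k - 1) * (2 * k * t * D t - (1 - t ^ 2) * d),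
        ((e3.rpow_const (p := k) (Or.inl hq.ne')).mul e1).congr_deriv ?_,
        mul_nonneg (Real.rpow_nonneg hq.le _) (by linarith)⟩
      rw [Real.rpow_sub_one hq.ne']
      field_simp
      ring
    have hm : MonotoneOn (fun t => (t ^ 2 - 1) ^ k * D t) (Icc 1 r) := by
      apply monotoneOn_of_deriv_nonneg (convex_Icc 1 r)
      · exact (ContinuousOn.rpow_const (by fun_prop) fun _ _ => Or.inr hk.le).mul
          fun t ht => (hc t (one_pos.trans_le ht.1)).continuousWithinAt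
      · rw [interior_Icc]
        exact fun t ht => (hd t ht).choose_spec.1.differentiableAt.differentiableWithinAt
      · rw [interior_Icc]
        intro t ht
        rw [(hd t ht).choose_spec.1.deriv]
        exact (hd t ht).choose_spec.2
    have h2 := hm (left_mem_Icc.2 h1.le) (right_mem_Icc.2 h1.le) h1.le
    simp only [one_pow, sub_self, Real.zero_rpow hk.ne', zero_mul] at h2
    exact (mul_nonneg_iff_of_pos_left (Real.rpow_pos_of_pos (by nlinarith) _)).1 h2

end Vale.Agent.P219.C3
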