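import Vale.Agent.P219.G.Cert4A

/-! The certificate for `m = 4`: `X = (1 + 5 u / 2 - p) / u ^ 2`, `η = 9` and
`Y = q / u ^ 3 - 3 (1 - 2 γ) (u - q) / (γ u ^ 2) - γ ^ 3 (u - q) ^ 2 / √(sg2) ^ 7`. -/

namespace Vale.Agent.P219

variable {g u p q M : ℝ}

/-- `u ^ 3` times the first variation term. -/
noncomputable def c4B (g u p q M : ℝ) : ℝ :=
  4 * u * (1 + 5 / 2 * u - p) * (ct g u - q) - (2 * (1 - p) + 5 / 2 * u) * (sg2 g u - q ^ 2) -
    u * (ct g u * p - M * q)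

theorem c4_sg (g u : ℝ) : sg2 g u = u * (u + 2 * g * (1 - u)) := by
  rw [sg2]
  ring

theorem c4_sgpos (h0 : 0 < g) (h1 : g ≤ 1 / 2) (hu : 0 < u) : 0 < sg2 g u := by
  rw [c4_sg]
  exact mul_pos hu (by linarith [c4_h h1 hu])

theorem c4_X (h0 : 0 < g) (hu : 0 < u) (h1 : g ≤ 1 / 2) (hp : p ^ 2 ≤ sg2 g u) :
    0 ≤ 1 + 5 / 2 * u - p := by
  rw [c4_sg] at hp
  linarith [c4_le (by linarith) h0 hu hp, mul_pos h0 hu]

theorem c4_core (h0 : 0 < g) (h1 : g ≤ 1 / 2) (hu : 0 < u) (hp : p ^ 2 ≤ sg2 g u)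
    (hq : q ^ 2 ≤ sg2 g u)
    (hM : (sg2 g u * M - ct g u * p * q) ^ 2 ≤ g ^ 2 * (sg2 g u - p ^ 2) * (sg2 g u - q ^ 2)) :
    ((u - p) ^ 2 + (u - q) ^ 2) / 16 ≤ c4B g u p q M + c4B g u q p M + 18 * g * u ^ 3 +
      (2 * g * (p * q) - 3 * (1 - 2 * g) * u * (u * (p + q) - 2 * (p * q))) ∧
    (q ≤ p → 0 ≤ (u + 2 * g * (1 - u)) * (c4B g u p q M + c4B g u q p M + 18 * g * u ^ 3) +
      2 * g * |p * q| * (1 + 5 / 2 * u - p)) := by
  have hX := c4_X h0 hu h1 hp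
  obtain ⟨W, hW⟩ : ∃ W, sg2 g u * M - ct g u * p * q = -(g * W) :=
    ⟨-(sg2 g u * M - ct g u * p * q) / g, by field_simp⟩
  have hW2 : W ^ 2 ≤ (sg2 g u - p ^ 2) * (sg2 g u - q ^ 2) := by
    refine le_of_mul_le_mul_left ?_ (pow_pos h0 2)
    rw [hW] at hM
    linarith
  obtain ⟨Z, rfl⟩ : ∃ Z, W = (sg2 g u - p ^ 2 + (sg2 g u - q ^ 2)) / 2 - Z :=
    ⟨(sg2 g u - p ^ 2 + (sg2 g u - q ^ 2)) / 2 - W, by ring⟩
  obtain ⟨z1, z2⟩ := abs_le_of_sq_le_sq' (b := (sg2 g u - p ^ 2 + (sg2 g u - q ^ 2)) / 2)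
    (hW2.trans (by linarith [sq_nonneg (p ^ 2 - q ^ 2)])) (by linarith)
  have hZ : 0 ≤ Z := by linarith
  have e : c4T g u (2 * u - (p + q)) ((p - q) ^ 2) Z = 4 * (u + 2 * g * (1 - u)) *
      (c4B g u p q M + c4B g u q p M + 18 * g * u ^ 3 +
        (2 * g * (p * q) - 3 * (1 - 2 * g) * u * (u * (p + q) - 2 * (p * q)))) := by
    simp only [c4T, c4B, ct, sg2] at hW ⊢
    linear_combination (-4 * (p + q)) * hW
  rw [c4_sg] at hp hq hW2 z1
  have hh := c4_h h1 hu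
  have hh' : 0 < u + 2 * g * (1 - u) := by linarith
  have hd : 0 ≤ 1 - 2 * g := by linarith
  have hn := fun h : p + q ≤ 0 => c4_neg (s := 2 * u - (p + q)) (Z := Z) h0 h1 hu (by linarith)
    (sq_nonneg (p - q)) (by linarith [sq_nonneg (p + q)])
    (by linarith [sq_nonneg p, sq_nonneg q])
  have lp := sub_nonneg.2 (c4_le (by linarith) h0 hu hp)
  have lq := sub_nonneg.2 (c4_le (by linarith) h0 hu hq)
  have hpos := fun h : 0 ≤ p + q => c4_pos (s := 2 * u - (p + q)) h0 h1 hu (by linarith)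
    (sq_nonneg (p - q)) (by linarith) (by linarith [mul_nonneg lp lq]) hZ
    (by linarith [sq_nonneg Z, mul_nonneg hZ (sq_nonneg (p - q))])
  have h2 : (u + 2 * g * (1 - u)) * (((2 * u - (p + q)) ^ 2 + (p - q) ^ 2) / 8) ≤
      c4T g u (2 * u - (p + q)) ((p - q) ^ 2) Z := by
    rcases le_total (p + q) 0 with h | h
    · refine le_trans (mul_le_mul_of_nonneg_left ?_ hh'.le) (hn h)
      have : 0 ≤ 2 * u - (p + q) - 2 * u := by linarith
      rw [add_assoc, le_add_iff_nonneg_right]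
      positivity
    · exact hpos h
  refine ⟨le_of_mul_le_mul_left ?_ hh', fun hqp => ?_⟩
  · linarith
  rcases le_total (p + q) 0 with h | h
  · have k1 := hn h
    have k2 : 0 ≤ (u + 2 * g * (1 - u)) * (((2 * u - (p + q)) ^ 2 + (p - q) ^ 2) / 8 +
        (2 * g + 6 * (1 - 2 * g) * u) * (p - q) ^ 2) +
        8 * g * |p * q| * (1 + 5 / 2 * u - p) := by positivity
    linarith
  rcases le_total q 0 with h' | h'
  · have k1 : 0 ≤ -(p * q) := by
      linarith [mul_nonneg (show 0 ≤ p by linarith) (neg_nonneg.2 h')]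
    have k2 : 0 ≤ (u + 2 * g * (1 - u)) * (((2 * u - (p + q)) ^ 2 + (p - q) ^ 2) / 8 +
        12 * (1 - 2 * g) * u ^ 2 * (p + q) + (8 * g + 24 * (1 - 2 * g) * u) * -(p * q)) +
        8 * g * |p * q| * (1 + 5 / 2 * u - p) := by positivity
    linarith
  · rw [abs_of_nonneg (mul_nonneg (h'.trans hqp) h')]
    linarith [c4_two h0 h1 hu h' hqp hp hZ]

/-- The correction of `Y`. -/
noncomputable def c4P (g u : ℝ) : ℝ := g ^ 3 / √(sg2 g u) ^ 7

theorem c4P_pos (h0 : 0 < g) (h1 : g ≤ 1 / 2) (hu : 0 < u) : 0 < c4P g u := by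
  have := c4_sgpos h0 h1 hu
  rw [c4P]
  positivity

theorem c4P_le (h0 : 0 < g) (h1 : g ≤ 1 / 2) (hu : 0 < u) (hp : p ^ 2 ≤ sg2 g u) :
    u ^ 3 * c4P g u * p ≤ 1 / 8 := by
  have h2 := c4_sgpos h0 h1 hu
  have h3 := Real.sqrt_pos.2 h2
  have h4 : (u * (2 * g)) ^ 3 ≤ (√(sg2 g u) ^ 2) ^ 3 := by
    rw [Real.sq_sqrt h2.le, c4_sg]
    exact pow_le_pow_left₀ (by positivity) (mul_le_mul_of_nonneg_left (c4_h h1 hu) hu.le) 3
  rw [c4P, mul_div_assoc', div_mul_eq_mul_div, div_le_iff₀ (by positivity)]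
  linarith [mul_le_mul_of_nonneg_left (Real.le_sqrt_of_sq_le hp)
    (show 0 ≤ u ^ 3 * g ^ 3 by positivity), mul_le_mul_of_nonneg_left h4 h3.le]

theorem c4P_der (h0 : 0 < g) (h1 : g ≤ 1 / 2) (hu : 0 < u) :
    HasDerivAt (c4P g) (-(7 * ct g u * c4P g u / sg2 g u)) u := by
  have h2 := c4_sgpos h0 h1 hu
  have h3 := Real.sqrt_pos.2 h2
  have h4 : HasDerivAt (sg2 g) (2 * ct g u) u := by
    refine ((hasDerivAt_id' u).mul (((hasDerivAt_id' u).const_mul (1 - 2 * g)).const_add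
      (2 * g))).congr_deriv ?_
    rw [ct]
    ring
  refine ((hasDerivAt_const u (g ^ 3)).div ((h4.sqrt h2.ne').pow 7)
    (pow_pos h3 7).ne').congr_deriv ?_
  have h5 := Real.sq_sqrt h2.le
  simp only [c4P, Pi.pow_apply]
  generalize √(sg2 g u) = x at h3 h5
  rw [← h5]
  field_simp
  ring

/-- The function `X`. -/
noncomputable def c4X (u p : ℝ) : ℝ := (1 + 5 / 2 * u - p) / u ^ 2

/-- The function `Y`. -/
noncomputable def c4Y (g u q : ℝ) : ℝ :=
  q / u ^ 3 - 3 * (1 - 2 * g) / g * ((u - q) / u ^ 2) - c4P g u * (u - q) ^ 2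

theorem c4_main (h0 : 0 < g) (h1 : g ≤ 1 / 2) (hu : 0 < u) (hp : p ^ 2 ≤ sg2 g u)
    (hq : q ^ 2 ≤ sg2 g u)
    (hM : (sg2 g u * M - ct g u * p * q) ^ 2 ≤ g ^ 2 * (sg2 g u - p ^ 2) * (sg2 g u - q ^ 2))
    {ι gx gy : ℝ} (i0 : 0 ≤ ι) (i1 : ι ≤ 1) (hx : 0 ≤ gx) (hy : 0 ≤ gy)
    (hxy : (p * q / sg2 g u * (1 - ι)) ^ 2 ≤ gx * gy) (hqp : q ≤ p) :
    0 ≤ c4B g u p q M / u ^ 3 + c4B g u q p M / u ^ 3 +
      g * (2 * 9 + ι * (c4Y g u q * p + c4Y g u p * q) + c4X u p * gy + c4X u q * gx) := by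
  obtain ⟨k1, k2⟩ := c4_core h0 h1 hu hp hq hM
  have k2 := k2 hqp
  have hX := c4_X h0 hu h1 hp
  have hs := c4_sgpos h0 h1 hu
  have hh' : 0 < u + 2 * g * (1 - u) := by linarith [c4_h h1 hu]
  have i2 := sub_nonneg.2 i1
  have k3 : 2 * (|p * q| * (1 - ι)) ≤ sg2 g u * (gx + gy) := by
    rw [← div_le_iff₀' hs]
    refine (abs_le_of_sq_le_sq' ?_ (by positivity)).2
    rw [mul_div_assoc, mul_pow, div_pow, mul_pow, sq_abs, ← mul_pow, ← div_pow, mul_div_right_comm]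
    linarith [sq_nonneg (gx - gy)]
  have k4 : ∀ a b, a ^ 2 ≤ sg2 g u → g * (u ^ 3 * c4P g u * a) * (u - b) ^ 2 ≤ (u - b) ^ 2 / 16 := by
    intro a b ha
    have := (mul_le_mul_of_nonneg_left (c4P_le h0 h1 hu ha) h0.le).trans
      (show g * (1 / 8) ≤ 1 / 16 by linarith)
    linarith [mul_le_mul_of_nonneg_right this (sq_nonneg (u - b))]
  have e : c4B g u p q M / u ^ 3 + c4B g u q p M / u ^ 3 +
      g * (2 * 9 + ι * (c4Y g u q * p + c4Y g u p * q) + c4X u p * gy + c4X u q * gx) =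
      (ι * (c4B g u p q M + c4B g u q p M + 18 * g * u ^ 3 +
        (2 * g * (p * q) - 3 * (1 - 2 * g) * u * (u * (p + q) - 2 * (p * q))) -
          g * (u ^ 3 * c4P g u * p) * (u - q) ^ 2 - g * (u ^ 3 * c4P g u * q) * (u - p) ^ 2) +
      ((1 - ι) * (c4B g u p q M + c4B g u q p M + 18 * g * u ^ 3) +
        g * u * (1 + 5 / 2 * u - p) * (gx + gy)) + g * u * (p - q) * gx) / u ^ 3 := by
    simp only [c4X, c4Y]
    field_simp
    ring
  rw [e]
  refine div_nonneg (add_nonneg (add_nonneg (mul_nonneg i0 ?_) ?_) ?_) (by positivity)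
  · linarith [k4 p q hp, k4 q p hq]
  · refine nonneg_of_mul_nonneg_right ?_ hh'
    rw [c4_sg] at k3
    linarith [mul_nonneg i2 k2, mul_le_mul_of_nonneg_left k3 (mul_nonneg h0.le hX)]
  · have := sub_nonneg.2 hqp
    positivity

theorem ncert4 {γ : ℝ} (h0 : 0 < γ) (h1 : γ ≤ 1 / 2) : Nonempty (NCert 4 γ) := by
  have hd : 0 ≤ 1 - 2 * γ := by linarith
  have eB : ∀ u p q M : ℝ, 0 < u → nB 4 γ c4X (fun u p => -(2 * (1 - p) + 5 / 2 * u) / u ^ 3)
      (fun u _ => -1 / u ^ 2) u p q M = c4B γ u p q M / u ^ 3 := fun u p q M hu => by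
    simp only [nB, c4X, c4B]
    field_simp
    ring
  have eD : ∀ u q : ℝ, 0 < u → nD 4 γ (c4Y γ) (fun u q => -3 * q / u ^ 4 -
      3 * (1 - 2 * γ) / γ * ((2 * q - u) / u ^ 3) - (-(7 * ct γ u * c4P γ u / sg2 γ u) *
        (u - q) ^ 2 + c4P γ u * (2 * (u - q)))) (fun u q => 1 / u ^ 3 +
      3 * (1 - 2 * γ) / γ / u ^ 2 + c4P γ u * (2 * (u - q))) u q = (q - u) *
        ((9 * γ * (1 - 2 * γ) + 12 * (1 - 2 * γ) ^ 2 * u) / (γ * u ^ 2) +
          2 * γ * u * c4P γ u) := fun u q hu => by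
    have := (c4_sgpos h0 h1 hu).ne'
    simp only [nD, c4Y]
    field_simp
    simp only [ct, sg2]
    ring
  refine ⟨⟨c4X, fun u p => -(2 * (1 - p) + 5 / 2 * u) / u ^ 3, fun u _ => -1 / u ^ 2, c4Y γ,
    fun u q => -3 * q / u ^ 4 - 3 * (1 - 2 * γ) / γ * ((2 * q - u) / u ^ 3) -
      (-(7 * ct γ u * c4P γ u / sg2 γ u) * (u - q) ^ 2 + c4P γ u * (2 * (u - q))),
    fun u q => 1 / u ^ 3 + 3 * (1 - 2 * γ) / γ / u ^ 2 + c4P γ u * (2 * (u - q)), 9, 1,
    by norm_num, one_pos, ⟨?_, fun u p hu => ⟨?_, ?_⟩⟩, ⟨?_, fun u q hu => ⟨?_, ?_⟩⟩,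
    fun u p hu hp => div_nonneg (c4_X h0 hu h1 hp) (sq_nonneg u), fun l hl => ?_,
    fun u p q M ι gx gy hu hp hq hM i0 i1 hx hy hxy => ?_, fun u q hu _ h => ?_,
    fun u q hu _ h => ?_, fun u q hu hq h => ?_, fun u q hu _ h => ?_, fun u hu _ => ?_⟩⟩
  · exact ContDiffOn.div (by fun_prop) (by fun_prop) fun z hz => (pow_pos hz 2).ne'
  · refine (((((hasDerivAt_id' u).const_mul (5 / 2)).const_add 1).sub_const p).div
      ((hasDerivAt_id' u).pow 2) (pow_pos hu 2).ne').congr_deriv ?_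
    simp only [Pi.pow_apply]
    field_simp
    ring
  · exact ((hasDerivAt_id' p).const_sub _).div_const _
  · refine ContDiffOn.sub (ContDiffOn.sub ?_ (contDiffOn_const.mul ?_)) (ContDiffOn.mul
      (contDiffOn_const.div (ContDiffOn.pow (ContDiffOn.sqrt ?_ fun z hz => ?_) 7)
        fun z hz => ?_) (by fun_prop))
    · exact ContDiffOn.div (by fun_prop) (by fun_prop) fun z hz => (pow_pos hz 3).ne'
    · exact ContDiffOn.div (by fun_prop) (by fun_prop) fun z hz => (pow_pos hz 2).ne'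
    · unfold sg2
      fun_prop
    · exact (c4_sgpos h0 h1 hz).ne'
    · exact (pow_pos (Real.sqrt_pos.2 (c4_sgpos h0 h1 hz)) 7).ne'
  · refine ((((hasDerivAt_const u q).div ((hasDerivAt_id' u).pow 3) (pow_pos hu 3).ne').sub
      ((((hasDerivAt_id' u).sub_const q).div ((hasDerivAt_id' u).pow 2)
        (pow_pos hu 2).ne').const_mul _)).sub ((c4P_der h0 h1 hu).mul
          (((hasDerivAt_id' u).sub_const q).pow 2))).congr_deriv ?_
    simp only [Pi.pow_apply]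
    field_simp
    ring
  · refine ((((hasDerivAt_id' q).div_const _).sub ((((hasDerivAt_id' q).const_sub u).div_const
      _).const_mul _)).sub ((((hasDerivAt_id' q).const_sub u).pow 2).const_mul _)).congr_deriv ?_
    ring
  · refine ⟨min 1 (l / 7) ^ 2, by positivity, fun u p hu h hp => ?_⟩
    have k0 : 0 ≤ min 1 (l / 7) := by positivity
    have k1 := min_le_left 1 (l / 7)
    have k2 := min_le_right 1 (l / 7)
    generalize min 1 (l / 7) = x at h k0 k1 k2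
    have k3 : x ^ 2 ≤ x := by nlinarith
    have k4 : p ^ 2 ≤ x ^ 2 := by
      rw [sg2] at hp
      nlinarith [mul_nonneg hu.le (mul_nonneg hd (show 0 ≤ 1 - u by linarith))]
    have e : √u ^ 4 * c4X u p - 1 = 5 / 2 * u - p := by
      rw [show √u ^ 4 = (√u ^ 2) ^ 2 by ring, Real.sq_sqrt hu.le, c4X]
      field_simp
      ring
    obtain ⟨k5, k6⟩ := abs_le_of_sq_le_sq' k4 k0
    rw [e, abs_le]
    constructor <;> linarith
  · rw [eB _ _ _ _ hu, eB _ _ _ _ hu]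
    rcases le_total q p with h | h
    · exact c4_main h0 h1 hu hp hq hM i0 i1 hx hy hxy h
    · linarith [c4_main h0 h1 hu hq hp (M := M) (by linarith) i0 i1 hy hx
        (by rwa [mul_comm q, mul_comm gy]) h]
  · have := c4P_pos h0 h1 hu
    have := sub_pos.2 h
    rw [eD u q hu]
    positivity
  · have := c4P_pos h0 h1 hu
    rw [eD u q hu]
    exact mul_nonpos_of_nonpos_of_nonneg (sub_nonpos.2 h) (by positivity)
  · have k1 := c4P_pos h0 h1 hu
    have k2 := c4P_le h0 h1 hu hq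
    have k3 := sub_nonneg.2 h
    have k4 : (u - q) ^ 2 ≤ q ^ 2 := by nlinarith
    have k5 : c4P γ u * (u - q) ^ 2 ≤ q / u ^ 3 := by
      rw [le_div_iff₀ (by positivity)]
      linarith [mul_le_mul_of_nonneg_left k4 (show 0 ≤ c4P γ u * u ^ 3 by positivity),
        mul_le_mul_of_nonneg_left k2 (hu.le.trans h)]
    have k6 : 3 * (1 - 2 * γ) / γ * ((u - q) / u ^ 2) ≤ 0 := mul_nonpos_of_nonneg_of_nonpos
      (by positivity) (div_nonpos_of_nonpos_of_nonneg (sub_nonpos.2 h) (sq_nonneg u))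
    rw [c4Y]
    linarith
  · have k1 := c4P_pos h0 h1 hu
    have k2 : 0 ≤ u - q := by linarith
    have k3 := div_nonpos_of_nonpos_of_nonneg h (pow_pos hu 3).le
    have k4 : 0 ≤ 3 * (1 - 2 * γ) / γ * ((u - q) / u ^ 2) + c4P γ u * (u - q) ^ 2 := by positivity
    rw [c4Y]
    linarith
  · refine le_of_eq ?_
    simp only [c4X, c4Y, sub_self]
    field_simp
    ring

end Vale.Agent.P219
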