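import Vale.Agent.P219.G.NCert

/-! Polynomial inequalities for the certificate with `m = 4`. Here `h = u + 2 g (1 - u)`,
`s = 2 u - (p + q)`, `D = (p - q) ^ 2`. -/

namespace Vale.Agent.P219

/-- The main quantity. -/
def c4T (g u s D Z : ℝ) : ℝ :=
  (u + 2 * g * (1 - u)) * (13 * u - 12 * g * u + 2 * g + 4 + s) * s ^ 2 +
    ((u + 2 * g * (1 - u)) * (-7 * u + 12 * g * u + 4 - 2 * g - s) + 2 * g * (2 * u - s)) * D +
      4 * g * (2 * u - s) * Z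

variable {g u s D Z : ℝ}

theorem c4_h (h1 : g ≤ 1 / 2) (hu : 0 < u) : 2 * g ≤ u + 2 * g * (1 - u) := by
  nlinarith [mul_nonneg (sub_nonneg.2 h1) hu.le]

theorem c4_neg (h0 : 0 < g) (h1 : g ≤ 1 / 2) (hu : 0 < u) (hr : 2 * u ≤ s) (hD : 0 ≤ D)
    (hD' : D ≤ 4 * (u * (u + 2 * g * (1 - u)))) (hZ : Z ≤ 2 * (u * (u + 2 * g * (1 - u)))) :
    (u + 2 * g * (1 - u)) * ((s ^ 2 + D) / 8 + (2 * g + 6 * (1 - 2 * g) * u) * (s - 2 * u) ^ 2 +
      12 * (1 - 2 * g) * u ^ 2 * (s - 2 * u)) ≤ c4T g u s D Z := by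
  obtain ⟨ρ, rfl⟩ : ∃ ρ, s = 2 * u + ρ := ⟨s - 2 * u, by ring⟩
  have hρ : 0 ≤ ρ := by linarith
  have hh := c4_h h1 hu
  obtain ⟨e, rfl⟩ : ∃ e, g = 1 / 2 - e := ⟨1 / 2 - g, by ring⟩
  have he : 0 ≤ e := by linarith
  generalize hh' : u + 2 * (1 / 2 - e) * (1 - u) = h at hD' hZ hh
  have hp : 0 < h := by linarith
  have k1 := mul_le_mul_of_nonneg_left hZ (show 0 ≤ 4 * (1 / 2 - e) * ρ by positivity)
  have k2 := mul_le_mul_of_nonneg_left hD' (show 0 ≤ 2 * (1 / 2 - e) * ρ +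
    h * (ρ + (3 + 12 * e) * u) by positivity)
  have k3 : 0 ≤ h * ((23 / 8 + 2 * e) * D) := by positivity
  have k4 : 0 ≤ h * (4 * u ^ 2 * (u * (6 + 3 * (1 - 2 * e) + 12 * e * (1 - 2 * e)) +
      (24 * (e - 1 / 6) ^ 2 + 29 / 24)) + 4 * u * (u * (10 + 4 * e) + 15 / 8 + 4 * e) * ρ +
        (13 * u + 31 / 8) * ρ ^ 2 + ρ ^ 3) := by
    have : 0 ≤ 1 - 2 * e := by linarith
    positivity
  rw [c4T, hh']
  subst hh'
  linarith

theorem c4_pos1 (h0 : 0 < g) (h1 : g ≤ 1 / 2) (hu : 0 < u) (h2 : u < 1)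
    (hD' : D ≤ (s + 2 * (g * (1 - u))) ^ 2)
    (hB : -7 * u + 12 * g * u + 31 / 8 - 2 * g - s < 0) (h4 : 2 * (g * (1 - u)) ≤ s) :
    0 ≤ (13 * u - 12 * g * u + 2 * g + 31 / 8 + s) * s ^ 2 +
      (-7 * u + 12 * g * u + 31 / 8 - 2 * g - s) * D := by
  have h3 : 0 < 1 - u := by linarith
  have hv : 0 < g * (1 - u) := by positivity
  have hgu : 0 < g * u := by positivity
  have h5 : D ≤ s ^ 2 + 6 * (g * (1 - u)) * s := by
    linarith [mul_le_mul_of_nonneg_left h4 hv.le]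
  have k1 := mul_le_mul_of_nonpos_left h5 hB.le
  have k2 : 0 ≤ s * ((s - 2 * (g * (1 - u))) * (6 * u + 31 / 4 - 6 * (g * (1 - u)))) :=
    mul_nonneg (by linarith) (mul_nonneg (by linarith) (by linarith))
  have k3 : 0 ≤ s * (g * (1 - u) * (155 / 4 - 30 * u - 24 * g + 84 * (g * u))) :=
    mul_nonneg (by linarith)
      (mul_nonneg hv.le (by linarith [mul_le_mul_of_nonneg_right h1 h3.le]))
  linarith

theorem c4_pos2 (h0 : 0 < g) (h1 : g ≤ 1 / 2) (hu : 0 < u) (h2 : u < 1)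
    (hB : -7 * u + 12 * g * u + 31 / 8 - 2 * g - s < 0) (h4 : s < 2 * (g * (1 - u))) :
    8 * u * (u + 2 * g * (1 - u)) * ((1 - u) * (7 * u - 12 * g * u - 31 / 8 + 2 * g + s)) ≤
      (2 * u - s) ^ 3 := by
  have h3 : 0 < 1 - u := by linarith
  have hgu : 0 < g * u := by positivity
  have h5 : 1 / 2 ≤ u := by
    by_contra h
    linarith [mul_nonneg (sub_nonneg.2 h1) (sub_nonneg.2 (not_le.1 h).le)]
  have h7 : (2 * (u - g * (1 - u))) ^ 3 ≤ (2 * u - s) ^ 3 :=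
    pow_le_pow_left₀ (by linarith) (by linarith) 3
  have h8 : (1 - u) * (7 * u - 12 * g * u - 31 / 8 + 2 * g + s) ≤ u - 5 * (g * (1 - u)) := by
    have k1 := mul_le_mul_of_nonneg_left h4.le h3.le
    have k2 : 0 ≤ (1 / 2 - g) * (7 * (u - 79 / 112) ^ 2 + 703 / 1792) := by
      have : 0 ≤ 1 / 2 - g := by linarith
      positivity
    have k3 : 0 ≤ g * (13 / 8 * u - 5 / 8) := mul_nonneg h0.le (by linarith)
    linarith
  have k1 := mul_le_mul_of_nonneg_left h8 (show 0 ≤ 8 * u * (u + 2 * g * (1 - u)) by positivity)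
  have k2 : 0 ≤ (g * (1 - u)) ^ 2 * (13 * u - g * (1 - u)) :=
    mul_nonneg (sq_nonneg _) (by linarith)
  linarith

theorem c4_pos (h0 : 0 < g) (h1 : g ≤ 1 / 2) (hu : 0 < u) (hr : s ≤ 2 * u) (hD : 0 ≤ D)
    (hs : 0 ≤ s + 2 * (g * (1 - u))) (hD' : D ≤ (s + 2 * (g * (1 - u))) ^ 2) (hZ : 0 ≤ Z)
    (hZ' : D * (2 * u - s) ^ 2 ≤ Z * (8 * (u * (u + 2 * g * (1 - u))) - 2 * (2 * u - s) ^ 2)) :
    (u + 2 * g * (1 - u)) * ((s ^ 2 + D) / 8) ≤ c4T g u s D Z := by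
  have hh := c4_h h1 hu
  have hp : 0 < u + 2 * g * (1 - u) := by linarith
  have hr' : 0 ≤ 2 * u - s := by linarith
  have hgu : g * u ≤ 1 / 2 * u := mul_le_mul_of_nonneg_right h1 hu.le
  have hA : 0 ≤ 13 * u - 12 * g * u + 2 * g + 31 / 8 + s := by linarith
  have e : c4T g u s D Z - (u + 2 * g * (1 - u)) * ((s ^ 2 + D) / 8) =
      (u + 2 * g * (1 - u)) * ((13 * u - 12 * g * u + 2 * g + 31 / 8 + s) * s ^ 2 +
        (-7 * u + 12 * g * u + 31 / 8 - 2 * g - s) * D) + 2 * g * (2 * u - s) * D +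
          4 * g * (2 * u - s) * Z := by
    rw [c4T]
    ring
  rw [← sub_nonneg, e]
  rcases le_or_gt 0 (-7 * u + 12 * g * u + 31 / 8 - 2 * g - s) with hB | hB
  · positivity
  rcases le_or_gt 1 u with h2 | h2
  · have h3 : g * (1 - u) ≤ 0 := mul_nonpos_of_nonneg_of_nonpos h0.le (by linarith)
    have h4 : D ≤ s ^ 2 := hD'.trans (pow_le_pow_left₀ hs (by linarith) 2)
    have h5 : 0 ≤ (13 * u - 12 * g * u + 2 * g + 31 / 8 + s) * s ^ 2 +
        (-7 * u + 12 * g * u + 31 / 8 - 2 * g - s) * D := by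
      linarith [mul_le_mul_of_nonpos_left h4 hB.le, mul_nonneg hu.le (sq_nonneg s), sq_nonneg s]
    positivity
  rcases le_or_gt (2 * (g * (1 - u))) s with h4 | h4
  · have := c4_pos1 h0 h1 hu h2 hD' hB h4
    positivity
  have h3 : 0 < 1 - u := by linarith
  have h6 : D * (2 * u - s) ^ 2 ≤ Z * (32 * u * (g * (1 - u))) :=
    hZ'.trans (mul_le_mul_of_nonneg_left
      (by linarith [mul_le_mul_of_nonneg_left h4.le hu.le, sq_nonneg s]) hZ)
  have h10 : 0 ≤ (u + 2 * g * (1 - u)) * ((-7 * u + 12 * g * u + 31 / 8 - 2 * g - s) * D) +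
      4 * g * (2 * u - s) * Z := by
    refine nonneg_of_mul_nonneg_right (a := 8 * u * (1 - u)) ?_ (by positivity)
    linarith [mul_le_mul_of_nonneg_left h6 hr',
      mul_le_mul_of_nonneg_left (c4_pos2 h0 h1 hu h2 hB h4) hD]
  have h11 : 0 ≤ (u + 2 * g * (1 - u)) * ((13 * u - 12 * g * u + 2 * g + 31 / 8 + s) * s ^ 2) +
      2 * g * (2 * u - s) * D := by positivity
  linarith

variable {p q : ℝ}

theorem c4_le (h1 : g ≤ 1) (h0 : 0 < g) (hu : 0 < u)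
    (hp : p ^ 2 ≤ u * (u + 2 * g * (1 - u))) : p ≤ u + g * (1 - u) :=
  (abs_le_of_sq_le_sq' (by linarith [sq_nonneg (g * (1 - u))])
    (by linarith [mul_nonneg (sub_nonneg.2 h1) hu.le])).2

theorem c4_two (h0 : 0 < g) (h1 : g ≤ 1 / 2) (hu : 0 < u) (hq : 0 ≤ q) (hqp : q ≤ p)
    (hp : p ^ 2 ≤ u * (u + 2 * g * (1 - u))) (hZ : 0 ≤ Z) :
    0 ≤ c4T g u (2 * u - (p + q)) ((p - q) ^ 2) Z + 4 * (u + 2 * g * (1 - u)) *
      (3 * (1 - 2 * g) * u * (u * (p + q) - 2 * (p * q)) - 2 * g * (p * q)) +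
        8 * g * (p * q) * (1 + 5 / 2 * u - p) := by
  have hh := c4_h h1 hu
  have hh' : 0 < u + 2 * g * (1 - u) := by linarith
  have hp0 : 0 ≤ p := hq.trans hqp
  have hd : 0 ≤ 1 - 2 * g := by linarith
  have h2 := c4_le (by linarith) h0 hu hp
  have hgu : 0 < g * u := by positivity
  obtain ⟨s, hs⟩ : ∃ s, s = 2 * u - (p + q) := ⟨_, rfl⟩
  have e : c4T g u (2 * u - (p + q)) ((p - q) ^ 2) Z + 4 * (u + 2 * g * (1 - u)) *
      (3 * (1 - 2 * g) * u * (u * (p + q) - 2 * (p * q)) - 2 * g * (p * q)) +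
        8 * g * (p * q) * (1 + 5 / 2 * u - p) = (u + 2 * g * (1 - u)) *
      ((7 * u + 2 * g + 4 + s) * s ^ 2 + (4 - 2 * g - u - s) * (p - q) ^ 2 +
        12 * (1 - 2 * g) * u ^ 2 * s) +
      4 * g * (p * q) * (2 * ((1 - 2 * g) * (1 - u)) + 5 * u - 2 * p) +
      (2 * g * (p + q) * (p - q) ^ 2 + 4 * g * (p + q) * Z) := by
    rw [c4T, hs]
    ring
  rw [e]
  refine add_nonneg ?_ (by positivity)
  have hA : 0 ≤ 7 * u + 2 * g + 4 + s := by linarith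
  rcases le_total 1 u with h3 | h3
  · have h4 : g * (1 - u) ≤ 0 := mul_nonpos_of_nonneg_of_nonpos h0.le (by linarith)
    have h5 : (p - q) ^ 2 ≤ s ^ 2 := pow_le_pow_left₀ (by linarith) (by linarith) 2
    have h6 : 0 ≤ s := by linarith
    have h7 : 0 ≤ (7 * u + 2 * g + 4 + s) * s ^ 2 + (4 - 2 * g - u - s) * (p - q) ^ 2 := by
      linarith [mul_le_mul_of_nonneg_left h5 hA, mul_nonneg hu.le (sq_nonneg (p - q)),
        sq_nonneg (p - q)]
    have h8 : 0 ≤ 2 * ((1 - 2 * g) * (1 - u)) + 5 * u - 2 * p := by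
      linarith [mul_nonneg h0.le (sub_nonneg.2 h3)]
    positivity
  have h4 : 0 ≤ 1 - u := by linarith
  have hpq : p * q ≤ u * (u + 2 * g * (1 - u)) := by
    linarith [mul_le_mul_of_nonneg_left hqp hp0]
  have k0 : u * (4 * g * (p * q) * (2 * u - (5 * u - 2 * p))) ≤
      u * ((u + 2 * g * (1 - u)) * (4 * g * (p - u) ^ 2)) := by
    linarith [mul_le_mul_of_nonneg_left hpq (show 0 ≤ 4 * g * (p - u) ^ 2 by positivity),
      (show 0 ≤ 4 * g * (p * q) * (p - 2 * u) ^ 2 by positivity)]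
  have k1 := le_of_mul_le_mul_left k0 hu
  have k2 : (u + 2 * g * (1 - u)) * (4 * g * (p - u) ^ 2) ≤
      (u + 2 * g * (1 - u)) * (2 * g * (s ^ 2 + (p - q) ^ 2)) := by
    refine mul_le_mul_of_nonneg_left ?_ hh'.le
    rw [hs]
    linarith [mul_nonneg h0.le (sq_nonneg (q - u))]
  rcases le_total 0 s with h5 | h5
  · rcases le_total (2 * p) (5 * u) with h6 | h6
    · have h7 : 0 ≤ 4 - 2 * g - u - s := by linarith
      have h8 : 0 ≤ 2 * ((1 - 2 * g) * (1 - u)) + 5 * u - 2 * p := by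
        linarith [mul_nonneg hd h4]
      positivity
    · have h7 : u ≤ 1 / 2 := by
        nlinarith [mul_nonneg hu.le (mul_nonneg hd h4), mul_self_le_mul_self (by positivity) h6]
      have h8 : 0 ≤ 4 - 4 * g - u - s := by linarith
      have k3 : 0 ≤ (u + 2 * g * (1 - u)) * ((7 * u + 4 + s) * s ^ 2 +
          (4 - 4 * g - u - s) * (p - q) ^ 2 + 12 * (1 - 2 * g) * u ^ 2 * s) +
          8 * g * (p * q) * ((1 - 2 * g) * (1 - u) + u) := by positivity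
      linarith
  · obtain ⟨t, rfl⟩ : ∃ t, s = -t := ⟨-s, by ring⟩
    have ht : 0 ≤ t := by linarith
    have ht' : t ≤ 2 * (g * (1 - u)) := by linarith
    have h6 : 0 ≤ (1 - 2 * g) * (1 - u) + u - 3 * (1 - 2 * g) * u * (1 - u) := by
      linarith [mul_nonneg hd (sq_nonneg (u - 1 / 2)), hgu]
    have h7 : 0 ≤ 7 * u + 4 - t := by linarith
    have h8 : 0 ≤ 3 - 4 * g - u + t := by linarith
    have k3 : 0 ≤ (u + 2 * g * (1 - u)) * ((7 * u + 4 - t) * t ^ 2 +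
        (3 - 4 * g - u + t) * (p - q) ^ 2) + 8 * g * u * (u + t) *
          ((1 - 2 * g) * (1 - u) + u - 3 * (1 - 2 * g) * u * (1 - u)) +
        2 * g * ((1 - 2 * g) * (1 - u) + u) * t ^ 2 := by positivity
    have k4 := mul_le_mul_of_nonneg_left ht' (show 0 ≤ 12 * (1 - 2 * g) * u ^ 3 by positivity)
    have k5 : 0 ≤ ((1 - 2 * g) * u + 4 * g ^ 2 * (1 - u)) * (p - q) ^ 2 := by positivity
    have e2 : p * q = ((2 * u + t) ^ 2 - (p - q) ^ 2) / 4 := by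
      rw [show t = p + q - 2 * u by linarith]
      ring
    rw [e2] at k1 ⊢
    linarith

end Vale.Agent.P219
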