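import Vale.Agent.P219.G.CertLinB

/-! The certificate for `m = 5`: numerators over `√u ^ 5 (1 + √u) ^ 8`. -/

namespace Vale.Agent.P219

open Pl

/-- The numerators. -/
def c5J : PJet where
  x := ⟨[[32000], [256000], [958000, 34400], [2243730, 327140], [3830412, 1250008], [5349361,
    2605554], [6376644, 3332936], [6147336, 2770864], [4362584, 1545136], [2071973, 584922],
    [581440, 144000], [72680, 18000]]⟩
  a := ⟨[[80000], [640000], [2333000, 51600], [5179730, 464740], [7954126, 1795964], [9282728,
    3829072], [8926394, 4926676], [7244524, 3967736], [4653608, 2027152], [2108906, 665844],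
    [581440, 144000], [72680, 18000]]⟩
  K := ⟨[[0, 36000, -68800], [0, 420810, -706220], [500, 1592792, -2417312], [136810, 2540031,
    -3171706], [637966, 836600, 944824], [1232818, -3125106, 8446548], [1256734, -5262936,
    11740632], [711304, -3810685, 8100246], [211208, -1382864, 2901056], [25476, -205458,
    431532]]⟩
  K1 := ⟨[[0, -90000, 172000], [0, -985620, 1687640], [-750, -3928428, 6175648], [-138810,
    -7371959, 10291274], [-864223, -5746496, 5094844], [-2006624, 1981796, -9346552], [-2296281,
    7887160, -18569324], [-1390984, 6722431, -14422642], [-426116, 2635328, -5526512], [-50952,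
    410916, -863064]]⟩
  Ψ := ⟨[[36000, -68800], [420810, -706220], [1670192, -2417312], [3315051, -3171706], [3713916,
    944824], [2400202, 8446548], [847308, 11740632], [141459, 8100246], [13664, 2901056], [3558,
    431532]]⟩
  Ψ1 := ⟨[[-90000, 172000], [-985620, 1687640], [-4044528, 6175648], [-8456579, 10291274],
    [-9975634, 5094844], [-6736988, -9346552], [-2440166, -18569324], [-383953, -14422642],
    [-19928, -5526512], [-7116, -863064]]⟩
  L := ⟨[[0, 36000, -68800], [0, 553620, -862040], [126000, 1439296, -1670976], [1539240,
    -2651012, 6651672], [5976624, -17949244, 32515080], [11433727, -30679180, 49464108],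
    [12307862, -13648420, 11777568], [7664224, 26085136, -62909280], [2643682, 46629232,
    -97395624], [464801, 33256348, -67494604], [62056, 11755712, -23759648], [14232, 1697664,
    -3452256]]⟩
  L1 := ⟨[[0, -90000, 172000], [0, -1251240, 1999280], [-189000, -4229424, 5679424], [-2043240,
    -1035692, -3140728], [-8641272, 23265374, -46375172], [-18253536, 57506224, -99942688],
    [-21327441, 58386286, -92024960], [-14085852, 15468320, -12105808], [-4941297, -23779880,
    54740212], [-738306, -26280504, 53759640], [-36156, -10842912, 21830448], [-14232, -1697664,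
    3452256]]⟩
  N := ⟨[[], [], [124800, -89600], [1488000, -1472000], [5868800, -6617600], [11392000,
    -14144000], [12272000, -16704000], [7452800, -11225600], [2368000, -4032000], [300800,
    -601600]]⟩
  N1 := ⟨[[], [], [-187200, 134400], [-1987200, 1830400], [-8387200, 8838400], [-18022400,
    20940800], [-21409600, 27283200], [-14089600, 19955200], [-4716800, 7673600], [-601600,
    1203200]]⟩

theorem c5_a0 : (c5J.all 5 12).all (ok0 20) = true := by decide +kernel

theorem c5_a1 : (c5J.all 5 12).all (ok1 20) = true := by decide +kernel

theorem c5_s : (c5J.small 5 8 15 12).all (ok0 20) = true := by decide +kernel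

theorem c5_b : (c5J.big 5 12).all (ok1 20) = true := by decide +kernel

theorem c5_z : (c5J.zero 5 8 [581440, 144000]).all isz = true := by decide +kernel

theorem ncert5 {γ : ℝ} (h0 : 0 < γ) (h1 : γ ≤ 1 / 2) : Nonempty (NCert 5 γ) :=
  ncert_pl (by norm_num) c5_a0 c5_a1 c5_s c5_b c5_z (by decide +kernel) h0 h1

end Vale.Agent.P219
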