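import Vale.Agent.P219.G.Cert6Q

/-! The charts cover all normalised points. -/

namespace Vale.Agent.P219.C6

open Bn Set

/-- Rescaling. -/
def sc (κ ζ : ℝ) (Q : Pt ℝ) : Pt ℝ :=
  ⟨κ * ζ ^ 2 * Q.W, κ * Q.K, Q.G, ζ ^ 2 * Q.H, ζ * Q.L, ζ * Q.z, Q.n, Q.w⟩

theorem Good.sc {Q : Pt ℝ} (h : Good Q) {κ ζ : ℝ} (hκ : 0 ≤ κ) (hζ : 0 ≤ ζ) : Good (sc κ ζ Q) := by
  have e0 : ∀ a b, lin a b (C6.sc κ ζ Q) = lin a b Q := fun _ _ => rfl
  have e1 : ro (C6.sc κ ζ Q) = ro Q := rfl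
  have e2 : ab (C6.sc κ ζ Q) = ab Q := rfl
  have e3 : Nb (C6.sc κ ζ Q) = Nb Q := rfl
  have e4 : C0 (C6.sc κ ζ Q) = κ * ζ ^ 4 * C0 Q := by
    simp only [C0, e0, HW, G2, Gz, z2]; simp only [C6.sc]; ring
  have e5 : C1 (C6.sc κ ζ Q) = κ * ζ ^ 4 * C1 Q := by
    simp only [C1, e0, HW, G2, Gz, z2]; simp only [C6.sc]; ring
  have e6 : K0 (C6.sc κ ζ Q) = κ * ζ ^ 2 * K0 Q := by
    simp only [K0, e0, G2, z2]; simp only [C6.sc]; ring
  have e7 : K1 (C6.sc κ ζ Q) = κ * ζ ^ 2 * K1 Q := by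
    simp only [K1, e0, G2, z2]; simp only [C6.sc]; ring
  have e8 : D (C6.sc κ ζ Q) = ζ ^ 2 * D Q := by
    simp only [D, e0, z2]; simp only [C6.sc]; ring
  have f1 : SM (C6.sc κ ζ Q) = κ * ζ ^ 6 * SM Q := by
    simp only [SM, S, M, X0, e0, e1, e2, e4, e5, e6, e7, e8, zL, LL, G2, Gz, z2]
    simp only [C6.sc]; ring
  have f2 : Ka (C6.sc κ ζ Q) = κ * ζ ^ 6 * Ka Q := by
    simp only [Ka, e1, e6, zL]; simp only [C6.sc]; ring
  have f3 : Rb (C6.sc κ ζ Q) = κ * ζ ^ 6 * Rb Q := by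
    simp only [Rb, e0, HW, G2, Gz, z2]; simp only [C6.sc]; ring
  have f4 : X0 (C6.sc κ ζ Q) = κ * ζ ^ 4 * X0 Q := by
    simp only [X0, e4, e6]; simp only [C6.sc]; ring
  have f5 : A (C6.sc κ ζ Q) = κ * ζ ^ 4 * A Q := by
    simp only [A, e0, e1, e5, e6, e7, zL, HW, G2, Gz, z2]; simp only [C6.sc]; ring
  have f6 : c (C6.sc κ ζ Q) = κ * ζ ^ 6 * c Q := by simp only [c, f2, f3]; ring
  have f7 : B (C6.sc κ ζ Q) = κ * ζ ^ 6 * B Q := by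
    simp only [B, e5, f5, f6, LL]; simp only [C6.sc]; ring
  have f8 : Tp (C6.sc κ ζ Q) = κ * ζ ^ 6 * Tp Q := by
    simp only [Tp, E, f5, f7]; simp only [C6.sc]; ring
  have p4 : 0 ≤ κ * ζ ^ 4 := by positivity
  have p6 : 0 ≤ κ * ζ ^ 6 := by positivity
  obtain ⟨h1, h2, h3, h4, h5, h6, h7, h8⟩ := h
  simp only [Good, Tm, Ua, Ub, Uc, Ud, f1, f2, f3, f4, f5, f6, f7, f8, e3] at *
  exact ⟨h1.imp (mul_nonneg p6) (mul_nonneg p6), h2.imp (mul_nonneg p6)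
    fun h => by linarith [mul_nonneg p6 h], by linarith [mul_nonneg p6 h3],
    by linarith [mul_nonneg p6 h4], by linarith [mul_nonneg p6 h5], by linarith [mul_nonneg p6 h6],
    mul_nonneg p4 h7, mul_nonneg p4 h8⟩

theorem ratio {a b : ℝ} (h0 : 0 ≤ a) (h : a ≤ b) : ∃ t ∈ Icc (0 : ℝ) 1, a = b * t := by
  rcases (h0.trans h).eq_or_lt with rfl | hb
  · exact ⟨0, ⟨le_rfl, zero_le_one⟩, by linarith⟩
  · exact ⟨a / b, ⟨by positivity, (div_le_one hb).2 h⟩, by field_simp⟩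

variable {x y f n w : ℝ}

theorem blow {F : ℝ → ℝ → Prop} (h1 : ∀ x ∈ Icc (0 : ℝ) 1, ∀ t ∈ Icc (0 : ℝ) 1, F x (i 2 * (x * t)))
    (h2 : ∀ x ∈ Icc (0 : ℝ) 1, ∀ t ∈ Icc (0 : ℝ) 1, F (x * t) (i 2 * t)) (hf : f ∈ Icc (0 : ℝ) 1)
    (hn : n ∈ Icc (0 : ℝ) 2) : F f n := by
  have e : (i 2 : ℝ) = 2 := by norm_num [i]
  rw [e] at h1 h2
  obtain ⟨m, rfl⟩ : ∃ m, n = 2 * m := ⟨n / 2, by ring⟩
  have hm : m ∈ Icc (0 : ℝ) 1 := ⟨by linarith [hn.1], by linarith [hn.2]⟩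
  rcases le_total m f with h | h
  · obtain ⟨t, ht, rfl⟩ := ratio hm.1 h
    exact h1 f hf t ht
  · obtain ⟨t, ht, rfl⟩ := ratio hf.1 h
    rw [mul_comm]
    exact h2 t ht m hm

theorem goodC (hx : x ∈ Icc (0 : ℝ) 1) (hf : f ∈ Icc (0 : ℝ) 1) (hn : n ∈ Icc (0 : ℝ) 2)
    (hw : w ∈ Icc (0 : ℝ) 1) : Good (chC x f n w) := by
  have e : (i 2 : ℝ) = 2 := by norm_num [i]
  have e' : (i 1 : ℝ) = 1 := by norm_num [i]
  rcases le_total f (n - 1) with h | h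
  · obtain ⟨t, ht, rfl⟩ := ratio hf.1 h
    have := good5.good hx ht (t := n - 1) ⟨hf.1.trans h, by linarith [hn.2]⟩ hw
    rwa [ch, e', add_sub_cancel, mul_comm] at this
  rcases le_total f (1 - n) with h' | h'
  · obtain ⟨t, ht, rfl⟩ := ratio hf.1 h'
    have := good6.good hx ht (t := 1 - n) ⟨hf.1.trans h', by linarith [hn.1]⟩ hw
    rwa [show ch 6 x t (1 - n) w = chC x (t * (1 - n)) (i 1 - (1 - n)) w from rfl, e',
      sub_sub_cancel, mul_comm] at this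
  obtain ⟨t, ht, k⟩ := ratio (a := n - 1 + f) (b := 2 * f) (by linarith) (by linarith)
  have := good4.good hx hf ht hw
  rwa [ch, e, e', show 1 + f * (2 * t - 1) = n by linarith] at this

/-- The normalised point. -/
def nq (G H L n w : ℝ) : Pt ℝ := ⟨H, G, G, H, L, 1, n, w⟩

theorem good_nq {G H L : ℝ} (h0 : 0 < G) (h1 : G ≤ 1) (hH : 0 < H) (hL : 0 < L)
    (e : H = L ^ 2 - 1 + G) (hn : n ∈ Icc (0 : ℝ) 2) (hw : w ∈ Icc (0 : ℝ) 1) :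
    Good (nq G H L n w) := by
  rcases le_total 1 (L - 1) with h | h
  · have p : 0 < L - 1 := by linarith
    have := (goodC ⟨h0.le, h1⟩ ⟨(inv_pos.2 p).le, inv_le_one_of_one_le₀ h⟩ hn hw).sc zero_le_one p.le
    refine (congrArg Good ?_).mp this
    simp only [sc, chC, nq, i, e, Pt.mk.injEq, Int.cast_ofNat, Int.cast_one, and_true, true_and]
    refine ⟨?_, ?_, ?_, ?_, ?_⟩ <;> field_simp <;> ring
  rcases le_total G (L - 1) with h' | h'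
  · obtain ⟨y, hy, k⟩ := ratio h0.le h'
    have := (blow (F := fun f n => Good (chB y f n w)) (fun x hx t ht => good2.good hx hy ht hw)
      (fun x hx t ht => good3.good hx hy ht hw) ⟨h0.le.trans h', h⟩ hn).sc (h0.le.trans h')
        zero_le_one
    refine (congrArg Good ?_).mp this
    simp only [sc, chB, nq, i, e, Pt.mk.injEq, Int.cast_ofNat, Int.cast_one, and_true, ← k,
      true_and]
    refine ⟨?_, ?_, ?_, ?_⟩ <;> linarith
  obtain ⟨f, f0, f1, rfl⟩ : ∃ f, 0 ≤ f ∧ f ≤ 1 ∧ G = f * (2 - f) :=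
    ⟨1 - √(1 - G), sub_nonneg.2 (Real.sqrt_le_one.2 (by linarith)), sub_le_self _ (Real.sqrt_nonneg _),
      by linarith [Real.mul_self_sqrt (sub_nonneg.2 h1)]⟩
  obtain ⟨y, hy, k⟩ := ratio (a := L - (1 - f)) (b := 3 * f)
    (sub_nonneg.2 (abs_le_of_sq_le_sq' (by linarith) hL.le).2) (by linarith [sq_nonneg f])
  have := (blow (F := fun f n => Good (chA y f n w)) (fun x hx t ht => good0.good hx hy ht hw)
    (fun x hx t ht => good1.good hx hy ht hw) ⟨f0, f1⟩ hn).sc f0 zero_le_one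
  refine (congrArg Good ?_).mp this
  obtain rfl : L = 1 - f + 3 * f * y := by linarith
  simp only [sc, chA, nq, i, e, Pt.mk.injEq, Int.cast_ofNat, Int.cast_one, and_true, true_and]
  refine ⟨?_, ?_, ?_, ?_⟩ <;> ring

end Vale.Agent.P219.C6
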