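import Vale.Agent.P219.G.Cert6P

/-! Kernel checks for the certificate with `m = 6`. -/

namespace Vale.Agent.P219.C6

open Bn

theorem k0a : ck [7, 6, 2, 1] [1, 0, 0, 0] [8, 6, 3, 2] [1, 0, 0, 0]
    (.n 3 (.n 1 .b .b) (.n 2 (.n 1 (.n 1 .a (.n 3 .a (.n 3 .a (.n 2 (.n 3 .b (.n 0 .a (.n 3 .b (.n
    0 .a (.n 2 (.n 1 .a (.n 0 .a (.n 2 (.n 0 .a .b) .a))) (.n 1 (.n 2 .a (.n 0 .a (.n 1 .b .a)))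
    (.n 0 (.n 2 .a .b) .b))))))) .a)))) .a) (.n 1 (.n 2 (.n 3 .b (.n 3 .b (.n 3 (.n 0 .b .b) (.n 0
    (.n 2 (.n 0 (.n 1 (.n 1 (.n 3 .a (.n 1 .a (.n 2 .a (.n 0 .a .b)))) .a) (.n 2 (.n 1 .a (.n 0 .a
    .b)) .b)) .a) .a) (.n 1 (.n 1 (.n 2 (.n 3 .b (.n 3 .b (.n 2 (.n 0 (.n 2 (.n 1 .a .b) .a) (.n 1
    (.n 0 .a .b) .b)) (.n 0 (.n 0 .b (.n 2 (.n 0 .b .a) .b)) .b)))) (.n 0 .a (.n 0 .a (.n 1 .a (.n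
    1 .a .b))))) (.n 0 .a .a)) (.n 2 .b (.n 3 .b (.n 3 .b (.n 0 (.n 0 (.n 1 (.n 2 (.n 0 .a .b) .a)
    .b) (.n 1 .a (.n 2 .b .a))) (.n 0 (.n 2 .b (.n 2 .b (.n 1 (.n 0 .b .a) .b))) .b)))))))))) (.n 3
    .b (.n 2 (.n 3 .b (.n 3 .b (.n 1 (.n 3 (.n 2 .b .b) (.n 2 (.n 0 (.n 3 .b (.n 2 (.n 1 .b (.n 1
    .b (.n 1 (.n 0 .b .a) .a))) .b)) .b) (.n 3 (.n 1 .b .b) (.n 1 (.n 0 (.n 0 .b (.n 2 .b .a)) .b)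
    (.n 1 (.n 0 (.n 2 (.n 0 .b .a) .a) .b) .a))))) .b))) .b))) (.n 2 .a (.n 1 (.n 2 .a (.n 1 .a (.n
    3 .b (.n 3 .b (.n 3 .b (.n 2 (.n 1 (.n 0 (.n 3 .a (.n 0 .a (.n 1 (.n 2 (.n 1 .a .b) .a) .a)))
    .a) (.n 0 (.n 2 .b (.n 1 .a .b)) .b)) (.n 2 (.n 3 .b (.n 3 .b (.n 2 .b (.n 3 .b (.n 1 (.n 1 .b
    .a) .b))))) .b))))))) .a))))) (B (pt 0)) (Tp (pt 0)) = true := by
  decide +kernel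

end Vale.Agent.P219.C6
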