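import Vale.Agent.P219.G.Cert6P

/-! Kernel checks for the certificate with `m = 6`. -/

namespace Vale.Agent.P219.C6

open Bn

theorem k0b : ck [6, 5, 1, 1] [1, 0, 0, 0] [8, 6, 3, 2] [1, 0, 0, 0]
    (.n 2 .b (.n 3 (.n 1 .b .b) (.n 2 (.n 1 .b (.n 1 .b .b)) (.n 1 .a (.n 1 (.n 0 .a (.n 0 .a (.n 2
    .b (.n 2 .b (.n 1 (.n 1 (.n 1 (.n 1 (.n 1 (.n 0 .a (.n 1 (.n 1 (.n 1 (.n 1 (.n 1 (.n 1 (.n 1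
    (.n 2 .b (.n 1 (.n 2 .b (.n 1 (.n 2 .b (.n 1 (.n 2 .b (.n 1 (.n 2 .b (.n 1 (.n 3 .b (.n 0 .a
    (.n 0 .a (.n 2 .b (.n 1 (.n 2 .b (.n 3 .b (.n 3 .b .a))) (.n 3 .b (.n 3 .b .a))))))) (.n 3 .b
    (.n 3 .b (.n 3 .b .a))))) (.n 3 .b (.n 3 .b (.n 3 .b .a))))) .b)) .b)) .b)) .b) .b) .b) .b) .b)
    .b) .b)) .b) .b) .b) .b) (.n 0 .a .b)))))) (.n 2 .b .b)))))) (c (pt 0)) (Tm (pt 0)) = true := by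
  decide +kernel

theorem k0c : ck [8, 6, 3, 2] [1, 0, 0, 0] [8, 6, 3, 2] [1, 0, 0, 0]
    (.n 2 (.n 0 .a .a) (.n 1 (.n 3 .a (.n 2 (.n 2 (.n 0 (.n 2 (.n 1 .a (.n 0 .a .a)) (.n 1 .a .a))
    .a) (.n 0 .a .a)) (.n 3 .a (.n 0 (.n 2 (.n 2 (.n 1 .a .a) (.n 1 .a .a)) .a) (.n 0 (.n 2 .a .a)
    .a))))) (.n 2 .a (.n 3 .a (.n 1 (.n 3 .a (.n 2 .a (.n 1 .a (.n 1 .a .a)))) .a))))) (Ua (pt 0))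
    (Ua (pt 0)) = true ∧
    ck [8, 6, 3, 2] [1, 0, 0, 0] [8, 6, 3, 2] [1, 0, 0, 0]
    (.n 2 .a (.n 3 (.n 1 .a .a) (.n 1 (.n 2 .a (.n 3 .a (.n 3 .a (.n 0 .a (.n 0 .a .a))))) (.n 1
    (.n 3 .a (.n 1 .a .a)) .a)))) (Ub (pt 0)) (Ub (pt 0)) = true ∧
    ck [8, 6, 3, 2] [1, 0, 0, 0] [8, 6, 3, 2] [1, 0, 0, 0]
    (.n 2 .a (.n 3 (.n 1 .a .a) (.n 1 (.n 3 .a (.n 2 (.n 2 (.n 0 .a .a) .a) (.n 3 .a (.n 0 (.n 2 .a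
    .a) (.n 0 .a .a))))) (.n 1 (.n 3 .a (.n 2 .a (.n 1 .a (.n 2 .a .a)))) .a)))) (Uc (pt 0)) (Uc
    (pt 0)) = true ∧
    ck [8, 6, 3, 2] [1, 0, 0, 0] [8, 6, 3, 2] [1, 0, 0, 0]
    (.n 2 .a (.n 1 (.n 3 .a (.n 2 .a (.n 3 .a (.n 3 .a (.n 0 .a (.n 0 .a .a)))))) (.n 3 .a (.n 1
    (.n 3 .a (.n 1 .a .a)) .a)))) (Ud (pt 0)) (Ud (pt 0)) = true ∧
    ck [5, 4, 1, 1] [0, 0, 0, 0] [5, 4, 1, 1] [0, 0, 0, 0]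
    .a (A (pt 0)) (A (pt 0)) = true ∧
    ck [4, 4, 0, 0] [1, 0, 0, 0] [4, 4, 0, 0] [1, 0, 0, 0]
    .a (X0 (pt 0)) (X0 (pt 0)) = true := by
  decide +kernel

end Vale.Agent.P219.C6
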