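import Vale.Agent.P219.G.Bern

/-! The polynomials behind the certificate for `m = 6`.  At a normalised point `W = 1 / u`, `K = 1`,
`G = 2 γ`, `H = G W`, `L = σ / u`, `z = 1`, `n = x y`, `w = (x - y) ^ 2 / 2` with `x ^ 2 = 1 - a`,
`y ^ 2 = 1 - a'`; the variables `K` and `z` homogenise. -/

namespace Vale.Agent.P219.C6

open Bn

/-- A point. -/
structure Pt (α : Type) where
  W : α
  K : α
  G : α
  H : α
  L : α
  z : α
  n : α
  w : α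

section
variable {α : Type} [Add α] [Mul α] [Sub α] [IntCast α]

def i (c : ℤ) : α := c
def lin (a b : ℤ) (P : Pt α) : α := i a + i b * P.G
def z2 (P : Pt α) : α := P.z * P.z
def G2 (P : Pt α) : α := P.K * z2 P
def Gz (P : Pt α) : α := P.G * z2 P
def HW (P : Pt α) : α := P.H * P.W
def C0 (P : Pt α) : α := i 300 * HW P + G2 P * (lin 1000 (-220) P * P.H + lin 830 580 P * Gz P)
def C1 (P : Pt α) : α := i 900 * HW P + G2 P * (lin 2000 (-440) P * P.H + lin 830 580 P * Gz P)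
def K0 (P : Pt α) : α := lin 432 90 P * P.W + lin 1128 (-300) P * G2 P
def K1 (P : Pt α) : α := lin 1296 270 P * P.W + lin 2256 (-600) P * G2 P
def D (P : Pt α) : α := P.H + lin 2 (-2) P * z2 P
def zL (P : Pt α) : α := P.z * P.L
def LL (P : Pt α) : α := P.L * P.L
def ro (P : Pt α) : α := i 2 - i 2 * (P.n + P.w)
def ab (P : Pt α) : α := ro P - i 1 + P.n * P.n
def Nb (P : Pt α) : α := P.n * (i 2 - (P.n + P.w))
def S (P : Pt α) : α :=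
  i 12 * ((C0 P + z2 P * K0 P) * D P) + i 4 * (Gz P * Gz P * (lin 6330 30 P * G2 P)) -
    zL P * (i 12 * (C0 P + z2 P * K0 P) + i 6 * (K0 P * D P)) * ro P +
    i 24 * (z2 P * K0 P * LL P) * ab P +
    i 2 * ((z2 P * (K0 P - K1 P) - C1 P) * LL P) * (i 2 - ro P * ro P + i 2 * ab P) +
    zL P * (i 2 * (K1 P * LL P) - K0 P * D P) * (ro P * (i 1 - ab P))
def Ka (P : Pt α) : α := zL P * (P.H * K0 P) * ro P
def Rb (P : Pt α) : α :=
  z2 P * (lin 864 180 P * HW P + G2 P * (lin 5056 (-2800) P * P.H - lin 8720 (-11480) P * Gz P) -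
    P.G * (lin (-400) 880 P * HW P +
      G2 P * (lin 9360 (-8160) P * P.H + lin (-8720) 11480 P * Gz P)))
def X0 (P : Pt α) : α := C0 P + P.z * K0 P * (P.z - P.L)
def M (P : Pt α) : α := i 2 * ab P * (P.H * X0 P + P.H * (zL P * K0 P) * P.n)
def A (P : Pt α) : α :=
  z2 P * (i 14 * K0 P - i 2 * K1 P) + lin 432 90 P * HW P + i 2 * C1 P +
    G2 P * (lin 2528 (-1400) P * P.H + lin (-280) 1900 P * Gz P) - zL P * (K1 P - K0 P) * ro P
def c (P : Pt α) : α := Ka P + Rb P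
def B (P : Pt α) : α :=
  i 8 * (LL P * C1 P) * (P.w + i 2 * P.n) + c P * (i 2 + P.n) - i 4 * ((P.L - P.z) * P.L) * A P
def E (P : Pt α) : α := P.L * P.n - (P.L - P.z)
def Tp (P : Pt α) : α := i 2 * (E P * E P) * A P + P.w * B P
def Tm (P : Pt α) : α := Tp P + i 2 * (c P * Nb P)
def SM (P : Pt α) : α := S P + M P
def Ua (P : Pt α) : α := SM P - Ka P * Nb P
def Ub (P : Pt α) : α := SM P + Ka P * Nb P
def Uc (P : Pt α) : α := SM P - Rb P * Nb P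
def Ud (P : Pt α) : α := SM P + Rb P * Nb P

def chA (y f n w : α) : Pt α :=
  ⟨i 3 * y * (i 2 - f * (i 2 - i 3 * y)), i 2 - f, f * (i 2 - f),
    f * (i 3 * y * (i 2 - f * (i 2 - i 3 * y))), i 1 - f * (i 1 - i 3 * y), i 1, n, w⟩
def chB (y e n w : α) : Pt α := ⟨e + i 2 + y, y, e * y, e * (e + i 2 + y), i 1 + e, i 1, n, w⟩
def chC (x z n w : α) : Pt α :=
  ⟨i 1 + z * (i 2 + x * z), x, x, i 1 + z * (i 2 + x * z), i 1 + z, z, n, w⟩

/-- The seven charts. -/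
def ch (j : ℕ) (x y t w : α) : Pt α :=
  match j with
  | 0 => chA y x (i 2 * (x * t)) w
  | 1 => chA y (x * t) (i 2 * t) w
  | 2 => chB y x (i 2 * (x * t)) w
  | 3 => chB y (x * t) (i 2 * t) w
  | 4 => chC x y (i 1 + y * (i 2 * t - i 1)) w
  | 5 => chC x (y * t) (i 1 + t) w
  | _ => chC x (y * t) (i 1 - t) w

end

/-- The generic point of a chart. -/
noncomputable def pt (j : ℕ) : Pt (L 4) := ch j (xL 4 0) (xL 4 1) (xL 4 2) (xL 4 3)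

/-- The inequalities. -/
def Good (P : Pt ℝ) : Prop :=
  (0 ≤ B P ∨ 0 ≤ Tp P) ∧ (0 ≤ c P ∨ 0 ≤ Tm P) ∧ 0 ≤ Ua P ∧ 0 ≤ Ub P ∧ 0 ≤ Uc P ∧ 0 ≤ Ud P ∧
    0 ≤ A P ∧ 0 ≤ X0 P

/-- The same for arrays. -/
def GoodL (P : Pt (L 4)) : Prop := ∀ x : ℕ → ℝ, (∀ i, 0 ≤ x i ∧ x i ≤ 1) →
  (0 ≤ evL 4 x (B P) ∨ 0 ≤ evL 4 x (Tp P)) ∧ (0 ≤ evL 4 x (c P) ∨ 0 ≤ evL 4 x (Tm P)) ∧
    0 ≤ evL 4 x (Ua P) ∧ 0 ≤ evL 4 x (Ub P) ∧ 0 ≤ evL 4 x (Uc P) ∧ 0 ≤ evL 4 x (Ud P) ∧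
      0 ≤ evL 4 x (A P) ∧ 0 ≤ evL 4 x (X0 P)

theorem ev_i (x) (c : ℤ) : evL 4 x (i c) = i c := evL_c c 4 x

theorem GoodL.good {j : ℕ} (h : GoodL (pt j)) {x y t w : ℝ} (hx : x ∈ Set.Icc (0 : ℝ) 1)
    (hy : y ∈ Set.Icc (0 : ℝ) 1) (ht : t ∈ Set.Icc (0 : ℝ) 1) (hw : w ∈ Set.Icc (0 : ℝ) 1) :
    Good (ch j x y t w) := by
  let v : ℕ → ℝ := fun k => match k with | 0 => x | 1 => y | 2 => t | _ => w
  have k := h v fun k => match k with | 0 => hx | 1 => hy | 2 => ht | _ + 3 => hw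
  have e : ∀ P : Pt (L 4), P = pt j → (⟨evL 4 v P.W, evL 4 v P.K, evL 4 v P.G, evL 4 v P.H,
      evL 4 v P.L, evL 4 v P.z, evL 4 v P.n, evL 4 v P.w⟩ : Pt ℝ) = ch j x y t w := by
    rintro _ rfl
    unfold pt ch
    split <;> simp only [chA, chB, chC, evL_add, evL_mul, evL_sub, ev_i, evL_x 4 0 (by omega),
      evL_x 4 1 (by omega), evL_x 4 2 (by omega), evL_x 4 3 (by omega), v]
  rw [← e _ rfl]
  simpa only [Good, B, Tp, Tm, Ua, Ub, Uc, Ud, A, X0, c, SM, S, M, E, Ka, Rb, Nb, ab, ro, LL, zL, D,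
    K0, K1, C0, C1, HW, Gz, G2, z2, lin, evL_add, evL_mul, evL_sub, ev_i] using k

end Vale.Agent.P219.C6
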