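import Mathlib

/-! A subdivision test for polynomial inequalities in four variables.  The coefficients with
respect to the products `X ^ j * Y ^ (n - j)` are the digits of one natural number. -/

namespace Vale.Agent.P219.Kp

open Finset

/-- The digits. -/
def dg (B Z k : ℕ) : ℕ := Z / 2 ^ (B * k) % 2 ^ B

/-- The number `c` repeated `Q` times with period `p`. -/
def rp (B p Q c : ℕ) : ℕ := c * (((2 ^ (B * p)) ^ Q - 1) / (2 ^ (B * p) - 1))

variable {B Z U V k p c : ℕ}

theorem dg_lt : dg B Z k < 2 ^ B := Nat.mod_lt _ (by positivity)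

theorem dg_zero : dg B 0 k = 0 := by simp [dg]

theorem dg_and : dg B (U &&& V) k = dg B U k &&& dg B V k := by
  rw [dg, Nat.and_div_two_pow, Nat.and_mod_two_pow, dg, dg]

theorem dg_shr : dg B (Z >>> (B * p)) k = dg B Z (p + k) := by
  rw [dg, dg, Nat.shiftRight_eq_div_pow, Nat.div_div_eq_div_mul, ← pow_add, mul_add]

theorem dg_cat (h : c < 2 ^ (B * p)) :
    dg B (c + 2 ^ (B * p) * Z) k = if k < p then dg B c k else dg B Z (k - p) := by
  split_ifs with hk
  · obtain ⟨q, rfl⟩ := Nat.exists_eq_add_of_lt hk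
    rw [dg, dg, show 2 ^ (B * (k + q + 1)) * Z = 2 ^ (B * k) * (2 ^ B * (2 ^ (B * q) * Z)) by ring,
      Nat.add_mul_div_left _ _ (by positivity), Nat.add_mul_mod_self_left]
  · obtain ⟨q, rfl⟩ := Nat.exists_eq_add_of_le (not_lt.1 hk)
    rw [← dg_shr, Nat.shiftRight_eq_div_pow, Nat.add_mul_div_left _ _ (by positivity),
      Nat.div_eq_of_lt h, zero_add, Nat.add_sub_cancel_left]

theorem dg_shl : dg B (Z <<< (B * p)) k = if k < p then 0 else dg B Z (k - p) := by
  rw [Nat.shiftLeft_eq, mul_comm, ← zero_add (_ * Z), dg_cat (by positivity), dg_zero]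

theorem dg_add : ∀ {k U V : ℕ}, (∀ j ≤ k, dg B U j + dg B V j < 2 ^ B) →
    dg B (U + V) k = dg B U k + dg B V k
  | 0, U, V, h => by simpa [dg] using Nat.add_mod_of_add_mod_lt (by simpa [dg] using h 0 le_rfl)
  | k + 1, U, V, h => by
    have e : ∀ W j, dg B W (j + 1) = dg B (W / 2 ^ B) j := fun W j => by
      rw [add_comm, ← dg_shr, Nat.shiftRight_eq_div_pow, mul_one]
    rw [e, e, e, Nat.add_div_eq_of_add_mod_lt (by simpa [dg] using h 0 k.succ.zero_le)]
    exact dg_add fun j hj => by simpa only [e] using h (j + 1) (by omega)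

theorem rp_succ (hB : 0 < B * p) (Q : ℕ) : rp B p (Q + 1) c = c + 2 ^ (B * p) * rp B p Q c := by
  have h : 2 ≤ 2 ^ (B * p) := Nat.le_self_pow hB.ne' 2
  rw [rp, rp, ← Nat.geomSum_eq h, ← Nat.geomSum_eq h, geom_sum_succ]
  ring

theorem dg_rp (hB : 0 < B * p) (h : c < 2 ^ (B * p)) :
    ∀ Q k, dg B (rp B p Q c) k = if k < p * Q then dg B c (k % p) else 0
  | 0, k => by simp [rp, dg_zero]
  | Q + 1, k => by
    rw [rp_succ hB, dg_cat h, dg_rp hB h Q, mul_add_one]
    split_ifs with h1 h2 h2 h3 h3 <;> try omega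
    · rw [Nat.mod_eq_of_lt h1]
    · rw [← Nat.mod_eq_sub_mod (not_lt.1 h1)]

theorem dg_one (hB : 0 < B) (h : c < 2 ^ B) (Q k : ℕ) :
    dg B (rp B 1 Q c) k = if k < Q then c else 0 := by
  rw [dg_rp (by simpa) (by simpa), one_mul, Nat.mod_one, dg, mul_zero, pow_zero, Nat.div_one,
    Nat.mod_eq_of_lt h]

theorem rp_lt (Q : ℕ) : rp B 1 Q (2 ^ B - 1) < 2 ^ (B * Q) := by
  rw [rp, mul_one, ← pow_mul]
  exact (Nat.mul_div_le _ _).trans_lt (Nat.sub_lt (by positivity) one_pos)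

/-- The strides. -/
noncomputable def sg (d : ℕ → ℕ) (i : ℕ) : ℕ := Nat.rec 1 (fun j a => a * (d j + 1)) i

/-- The exponent of variable `i` at position `k`. -/
noncomputable def J (d : ℕ → ℕ) (i k : ℕ) : ℕ := k / sg d i % (d i + 1)

variable {d : ℕ → ℕ} {i : ℕ}

theorem sg_succ : sg d (i + 1) = sg d i * (d i + 1) := rfl

theorem sg_pos : ∀ i, 0 < sg d i
  | 0 => one_pos
  | i + 1 => mul_pos (sg_pos i) (d i).succ_pos

theorem sg_dvd {i j : ℕ} (h : i ≤ j) : sg d i ∣ sg d j := by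
  induction h with
  | refl => rfl
  | step _ ih => exact ih.mul_right _

theorem J_le : J d i k ≤ d i := Nat.le_of_lt_succ (Nat.mod_lt _ (d i).succ_pos)

theorem J_low {j : ℕ} (h : j < i) (q : ℕ) : J d j (k + sg d i * q) = J d j k := by
  obtain ⟨r, hr⟩ := sg_dvd (d := d) (Nat.succ_le_of_lt h)
  rw [J, J, hr, sg_succ, mul_assoc, mul_assoc, Nat.add_mul_div_left _ _ (sg_pos j),
    Nat.add_mul_mod_self_left]

theorem J_step (h : J d i k < d i ∨ J d i (sg d i + k) ≠ 0) :
    J d i (sg d i + k) = J d i k + 1 ∧ ∀ j ≠ i, J d j (sg d i + k) = J d j k := by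
  have e : (sg d i + k) / sg d i = k / sg d i + 1 := Nat.add_div_left _ (sg_pos i)
  have h1 : k / sg d i % (d i + 1) + 1 % (d i + 1) < d i + 1 := by
    have := J_le (d := d) (i := i) (k := k)
    rw [J, J, e] at h
    rw [J] at this
    by_contra h2
    have h3 : k / sg d i % (d i + 1) = d i := by
      have := Nat.mod_le 1 (d i + 1)
      omega
    refine h.elim (by omega) fun h => h ?_
    rw [← Nat.mod_add_mod, h3, Nat.mod_self]
  have h4 : 1 < d i + 1 := by
    by_contra h2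
    rw [J, J, show d i = 0 by omega] at h
    omega
  refine ⟨by rw [J, e, Nat.add_mod_of_add_mod_lt h1, Nat.mod_eq_of_lt h4, J], fun j hj => ?_⟩
  rcases hj.lt_or_gt with hj | hj
  · rw [add_comm, ← J_low (k := k) hj 1, mul_one]
  · obtain ⟨r, hr⟩ := sg_dvd (d := d) (Nat.succ_le_of_lt hj)
    rw [J, J, hr, sg_succ, mul_assoc, ← Nat.div_div_eq_div_mul, ← Nat.div_div_eq_div_mul,
      ← Nat.div_div_eq_div_mul, ← Nat.div_div_eq_div_mul, e, Nat.add_div_eq_of_add_mod_lt h1,
      Nat.div_eq_of_lt h4, add_zero]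

theorem J_idx {e : ℕ → ℕ} : ∀ r, (∀ i < r, e i ≤ d i) → ∑ i ∈ range r, sg d i * e i < sg d r ∧
    ∀ j < r, J d j (∑ i ∈ range r, sg d i * e i) = e j
  | 0, _ => ⟨one_pos, by simp⟩
  | r + 1, h => by
    obtain ⟨h1, h2⟩ := J_idx r fun i hi => h i (by omega)
    have h3 := h r r.lt_succ_self
    rw [sum_range_succ, sg_succ]
    refine ⟨by nlinarith, fun j hj => ?_⟩
    rcases (Nat.le_of_lt_succ hj).eq_or_lt with rfl | hj
    · rw [J, Nat.add_mul_div_left _ _ (sg_pos _), Nat.div_eq_of_lt h1, zero_add,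
        Nat.mod_eq_of_lt (by omega)]
    · rw [J_low hj, h2 j hj]

/-- The positions where the exponent of variable `i` lies in `[lo, lo + n)`. -/
noncomputable def mask (B : ℕ) (d : ℕ → ℕ) (i lo n : ℕ) : ℕ :=
  rp B (sg d (i + 1)) (sg d 4 / sg d (i + 1))
    (rp B 1 (sg d i * n) (2 ^ B - 1) <<< (B * (sg d i * lo)))

theorem dg_mask (hB : 0 < B) (hi : i < 4) {lo n : ℕ} (h : lo + n ≤ d i + 1) :
    dg B (Z &&& mask B d i lo n) k =
      if k < sg d 4 ∧ lo ≤ J d i k ∧ J d i k < lo + n then dg B Z k else 0 := by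
  have h1 : rp B 1 (sg d i * n) (2 ^ B - 1) <<< (B * (sg d i * lo)) < 2 ^ (B * sg d (i + 1)) := by
    rw [Nat.shiftLeft_eq]
    refine (mul_lt_mul_of_pos_right (rp_lt _) (by positivity)).trans_le ?_
    rw [← pow_add, sg_succ, ← mul_add, ← mul_add, add_comm n]
    gcongr
    norm_num
  rw [dg_and, mask, dg_rp (mul_pos hB (sg_pos _)) h1, Nat.mul_div_cancel' (sg_dvd hi), dg_shl,
    dg_one hB (Nat.sub_lt (by positivity) one_pos), J, ← Nat.mod_mul_right_div_self, ← sg_succ]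
  simp only [Nat.le_div_iff_mul_le (sg_pos _), Nat.div_lt_iff_lt_mul (sg_pos _), add_mul,
    mul_comm lo, mul_comm n]
  split_ifs <;> first | omega | simp [Nat.mod_eq_of_lt dg_lt]

/-- The two leading bits of all digits vanish. -/
noncomputable def gd (b : ℕ) (d : ℕ → ℕ) (Z : ℕ) : Bool :=
  Nat.beq (Z &&& rp (b + 2) 1 (sg d 4) (2 ^ b * 3)) 0

variable {b : ℕ}

theorem gd_lt (h : gd b d Z = true) (hk : k < sg d 4) : dg (b + 2) Z k < 2 ^ b := by
  have h1 := congrArg (fun z => dg (b + 2) z k / 2 ^ b) (Nat.eq_of_beq_eq_true h)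
  have h2 : dg (b + 2) Z k / 2 ^ b < 2 ^ 2 := Nat.div_lt_of_lt_mul (by rw [← pow_add]; exact dg_lt)
  simp only [dg_and, dg_zero, Nat.zero_div] at h1
  have h3 : 0 < 2 ^ b := by positivity
  rw [dg_one (by omega) (by rw [pow_add]; omega), if_pos hk, Nat.and_div_two_pow,
    Nat.mul_div_cancel_left _ (by positivity), show 3 = 2 ^ 2 - 1 from rfl,
    Nat.and_two_pow_sub_one_eq_mod, Nat.mod_eq_of_lt h2] at h1
  exact (Nat.div_eq_zero_iff_lt (by positivity)).1 h1

/-- The weight of a position. -/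
noncomputable def W (d : ℕ → ℕ) (β : ℕ → ℕ → ℝ) (k : ℕ) : ℝ := ∏ i ∈ range 4, β i (J d i k)

/-- The value of a number. -/
noncomputable def val (b : ℕ) (d : ℕ → ℕ) (β : ℕ → ℕ → ℝ) (Z : ℕ) : ℝ :=
  ∑ k ∈ range (sg d 4), dg (b + 2) Z k * W d β k

variable {β : ℕ → ℕ → ℝ}

theorem W_nn (h : ∀ i j, 0 ≤ β i j) (k : ℕ) : 0 ≤ W d β k := prod_nonneg fun _ _ => h _ _

theorem val_nn (h : ∀ i j, 0 ≤ β i j) : 0 ≤ val b d β Z :=
  sum_nonneg fun k _ => mul_nonneg (Nat.cast_nonneg _) (W_nn h k)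

theorem val_zero : val b d β 0 = 0 := by simp [val, dg_zero]

theorem W_upd (hi : i < 4) (γ : ℕ → ℝ) (k : ℕ) : W d (Function.update β i γ) k =
    γ (J d i k) * ∏ j ∈ (range 4).erase i, β j (J d j k) := by
  rw [W, ← mul_prod_erase _ _ (mem_range.2 hi), Function.update_self]
  exact congrArg _ (prod_congr rfl fun j hj => by rw [Function.update_of_ne (mem_erase.1 hj).1])

theorem W_step (hi : i < 4) (γ : ℕ → ℝ) (h : J d i k < d i ∨ J d i (sg d i + k) ≠ 0) :
    W d (Function.update β i γ) (sg d i + k) =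
      γ (J d i k + 1) * ∏ j ∈ (range 4).erase i, β j (J d j k) := by
  rw [W_upd hi, (J_step h).1]
  exact congrArg _ (prod_congr rfl fun j hj => by rw [(J_step h).2 j (mem_erase.1 hj).1])

theorem upd_nn (h : ∀ i j, 0 ≤ β i j) {γ : ℕ → ℝ} (hγ : ∀ j, 0 ≤ γ j) (l j : ℕ) :
    0 ≤ Function.update β i γ l j := by
  rcases eq_or_ne l i with rfl | hl
  · simp [hγ]
  · simp [hl, h]

/-- Digitwise comparison. -/
noncomputable def ge (b : ℕ) (d : ℕ → ℕ) (U V : ℕ) : Bool :=
  Nat.ble V U && gd b d (U - V) && gd b d V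

theorem ge_val (h : ge b d U V = true) : val b d β U = val b d β (U - V) + val b d β V := by
  simp only [ge, Bool.and_eq_true, Nat.ble_eq] at h
  rw [val, val, val, ← sum_add_distrib]
  refine sum_congr rfl fun k hk => ?_
  rw [← add_mul, ← Nat.cast_add, ← dg_add, Nat.sub_add_cancel h.1.1]
  intro j hj
  have h1 := hj.trans_lt (mem_range.1 hk)
  have := gd_lt h.1.2 h1
  have := gd_lt h.2 h1
  have := pow_add 2 b 2
  omega

theorem val_add3 (h : gd b d Z = true) (hU : ∀ k < sg d 4, dg (b + 2) U k < 2 ^ b)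
    (hV : ∀ k < sg d 4, dg (b + 2) V k < 2 ^ b) : val b d β (Z + U + V) =
    ∑ k ∈ range (sg d 4), (dg (b + 2) Z k + dg (b + 2) U k : ℝ) * W d β k + val b d β V := by
  have := pow_add 2 b 2
  have e : ∀ k < sg d 4, dg (b + 2) (Z + U) k = dg (b + 2) Z k + dg (b + 2) U k := fun k hk =>
    dg_add fun j hj => by
      have := gd_lt h (hj.trans_lt hk)
      have := hU j (hj.trans_lt hk)
      omega
  rw [val, val, ← sum_add_distrib]
  refine sum_congr rfl fun k hk => ?_
  rw [dg_add, e k (mem_range.1 hk)]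
  · push_cast
    ring
  intro j hj
  have h1 := hj.trans_lt (mem_range.1 hk)
  have := gd_lt h h1
  have := hU j h1
  have := hV j h1
  have := e j h1
  omega

/-- One substitution `X = 2 X' + Y`. -/
noncomputable def up (b : ℕ) (d : ℕ → ℕ) (i t Z : ℕ) : ℕ :=
  bif gd b d Z then Z + (Z &&& mask (b + 2) d i (t + 1) (d i - t)) +
    (Z &&& mask (b + 2) d i (t + 1) (d i - t)) >>> ((b + 2) * sg d i) else 0

/-- One substitution `Y = X + 2 Y'`. -/
noncomputable def dn (b : ℕ) (d : ℕ → ℕ) (i t Z : ℕ) : ℕ :=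
  bif gd b d Z then Z + (Z &&& mask (b + 2) d i 0 (d i - t)) +
    (Z &&& mask (b + 2) d i 0 (d i - t)) <<< ((b + 2) * sg d i) else 0

theorem swap (f : ℕ → ℝ) (m n : ℕ) : ∑ k ∈ range m, f k + ∑ k ∈ range n, f (m + k) =
    ∑ k ∈ range n, f k + ∑ k ∈ range m, f (n + k) := by
  rw [← sum_range_add, ← sum_range_add, add_comm]

theorem up_le (hi : i < 4) (hβ : ∀ i j, 0 ≤ β i j) {γ γ' : ℕ → ℝ} {t : ℕ} (ht : t < d i)
    (h0 : ∀ j, 0 ≤ γ j) (h0' : ∀ j, 0 ≤ γ' j) (h1 : ∀ j ≤ t, γ' j = γ j)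
    (h2 : ∀ j, t ≤ j → j < d i → 2 * γ' (j + 1) + γ' j = γ (j + 1)) :
    val b d (Function.update β i γ') (up b d i t Z) ≤ val b d (Function.update β i γ) Z := by
  rw [up]
  cases h : gd b d Z
  · exact val_zero.trans_le (val_nn (upd_nn hβ h0))
  have hA := fun k => dg_mask (Z := Z) (k := k) (d := d) (lo := t + 1) (n := d i - t)
    (show 0 < b + 2 by omega) hi (by omega)
  generalize Z &&& mask (b + 2) d i (t + 1) (d i - t) = A at hA
  have hb : ∀ k, dg (b + 2) A k < 2 ^ b := fun k => by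
    rw [hA]
    split_ifs with hk
    exacts [gd_lt h hk.1, by positivity]
  have hw := W_nn (d := d) (upd_nn (i := i) hβ h0')
  rw [cond_true, val_add3 h (fun k _ => hb k) fun k _ => by rw [dg_shr]; exact hb _]
  have e := swap (fun k => dg (b + 2) A k * W d (Function.update β i γ') (k - sg d i))
    (sg d i) (sg d 4)
  rw [sum_eq_zero (s := range (sg d i)) (f := fun k => (dg (b + 2) A (sg d 4 + k) : ℝ) * _)
    fun k _ => by rw [hA, if_neg (by omega), Nat.cast_zero, zero_mul]] at e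
  simp only [Nat.add_sub_cancel_left] at e
  have e1 := sum_nonneg (s := range (sg d i)) fun k _ =>
    mul_nonneg (Nat.cast_nonneg (dg (b + 2) A k)) (hw (k - sg d i))
  simp only [val, dg_shr]
  refine (add_le_add le_rfl ((le_add_of_nonneg_left e1).trans_eq (e.trans (add_zero _)))).trans ?_
  rw [← sum_add_distrib]
  refine (sum_congr rfl fun k hk => ?_).le
  rw [hA]
  split_ifs with hc
  · obtain ⟨k, rfl⟩ : ∃ q, k = sg d i + q := Nat.exists_eq_add_of_le (by
      by_contra h3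
      rw [J, Nat.div_eq_of_lt (not_le.1 h3), Nat.zero_mod] at hc
      omega)
    have h3 : J d i k < d i ∨ J d i (sg d i + k) ≠ 0 := .inr (by omega)
    have := (J_step h3).1
    rw [Nat.add_sub_cancel_left, W_step hi _ h3, W_step hi _ h3, W_upd hi,
      ← h2 _ (by omega) (by omega)]
    ring
  · have := mem_range.1 hk
    have := J_le (d := d) (i := i) (k := k)
    rw [W_upd hi, W_upd hi γ, h1 _ (by omega)]
    simp

theorem dn_le (hi : i < 4) (hβ : ∀ i j, 0 ≤ β i j) {γ γ' : ℕ → ℝ} {t : ℕ} (ht : t < d i)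
    (h0 : ∀ j, 0 ≤ γ j) (h0' : ∀ j, 0 ≤ γ' j) (h1 : ∀ j, d i - t ≤ j → γ' j = γ j)
    (h2 : ∀ j < d i - t, 2 * γ' j + γ' (j + 1) = γ j) :
    val b d (Function.update β i γ') (dn b d i t Z) ≤ val b d (Function.update β i γ) Z := by
  rw [dn]
  cases h : gd b d Z
  · exact val_zero.trans_le (val_nn (upd_nn hβ h0))
  have hA := fun k => dg_mask (Z := Z) (k := k) (d := d) (lo := 0) (n := d i - t)
    (show 0 < b + 2 by omega) hi (by omega)
  generalize Z &&& mask (b + 2) d i 0 (d i - t) = A at hA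
  have hb : ∀ k, dg (b + 2) A k < 2 ^ b := fun k => by
    rw [hA]
    split_ifs with hk
    exacts [gd_lt h hk.1, by positivity]
  have hw := W_nn (d := d) (upd_nn (i := i) hβ h0')
  rw [cond_true, val_add3 h (fun k _ => hb k) fun k _ => by
    rw [dg_shl]
    split_ifs
    exacts [by positivity, hb _]]
  have e := swap (fun k => dg (b + 2) (A <<< ((b + 2) * sg d i)) k *
    W d (Function.update β i γ') k) (sg d 4) (sg d i)
  rw [sum_eq_zero (s := range (sg d i)) (f := fun k => (dg (b + 2) (A <<< ((b + 2) * sg d i)) k : ℝ) * _)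
    fun k hk => by rw [dg_shl, if_pos (mem_range.1 hk), Nat.cast_zero, zero_mul]] at e
  have e1 := sum_nonneg (s := range (sg d i)) fun k _ => mul_nonneg
    (Nat.cast_nonneg (dg (b + 2) (A <<< ((b + 2) * sg d i)) (sg d 4 + k))) (hw (sg d 4 + k))
  refine (add_le_add le_rfl ((le_add_of_nonneg_right e1).trans_eq (e.trans (zero_add _)))).trans ?_
  rw [← sum_add_distrib]
  refine (sum_congr rfl fun k hk => ?_).le
  rw [dg_shl, if_neg (by omega), Nat.add_sub_cancel_left, hA]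
  have := mem_range.1 hk
  split_ifs with hc
  · rw [W_step hi _ (.inl (by omega)), W_upd hi, W_upd hi, ← h2 _ (by omega)]
    ring
  · rw [W_upd hi, W_upd hi γ, h1 _ (by omega)]
    simp

/-- Division of all digits by `2 ^ n`. -/
noncomputable def rnd (b : ℕ) (d : ℕ → ℕ) (n Z : ℕ) : ℕ :=
  Z >>> n &&& rp (b + 2) 1 (sg d 4) (2 ^ (b + 2 - n) - 1)

theorem rnd_le (hβ : ∀ i j, 0 ≤ β i j) (n : ℕ) :
    2 ^ n * val b d β (rnd b d n Z) ≤ val b d β Z := by
  rw [val, val, mul_sum]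
  refine sum_le_sum fun k hk => ?_
  rw [← mul_assoc]
  refine mul_le_mul_of_nonneg_right ?_ (W_nn hβ k)
  norm_cast
  rw [rnd, dg_and, dg_one (by omega) ((Nat.sub_lt (by positivity) one_pos).trans_le
    (Nat.pow_le_pow_right two_pos (Nat.sub_le _ _))), if_pos (mem_range.1 hk),
    Nat.and_two_pow_sub_one_eq_mod]
  rcases le_total n (b + 2) with h | h
  · rw [dg, Nat.mod_mod_of_dvd _ (pow_dvd_pow 2 (Nat.sub_le _ _)), Nat.shiftRight_eq_div_pow,
      Nat.div_div_eq_div_mul, mul_comm (2 ^ n) (2 ^ (_ * k)), ← Nat.div_div_eq_div_mul,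
      ← Nat.mod_mul_right_div_self, ← pow_add, Nat.add_sub_cancel' h]
    exact Nat.mul_div_le _ _
  · simp [Nat.sub_eq_zero_of_le h, Nat.mod_one]

/-- The part `Y ≤ X` of variable `i`. -/
noncomputable def hi (b : ℕ) (d : ℕ → ℕ) (i Z : ℕ) : ℕ :=
  rnd b d (d i) (Nat.rec (motive := fun _ => ℕ → ℕ) (fun Z => Z)
    (fun t ih Z => ih (up b d i t Z)) (d i) Z)

/-- The part `X ≤ Y` of variable `i`. -/
noncomputable def lo (b : ℕ) (d : ℕ → ℕ) (i Z : ℕ) : ℕ :=
  rnd b d (d i) (Nat.rec (motive := fun _ => ℕ → ℕ) (fun Z => Z)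
    (fun t ih Z => ih (dn b d i t Z)) (d i) Z)

/-- The standard weights. -/
noncomputable def st (d : ℕ → ℕ) (X Y : ℕ → ℝ) (i j : ℕ) : ℝ := X i ^ j * Y i ^ (d i - j)

variable {X Y : ℕ → ℝ}

theorem st_nn (hX : ∀ i, 0 ≤ X i) (hY : ∀ i, 0 ≤ Y i) (i j : ℕ) : 0 ≤ st d X Y i j :=
  mul_nonneg (pow_nonneg (hX i) _) (pow_nonneg (hY i) _)

theorem val_congr (hi : i < 4) {γ : ℕ → ℝ} (h : ∀ j ≤ d i, γ j = β i j) :
    val b d (Function.update β i γ) Z = val b d β Z := by
  refine sum_congr rfl fun k _ => ?_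
  rw [W_upd hi, h _ J_le, ← W_upd hi, Function.update_eq_self]

theorem upd_nn' (hX : ∀ i, 0 ≤ X i) {x : ℝ} (hx : 0 ≤ x) (j : ℕ) : 0 ≤ Function.update X i x j := by
  rcases eq_or_ne j i with rfl | hl
  · simpa
  · simp [hl, hX]

theorem hi_le (h4 : i < 4) (hX : ∀ i, 0 ≤ X i) (hY : ∀ i, 0 ≤ Y i) {x : ℝ} (hx : 0 ≤ x)
    (e : X i = 2 * x + Y i) :
    2 ^ d i * val b d (st d (Function.update X i x) Y) (hi b d i Z) ≤ val b d (st d X Y) Z := by
  refine (rnd_le (st_nn (upd_nn' hX hx) hY) _).trans ?_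
  have h0 : ∀ t j, 0 ≤ X i ^ min j t * x ^ (j - t) * Y i ^ (d i - j) := fun t j => by
    have := hX i
    have := hY i
    positivity
  have H : ∀ t ≤ d i, ∀ Z, val b d (st d (Function.update X i x) Y)
      (Nat.rec (motive := fun _ => ℕ → ℕ) (fun Z => Z) (fun t ih Z => ih (up b d i t Z)) t Z) ≤
      val b d (Function.update (st d X Y) i fun j =>
        X i ^ min j t * x ^ (j - t) * Y i ^ (d i - j)) Z := fun t ht => by
    induction t with
    | zero =>
      refine fun Z => (congrArg (val b d · Z) (funext fun l => ?_)).le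
      rcases eq_or_ne l i with rfl | hl
      · ext j
        simp [st]
      · ext j
        simp [st, hl]
    | succ t ih =>
      refine fun Z => (ih (by omega) _).trans (up_le h4 (st_nn hX hY) ht (h0 _) (h0 _)
        (fun j hj => ?_) fun j h1 h2 => ?_)
      · rw [min_eq_left hj, min_eq_left (by omega), Nat.sub_eq_zero_of_le hj,
          Nat.sub_eq_zero_of_le (show j ≤ t + 1 by omega)]
      · obtain ⟨j, rfl⟩ := Nat.exists_eq_add_of_le h1
        obtain ⟨q, hq⟩ := Nat.exists_eq_add_of_lt h2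
        rw [min_eq_right h1, min_eq_right (by omega), min_eq_right (by omega),
          show t + j + 1 - t = j + 1 by omega, show t + j - t = j by omega,
          show t + j + 1 - (t + 1) = j by omega, show d i - (t + j + 1) = q by omega,
          show d i - (t + j) = q + 1 by omega, pow_succ (X i), e]
        ring
  exact (H _ le_rfl Z).trans_eq (val_congr h4 fun j hj => by
    rw [min_eq_left hj, Nat.sub_eq_zero_of_le hj, pow_zero, mul_one, st])

theorem lo_le (h4 : i < 4) (hX : ∀ i, 0 ≤ X i) (hY : ∀ i, 0 ≤ Y i) {y : ℝ} (hy : 0 ≤ y)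
    (e : Y i = X i + 2 * y) :
    2 ^ d i * val b d (st d X (Function.update Y i y)) (lo b d i Z) ≤ val b d (st d X Y) Z := by
  refine (rnd_le (st_nn hX (upd_nn' hY hy)) _).trans ?_
  have h0 : ∀ t j, 0 ≤ X i ^ j * (Y i ^ min (d i - j) t * y ^ (d i - j - t)) := fun t j => by
    have := hX i
    have := hY i
    positivity
  have H : ∀ t ≤ d i, ∀ Z, val b d (st d X (Function.update Y i y))
      (Nat.rec (motive := fun _ => ℕ → ℕ) (fun Z => Z) (fun t ih Z => ih (dn b d i t Z)) t Z) ≤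
      val b d (Function.update (st d X Y) i fun j =>
        X i ^ j * (Y i ^ min (d i - j) t * y ^ (d i - j - t))) Z := fun t ht => by
    induction t with
    | zero =>
      refine fun Z => (congrArg (val b d · Z) (funext fun l => ?_)).le
      rcases eq_or_ne l i with rfl | hl
      · ext j
        simp [st]
      · ext j
        simp [st, hl]
    | succ t ih =>
      refine fun Z => (ih (by omega) _).trans (dn_le h4 (st_nn hX hY) ht (h0 _) (h0 _)
        (fun j hj => ?_) fun j h1 => ?_)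
      · rw [min_eq_left (by omega), min_eq_left (by omega), show d i - j - t = 0 by omega,
          show d i - j - (t + 1) = 0 by omega]
      · obtain ⟨q, hq⟩ : ∃ q, d i = j + t + q + 1 := ⟨d i - j - t - 1, by omega⟩
        rw [min_eq_right (by omega), min_eq_right (by omega), min_eq_right (by omega),
          show d i - j - t = q + 1 by omega, show d i - (j + 1) - t = q by omega,
          show d i - j - (t + 1) = q by omega, pow_succ (Y i), e]
        ring
  exact (H _ le_rfl Z).trans_eq (val_congr h4 fun j hj => by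
    rw [min_eq_left (Nat.sub_le _ _), show d i - j - d i = 0 by omega, pow_zero, mul_one, st])

/-- `P - Q` encodes a form of degree `d` with value `f` and at most `n` terms. -/
inductive Rp (o : ℕ → ℕ) (X Y : ℕ → ℝ) (d : ℕ → ℕ) : ℕ → ℕ → ℕ → ℝ → Prop
  | zero (n : ℕ) : Rp o X Y d 0 0 n 0
  | pos (e : ℕ → ℕ) (h : ∀ i < 4, e i ≤ d i) :
    Rp o X Y d (2 ^ ∑ i ∈ range 4, o i * e i) 0 1 (∏ i ∈ range 4, st d X Y i (e i))
  | neg (e : ℕ → ℕ) (h : ∀ i < 4, e i ≤ d i) :
    Rp o X Y d 0 (2 ^ ∑ i ∈ range 4, o i * e i) 1 (-∏ i ∈ range 4, st d X Y i (e i))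
  | add {P Q n P' Q' n' : ℕ} {f f' : ℝ} : Rp o X Y d P Q n f → Rp o X Y d P' Q' n' f' →
    Rp o X Y d (P + P') (Q + Q') (n + n') (f + f')

variable {o d' : ℕ → ℕ} {P Q n P' Q' n' : ℕ} {f f' : ℝ}

theorem Rp.cast (h : Rp o X Y d P Q n f) (e1 : P = P') (e2 : Q = Q') (e3 : n ≤ n') (e4 : f = f')
    (e5 : ∀ i < 4, d i = d' i) : Rp o X Y d' P' Q' n' f' := by
  have H : Rp o X Y d' P Q n f := by
    have e : ∀ e : ℕ → ℕ, ∏ i ∈ range 4, st d X Y i (e i) = ∏ i ∈ range 4, st d' X Y i (e i) :=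
      fun e => prod_congr rfl fun i hi => by rw [st, st, e5 i (mem_range.1 hi)]
    clear e1 e2 e3 e4
    induction h with
    | zero n => exact .zero n
    | pos a h => exact e a ▸ .pos a fun i hi => e5 i hi ▸ h i hi
    | neg a h => exact e a ▸ .neg a fun i hi => e5 i hi ▸ h i hi
    | add _ _ h h' => exact h.add h'
  simpa [e1, e2, e4, Nat.add_sub_cancel' e3] using H.add (.zero (n' - n))

theorem Rp.swap (h : Rp o X Y d P Q n f) : Rp o X Y d Q P n (-f) := by
  induction h with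
  | zero n => simpa using .zero n
  | pos a h => exact .neg a h
  | neg a h => simpa using .pos a h
  | add _ _ h h' => exact neg_add _ (_ : ℝ) ▸ h.add h'

theorem Rp.mul_pos (h : Rp o X Y d P Q n f) {e : ℕ → ℕ} (he : ∀ i < 4, e i ≤ d' i) :
    Rp o X Y (fun i => d i + d' i) (P * 2 ^ ∑ i ∈ range 4, o i * e i)
      (Q * 2 ^ ∑ i ∈ range 4, o i * e i) n (f * ∏ i ∈ range 4, st d' X Y i (e i)) := by
  have H : ∀ a : ℕ → ℕ, (∀ i < 4, a i ≤ d i) → Rp o X Y (fun i => d i + d' i)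
      (2 ^ (∑ i ∈ range 4, o i * a i) * 2 ^ ∑ i ∈ range 4, o i * e i) 0 1
      ((∏ i ∈ range 4, st d X Y i (a i)) * ∏ i ∈ range 4, st d' X Y i (e i)) := fun a ha => by
    refine (Rp.pos (fun i => a i + e i) fun i hi => add_le_add (ha i hi) (he i hi)).cast
      (by simp only [mul_add, sum_add_distrib, pow_add]) rfl le_rfl ?_ fun _ _ => rfl
    rw [← prod_mul_distrib]
    refine prod_congr rfl fun i hi => ?_
    have := ha i (mem_range.1 hi)
    have := he i (mem_range.1 hi)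
    rw [st, st, st, show d i + d' i - (a i + e i) = d i - a i + (d' i - e i) by omega]
    ring
  induction h with
  | zero n => simpa using .zero n
  | pos a h => simpa using H a h
  | neg a h => simpa using (H a h).swap
  | add _ _ h h' => simpa only [add_mul] using h.add h'

theorem Rp.mul (h : Rp o X Y d P Q n f) (h' : Rp o X Y d' P' Q' n' f') :
    Rp o X Y (fun i => d i + d' i) (P * P' + Q * Q') (P * Q' + Q * P') (n * n') (f * f') := by
  induction h' with
  | zero n => simpa using .zero _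
  | pos a ha => simpa using h.mul_pos ha
  | neg a ha => simpa using (h.mul_pos ha).swap
  | add _ _ h h' =>
    exact (h.add h').cast (by ring) (by ring) (by rw [mul_add]) (by ring) fun _ _ => rfl

theorem Rp.one : Rp o X Y (fun _ => 0) 1 0 1 1 := by
  simpa [st] using Rp.pos (o := o) (X := X) (Y := Y) (d := fun _ => 0) (fun _ => 0) (by simp)

theorem Rp.nat : ∀ n : ℕ, Rp o X Y (fun _ => 0) n 0 n n
  | 0 => by simpa using .zero 0
  | n + 1 => by simpa using (Rp.nat n).add .one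

theorem Rp.pow (h : Rp o X Y d P 0 n f) :
    ∀ k, Rp o X Y (fun i => d i * k) (P ^ k) 0 (n ^ k) (f ^ k)
  | 0 => by simpa using .one
  | k + 1 => by simpa [pow_succ, mul_add] using (h.pow k).mul h

/-- The degree of variable `i`. -/
def e1 (i j : ℕ) : ℕ := bif Nat.beq j i then 1 else 0

theorem e1_eq (i j : ℕ) : e1 i j = if j = i then 1 else 0 := by
  rw [e1, Bool.cond_eq_ite]
  simp

theorem Rp.x (hi : i < 4) : Rp o X Y (e1 i) (2 ^ o i) 0 1 (X i) := by
  refine (Rp.pos (e1 i) fun _ _ => le_rfl).cast ?_ rfl le_rfl ?_ fun _ _ => rfl <;>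
    simp [e1_eq, st, hi, pow_ite]

theorem Rp.y (hi : i < 4) : Rp o X Y (e1 i) 1 0 1 (Y i) := by
  refine (Rp.pos (fun _ => 0) fun _ _ => zero_le).cast ?_ rfl le_rfl ?_ fun _ _ => rfl <;>
    simp [e1_eq, st, hi, pow_ite]

/-- A product of four powers. -/
def el (E a : ℕ → ℕ) : ℕ := E 0 ^ a 0 * E 1 ^ a 1 * E 2 ^ a 2 * E 3 ^ a 3

theorem Rp.el {E : ℕ → ℕ} {g : ℕ → ℝ} (h : ∀ i < 4, Rp o X Y (e1 i) (E i) 0 2 (g i)) (a : ℕ → ℕ) :
    Rp o X Y a (el E a) 0 (el (fun _ => 2) a) (∏ i ∈ range 4, g i ^ a i) := by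
  refine (((((h 0 (by omega)).pow (a 0)).mul ((h 1 (by omega)).pow (a 1))).mul
    ((h 2 (by omega)).pow (a 2))).mul ((h 3 (by omega)).pow (a 3))).cast (by simp [Kp.el])
    (by simp) le_rfl (by simp [prod_range_succ]) fun i hi => ?_
  interval_cases i <;> simp [e1_eq]

theorem Rp.val (h : Rp (fun i => (b + 2) * sg d i) X Y d P Q n f) (hn : n < 2 ^ (b + 2)) :
    (∀ k, dg (b + 2) P k ≤ n ∧ dg (b + 2) Q k ≤ n) ∧
      val b d (st d X Y) P - val b d (st d X Y) Q = f := by
  have H : ∀ a : ℕ → ℕ, (∀ i < 4, a i ≤ d i) →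
      (∀ k, dg (b + 2) (2 ^ ∑ i ∈ range 4, (b + 2) * sg d i * a i) k ≤ 1) ∧
      Kp.val b d (st d X Y) (2 ^ ∑ i ∈ range 4, (b + 2) * sg d i * a i) =
        ∏ i ∈ range 4, st d X Y i (a i) := fun a ha => by
    obtain ⟨h1, h2⟩ := J_idx 4 ha
    have e : ∀ k, dg (b + 2) (2 ^ ∑ i ∈ range 4, (b + 2) * sg d i * a i) k =
        if k = ∑ i ∈ range 4, sg d i * a i then 1 else 0 := fun k => by
      have := dg_one (show 0 < b + 2 by omega) (Nat.one_lt_two_pow (show b + 2 ≠ 0 by omega)) 1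
      rw [rp_succ (by omega), rp, pow_zero, Nat.sub_self, Nat.zero_div, mul_zero, mul_zero,
        add_zero] at this
      simp only [mul_assoc, ← mul_sum]
      rw [← Nat.one_shiftLeft, dg_shl, this]
      split_ifs <;> omega
    refine ⟨fun k => by rw [e]; split_ifs <;> omega, ?_⟩
    simp only [Kp.val, e, Nat.cast_ite, ite_mul, Nat.cast_zero, zero_mul, sum_ite_eq', mem_range,
      h1, if_true, Nat.cast_one, one_mul]
    exact prod_congr rfl fun i hi => by rw [h2 i (mem_range.1 hi)]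
  induction h with
  | zero n => simp [dg_zero]
  | pos a h => simpa [dg_zero, val_zero] using H a h
  | neg a h => simpa [dg_zero, val_zero] using H a h
  | @add P Q n P' Q' n' _ _ _ _ h h' =>
    obtain ⟨h1, rfl⟩ := h (by omega)
    obtain ⟨h2, rfl⟩ := h' (by omega)
    have e1 : ∀ k, dg (b + 2) (P + P') k = _ := fun k =>
      dg_add fun j _ => (add_le_add (h1 j).1 (h2 j).1).trans_lt hn
    have e2 : ∀ k, dg (b + 2) (Q + Q') k = _ := fun k =>
      dg_add fun j _ => (add_le_add (h1 j).2 (h2 j).2).trans_lt hn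
    simp only [Kp.val, e1, e2, Nat.cast_add, add_mul, sum_add_distrib]
    exact ⟨fun k => ⟨add_le_add (h1 k).1 (h2 k).1, add_le_add (h1 k).2 (h2 k).2⟩, by ring⟩

/-- The fixed data of a list of alternatives. -/
structure St where
  b : ℕ
  len : ℕ
  d : ℕ → ℕ → ℕ
  c : ℕ → ℕ

/-- The threshold. -/
noncomputable def thr (b : ℕ) (d : ℕ → ℕ) (c : ℕ) : ℕ :=
  2 ^ c * el (fun i => 1 + 2 ^ ((b + 2) * sg d i)) d

theorem thr_rp : Rp (fun i => (b + 2) * sg d i) X Y d (thr b d c) 0 (2 ^ c * el (fun _ => 2) d)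
    (2 ^ c * ∏ i ∈ range 4, (X i + Y i) ^ d i) :=
  ((Rp.nat (2 ^ c)).mul (Rp.el (g := fun i => X i + Y i)
    (fun _ hi => ((Rp.y hi).add (.x hi)).cast rfl rfl le_rfl (add_comm _ _) fun _ _ => rfl) d)).cast
    (by simp [thr]) (by simp) le_rfl (by simp) fun _ _ => zero_add _

/-- One of the alternatives is above its threshold. -/
def Good (s : St) (z : ℕ → ℕ) : Prop := ∀ X Y : ℕ → ℝ, (∀ i, 0 ≤ X i) → (∀ i, 0 ≤ Y i) →
  ∃ a < s.len, 2 ^ s.c a * ∏ i ∈ range 4, (X i + Y i) ^ s.d a i ≤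
    val s.b (s.d a) (st (s.d a) X Y) (z a)

noncomputable def los (s : St) (i : ℕ) (z : ℕ → ℕ) : ℕ → ℕ := fun a => lo s.b (s.d a) i (z a)
noncomputable def his (s : St) (i : ℕ) (z : ℕ → ℕ) : ℕ → ℕ := fun a => hi s.b (s.d a) i (z a)

variable {s : St} {z : ℕ → ℕ}

theorem half (h4 : i < 4) {A A' : ℕ → ℝ} (h : A i = 2 * A' i) (h' : ∀ j ≠ i, A j = A' j) :
    ∏ j ∈ range 4, A j ^ d j = 2 ^ d i * ∏ j ∈ range 4, A' j ^ d j := by
  rw [← mul_prod_erase _ _ (mem_range.2 h4), ← mul_prod_erase _ _ (mem_range.2 h4), h, mul_pow,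
    mul_assoc, prod_congr rfl fun j hj => by rw [h' j (mem_erase.1 hj).1]]

theorem Good.split (i : ℕ) (h1 : Good s (los s i z)) (h2 : Good s (his s i z))
    (h4 : i < 4) : Good s z := fun X Y hX hY => by
  rcases le_total (X i) (Y i) with h | h
  · have h0 : 0 ≤ (Y i - X i) / 2 := by linarith
    obtain ⟨a, ha, H⟩ := h1 X _ hX (upd_nn' (i := i) hY h0)
    refine ⟨a, ha, le_trans ?_ (lo_le h4 hX hY h0 (by ring))⟩
    rw [half h4 (A := fun j => X j + Y j) (A' := fun j => X j + Function.update Y i ((Y i - X i) / 2) j)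
      (by simp only [Function.update_self]; ring) fun j hj => by simp [hj], mul_left_comm]
    exact mul_le_mul_of_nonneg_left H (by positivity)
  · have h0 : 0 ≤ (X i - Y i) / 2 := by linarith
    obtain ⟨a, ha, H⟩ := h2 _ Y (upd_nn' (i := i) hX h0) hY
    refine ⟨a, ha, le_trans ?_ (hi_le h4 hX hY h0 (by ring))⟩
    rw [half h4 (A := fun j => X j + Y j) (A' := fun j => Function.update X i ((X i - Y i) / 2) j + Y j)
      (by simp only [Function.update_self]; ring) fun j hj => by simp [hj], mul_left_comm]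
    exact mul_le_mul_of_nonneg_left H (by positivity)

/-- Subdivision trees. -/
inductive Tr
  | l (a : ℕ) : Tr
  | n (i : ℕ) (x y : Tr) : Tr

/-- The test. -/
noncomputable def chk (s : St) (t : Tr) : (ℕ → ℕ) → Bool :=
  Tr.rec (fun a z => Nat.blt a s.len &&
      Nat.blt (2 ^ s.c a * el (fun _ => 2) (s.d a)) (2 ^ (s.b + 2)) &&
      ge s.b (s.d a) (z a) (thr s.b (s.d a) (s.c a)))
    (fun i _ _ x y z => Nat.blt i 4 && x (los s i z) && y (his s i z)) t

theorem good : ∀ (t : Tr) {z : ℕ → ℕ}, chk s t z = true → Good s z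
  | .l a, z, h => fun X Y hX hY => by
    simp only [chk, Bool.and_eq_true, Nat.blt_eq] at h
    have h1 := (thr_rp (X := X) (Y := Y)).val h.1.2
    rw [val_zero, sub_zero] at h1
    exact ⟨a, h.1.1, h1.2.symm.trans_le ((le_add_of_nonneg_left (val_nn (st_nn hX hY))).trans_eq
      (ge_val h.2).symm)⟩
  | .n i x y, z, h => by
    have h' : (Nat.blt i 4 && chk s x (los s i z) && chk s y (his s i z)) = true := h
    simp only [Bool.and_eq_true, Nat.blt_eq] at h'
    exact .split i (good x h'.1.2) (good y h'.2) h'.1.1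

/-- A polynomial function together with its code. -/
structure K where
  P : (ℕ → ℕ) → (ℕ → ℕ) → ℕ
  Q : (ℕ → ℕ) → (ℕ → ℕ) → ℕ
  N : ℕ
  d : ℕ → ℕ
  f : (ℕ → ℝ) → ℝ
  ok : ∀ o E X Y, (∀ i < 4, Rp o X Y (e1 i) (E i) 0 2 1) → Rp o X Y d (P o E) (Q o E) N (f X)

namespace K

def cst (k : ℤ) : K := ⟨fun _ _ => k.toNat, fun _ _ => (-k).toNat, k.toNat + (-k).toNat, fun _ => 0,
  fun _ => k, fun _ _ _ _ _ => ((Rp.nat k.toNat).add (Rp.nat (-k).toNat).swap).cast rfl (zero_add _)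
    le_rfl (by
      have := congrArg (Int.cast : ℤ → ℝ) k.toNat_sub_toNat_neg
      rwa [Int.cast_sub, Int.cast_natCast, Int.cast_natCast, sub_eq_add_neg] at this) fun _ _ => rfl⟩

def vr (i : Fin 4) : K := ⟨fun o _ => 2 ^ o i, fun _ _ => 0, 1, e1 i, fun x => x i,
  fun _ _ _ _ _ => .x i.2⟩

instance : Neg K := ⟨fun a => ⟨a.Q, a.P, a.N, a.d, fun x => -a.f x,
  fun o E X Y h => (a.ok o E X Y h).swap⟩⟩

instance : Mul K := ⟨fun a b => ⟨fun o E => a.P o E * b.P o E + a.Q o E * b.Q o E,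
  fun o E => a.P o E * b.Q o E + a.Q o E * b.P o E, a.N * b.N, fun i => a.d i + b.d i,
  fun x => a.f x * b.f x, fun o E X Y h => (a.ok o E X Y h).mul (b.ok o E X Y h)⟩⟩

theorem lift (a : K) (e : ℕ → ℕ) {o E : ℕ → ℕ} {X Y : ℕ → ℝ}
    (h : ∀ i < 4, Rp o X Y (e1 i) (E i) 0 2 1) : Rp o X Y (fun i => a.d i + e i)
      (a.P o E * el E e) (a.Q o E * el E e) (a.N * el (fun _ => 2) e) (a.f X) := by
  simpa using (a.ok o E X Y h).mul (Rp.el (g := fun _ => 1) h e)

instance : Add K := ⟨fun a b =>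
  ⟨fun o E => a.P o E * el E (fun i => b.d i - a.d i) + b.P o E * el E (fun i => a.d i - b.d i),
  fun o E => a.Q o E * el E (fun i => b.d i - a.d i) + b.Q o E * el E (fun i => a.d i - b.d i),
  a.N * el (fun _ => 2) (fun i => b.d i - a.d i) + b.N * el (fun _ => 2) (fun i => a.d i - b.d i),
  fun i => a.d i + (b.d i - a.d i), fun x => a.f x + b.f x, fun _ _ _ _ h => (a.lift _ h).add
    ((b.lift _ h).cast rfl rfl le_rfl rfl fun i _ => by omega)⟩⟩

instance : Sub K := ⟨fun a b => a + -b⟩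
instance (k : ℕ) : OfNat K k := ⟨cst k⟩

variable (a b : K) (x : ℕ → ℝ)

theorem f_add : (a + b).f x = a.f x + b.f x := rfl
theorem f_mul : (a * b).f x = a.f x * b.f x := rfl
theorem f_neg : (-a).f x = -a.f x := rfl
theorem f_sub : (a - b).f x = a.f x - b.f x := (sub_eq_add_neg _ _).symm
theorem f_c (k : ℤ) : (cst k).f x = k := rfl
theorem f_nat (k : ℕ) [k.AtLeastTwo] : (no_index (OfNat.ofNat k) : K).f x = OfNat.ofNat k :=
  Int.cast_natCast k
theorem f_one : (1 : K).f x = 1 := Int.cast_one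

/-- Substitution into a list of coefficients. -/
noncomputable def comp (l : List ℤ) : K :=
  List.rec (cst 0) (fun k t ih => List.rec (cst k) (fun _ _ _ => cst k + a * ih) t) l

theorem f_comp (l : List ℤ) : (comp a l).f x = l.foldr (fun (k : ℤ) r => k + a.f x * r) 0 := by
  induction l with
  | nil => exact Int.cast_zero
  | cons k t ih =>
    rw [List.foldr_cons, ← ih]
    cases t with
    | nil => simp [comp, f_c]
    | cons => rfl

end K

/-- The fixed data: digit length `b + 2`, thresholds `2 ^ c`. -/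
noncomputable def mk (b : ℕ) (ps : List K) (c : List ℕ) : St :=
  ⟨b, ps.length, fun a => (ps.getD a 1).d, fun a => c.getD a 0⟩

/-- The code of `p + 2 ^ c`; variable `0` ranges over `[0, 1]` or over `[0, ∞)`. -/
noncomputable def ini (h : Bool) (b c : ℕ) (p : K) : ℕ :=
  (fun P Q => bif Nat.blt (p.N + 2 ^ c * el (fun _ => 2) p.d) (2 ^ (b + 2)) &&
    ge b p.d (P + thr b p.d c) Q then P + thr b p.d c - Q else 0)
  (p.P (fun i => (b + 2) * sg p.d i) fun i => 1 + bif h || Nat.blt 0 i then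
    2 ^ ((b + 2) * sg p.d i) else 0)
  (p.Q (fun i => (b + 2) * sg p.d i) fun i => 1 + bif h || Nat.blt 0 i then
    2 ^ ((b + 2) * sg p.d i) else 0)

noncomputable def z0 (h : Bool) (b : ℕ) (ps : List K) (c : List ℕ) : ℕ → ℕ :=
  fun a => ini h b (c.getD a 0) (ps.getD a 1)

/-- A point. -/
def v4 (x y z w : ℝ) : ℕ → ℝ := fun i => [x, y, z, w].getD i 0

theorem X0 (x y z w : ℝ) : (K.vr 0).f (v4 x y z w) = x := rfl
theorem X1 (x y z w : ℝ) : (K.vr 1).f (v4 x y z w) = y := rfl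
theorem X2 (x y z w : ℝ) : (K.vr 2).f (v4 x y z w) = z := rfl
theorem X3 (x y z w : ℝ) : (K.vr 3).f (v4 x y z w) = w := rfl

theorem Good.fin {h : Bool} {ps : List K} {c : List ℕ} (H : Good (mk b ps c) (z0 h b ps c))
    {x y z w : ℝ} (x0 : 0 ≤ x) (x1 : h = true → x ≤ 1) (y0 : 0 ≤ y) (y1 : y ≤ 1) (z0 : 0 ≤ z)
    (z1 : z ≤ 1) (w0 : 0 ≤ w) (w1 : w ≤ 1) : ∃ p ∈ ps, 0 ≤ p.f (v4 x y z w) := by
  set X := v4 x y z w
  set Y : ℕ → ℝ := fun i => 1 - bif h || Nat.blt 0 i then X i else 0 with hY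
  have hX : ∀ i, 0 ≤ X i := fun i => by
    rcases i with _ | _ | _ | _ | i <;> first | assumption | exact le_rfl
  have h1 : ∀ i, 0 ≤ Y i := fun i => sub_nonneg.2 <| by
    rcases i with _ | _ | _ | _ | i <;> cases h <;>
      first | assumption | exact zero_le_one | exact x1 rfl
  obtain ⟨a, ha, H⟩ := H X Y hX h1
  change 2 ^ c.getD a 0 * ∏ i ∈ range 4, (X i + Y i) ^ (ps.getD a 1).d i ≤ val b (ps.getD a 1).d
    (st (ps.getD a 1).d X Y) (ini h b (c.getD a 0) (ps.getD a 1)) at H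
  refine ⟨ps.getD a 1, by rw [List.getD_eq_getElem _ _ ha]; exact List.getElem_mem _, ?_⟩
  generalize ps.getD a 1 = p at H
  generalize c.getD a 0 = c at H
  have h2 := (p.ok (fun i => (b + 2) * sg p.d i) (fun i => 1 + bif h || Nat.blt 0 i then
    2 ^ ((b + 2) * sg p.d i) else 0) X Y fun i hi => by
      have e : Y i = 1 - bif h || Nat.blt 0 i then X i else 0 := rfl
      cases hb : h || Nat.blt 0 i
      · exact (Rp.y hi).cast rfl rfl one_le_two (by simp [e, hb]) fun _ _ => rfl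
      · exact ((Rp.y hi).add (.x hi)).cast rfl rfl le_rfl (by simp [e, hb]) fun _ _ => rfl).add
    (thr_rp (c := c))
  simp only [ini] at H
  generalize p.P _ _ = P at H h2
  generalize p.Q _ _ = Q at H h2
  cases hb : Nat.blt (p.N + 2 ^ c * el (fun _ => 2) p.d) (2 ^ (b + 2)) &&
    ge b p.d (P + thr b p.d c) Q
  · rw [hb, cond_false, val_zero] at H
    refine absurd H (not_le.2 (mul_pos (by positivity) (prod_pos fun i _ => pow_pos ?_ _)))
    have := hX i
    cases hb : h || Nat.blt 0 i <;> simp only [hY, hb, cond_true, cond_false] <;> linarith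
  · rw [hb, cond_true] at H
    simp only [Bool.and_eq_true, Nat.blt_eq] at hb
    linarith [(h2.val hb.1).2, ge_val (β := st p.d X Y) hb.2, add_zero Q ▸ (h2.val hb.1).2]

end Vale.Agent.P219.Kp
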