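import Vale.Agent.P219.G.Cert6P
import Vale.Agent.P219.G.Kp

/-! Kernel checks for the certificate with `m = 6`. -/

namespace Vale.Agent.P219.C6

open Kp Kp.K Set

instance : IntCast K := ⟨cst⟩

/-- The generic point of a chart. -/
noncomputable def pk (j : ℕ) : Pt K := ch j (vr 0) (vr 1) (vr 2) (vr 3)

/-- The test for two alternatives. -/
noncomputable def c2 (b : ℕ) (c : List ℕ) (t : Kp.Tr) (p q : K) : Bool :=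
  Kp.chk (mk b [cst (2 ^ 40) * p, cst (2 ^ 40) * q] c) t
    (z0 true b [cst (2 ^ 40) * p, cst (2 ^ 40) * q] c)

theorem c2_sound {b c t p q} (h : c2 b c t p q = true) {x y z w : ℝ} (hx : x ∈ Icc (0 : ℝ) 1)
    (hy : y ∈ Icc (0 : ℝ) 1) (hz : z ∈ Icc (0 : ℝ) 1) (hw : w ∈ Icc (0 : ℝ) 1) :
    0 ≤ p.f (v4 x y z w) ∨ 0 ≤ q.f (v4 x y z w) := by
  have := (good t h).fin hx.1 (fun _ => hx.2) hy.1 hy.2 hz.1 hz.2 hw.1 hw.2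
  simp only [List.mem_cons, List.not_mem_nil, or_false, exists_eq_or_imp, exists_eq_left, f_mul,
    f_c] at this
  exact this.imp (nonneg_of_mul_nonneg_right · (by norm_num))
    (nonneg_of_mul_nonneg_right · (by norm_num))

theorem f_i (x) (c : ℤ) : (i c : K).f x = i c := rfl

theorem good_of {j b1 b2 b3 b4 b5 b6 b7 b8 c1 c2' c3 c4 c5 c6 c7 c8 t1 t2 t3 t4 t5 t6 t7 t8}
    (h : (c2 b1 c1 t1 (B (pk j)) (Tp (pk j)) && c2 b2 c2' t2 (c (pk j)) (Tm (pk j)) &&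
      c2 b3 c3 t3 (Ua (pk j)) (Ua (pk j)) && c2 b4 c4 t4 (Ub (pk j)) (Ub (pk j)) &&
      c2 b5 c5 t5 (Uc (pk j)) (Uc (pk j)) && c2 b6 c6 t6 (Ud (pk j)) (Ud (pk j)) &&
      c2 b7 c7 t7 (A (pk j)) (A (pk j)) && c2 b8 c8 t8 (X0 (pk j)) (X0 (pk j))) = true)
    {x y t w : ℝ} (hx : x ∈ Icc (0 : ℝ) 1) (hy : y ∈ Icc (0 : ℝ) 1) (ht : t ∈ Icc (0 : ℝ) 1)
    (hw : w ∈ Icc (0 : ℝ) 1) : Good (ch j x y t w) := by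
  simp only [Bool.and_eq_true] at h
  obtain ⟨⟨⟨⟨⟨⟨⟨h1, h2⟩, h3⟩, h4⟩, h5⟩, h6⟩, h7⟩, h8⟩ := h
  have k := And.intro (c2_sound h1 hx hy ht hw) <| And.intro (c2_sound h2 hx hy ht hw) <|
    And.intro ((c2_sound h3 hx hy ht hw).elim id id) <|
    And.intro ((c2_sound h4 hx hy ht hw).elim id id) <|
    And.intro ((c2_sound h5 hx hy ht hw).elim id id) <|
    And.intro ((c2_sound h6 hx hy ht hw).elim id id) <|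
    And.intro ((c2_sound h7 hx hy ht hw).elim id id) ((c2_sound h8 hx hy ht hw).elim id id)
  have e : ∀ P : Pt K, P = pk j → (⟨P.W.f (v4 x y t w), P.K.f (v4 x y t w), P.G.f (v4 x y t w),
      P.H.f (v4 x y t w), P.L.f (v4 x y t w), P.z.f (v4 x y t w), P.n.f (v4 x y t w),
      P.w.f (v4 x y t w)⟩ : Pt ℝ) = ch j x y t w := by
    rintro _ rfl
    unfold pk ch
    split <;> simp only [chA, chB, chC, f_add, f_mul, f_sub, f_i, Kp.X0, X1, X2, X3]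
  rw [← e _ rfl]
  simpa only [Good, B, Tp, Tm, Ua, Ub, Uc, Ud, A, X0, c, SM, S, M, E, Ka, Rb, Nb, ab, ro, LL, zL, D,
    K0, K1, C0, C1, HW, Gz, G2, z2, lin, f_add, f_mul, f_sub, f_i] using k

/-- The inequalities hold in a chart. -/
structure GoodC (j : ℕ) : Prop where
  good : ∀ {x y t w : ℝ}, x ∈ Icc (0 : ℝ) 1 → y ∈ Icc (0 : ℝ) 1 → t ∈ Icc (0 : ℝ) 1 →
    w ∈ Icc (0 : ℝ) 1 → Good (ch j x y t w)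

theorem good0 : GoodC 0 :=
  ⟨good_of (b1 := 93) (c1 := [65, 65]) (t1 := .n 3 (.n 2 (.n 1 (.n 2 (.n 1 (.l 0) (.n 2 (.n 1
    (.l 0) (.n 3 (.n 3 (.n 3 (.n 2 (.n 2 (.l 1) (.n 3 (.n 3 (.n 2 (.l 1) (.n 3 (.n 1 (.n 1 (.l
    0) (.l 1)) (.l 1)) (.l 1))) (.l 1)) (.l 1))) (.n 1 (.n 0 (.l 0) (.n 3 (.n 0 (.l 0) (.n 1 (.l
    0) (.n 2 (.n 1 (.l 0) (.l 1)) (.l 0)))) (.l 0))) (.n 0 (.l 1) (.n 2 (.l 1) (.n 1 (.l 0) (.l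
    1)))))) (.l 1)) (.l 1)) (.l 1))) (.l 0))) (.l 0)) (.n 2 (.n 3 (.n 2 (.l 1) (.n 3 (.n 3 (.n 1
    (.n 3 (.n 2 (.n 0 (.l 1) (.n 3 (.n 2 (.l 1) (.n 1 (.n 1 (.n 1 (.l 0) (.n 0 (.l 1) (.l 0)))
    (.l 1)) (.l 1))) (.l 1))) (.n 3 (.n 1 (.n 1 (.l 0) (.n 0 (.l 1) (.n 2 (.n 0 (.l 1) (.l 0))
    (.l 0)))) (.n 0 (.l 1) (.n 0 (.l 1) (.n 2 (.l 1) (.l 0))))) (.n 1 (.l 1) (.l 1)))) (.n 2 (.l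
    1) (.l 1))) (.l 1)) (.l 1)) (.l 1))) (.l 1)) (.n 3 (.n 3 (.n 3 (.n 0 (.n 1 (.n 1 (.n 0 (.l
    0) (.l 0)) (.n 2 (.n 3 (.n 3 (.n 2 (.n 0 (.l 1) (.n 0 (.l 1) (.n 2 (.l 1) (.n 0 (.l 1) (.l
    0))))) (.n 0 (.n 1 (.n 0 (.l 1) (.l 0)) (.l 1)) (.n 2 (.n 1 (.l 0) (.l 1)) (.l 0)))) (.l 1))
    (.l 1)) (.n 0 (.n 0 (.n 1 (.l 0) (.n 1 (.l 0) (.l 1))) (.l 0)) (.l 0)))) (.n 2 (.l 1) (.n 3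
    (.n 3 (.n 0 (.n 0 (.l 1) (.n 2 (.l 1) (.n 2 (.l 1) (.n 1 (.n 0 (.l 1) (.l 0)) (.l 1))))) (.n
    0 (.n 1 (.n 2 (.n 0 (.l 1) (.l 0)) (.l 0)) (.l 1)) (.n 1 (.l 0) (.n 2 (.l 1) (.l 0))))) (.l
    1)) (.l 1)))) (.n 2 (.n 0 (.n 1 (.n 1 (.l 0) (.n 3 (.n 1 (.l 0) (.n 2 (.n 0 (.l 1) (.l 0))
    (.l 0))) (.l 0))) (.n 2 (.l 1) (.n 1 (.l 0) (.n 0 (.l 1) (.l 0))))) (.l 0)) (.l 0))) (.n 0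
    (.l 1) (.l 1))) (.l 1)) (.l 1)))) (.n 1 (.l 0) (.n 1 (.l 0) (.n 3 (.n 3 (.n 2 (.n 3 (.n 0
    (.n 3 (.n 0 (.n 2 (.n 1 (.n 2 (.n 0 (.n 1 (.l 0) (.l 1)) (.l 0)) (.l 0)) (.n 0 (.l 1) (.n 2
    (.l 1) (.l 0)))) (.n 1 (.l 0) (.n 0 (.n 2 (.n 0 (.l 1) (.l 0)) (.l 0)) (.l 0)))) (.l 0)) (.l
    1)) (.l 0)) (.l 1)) (.l 0)) (.l 0)) (.l 0))))) (.n 1 (.l 1) (.l 1))) (b2 := 94) (c2' := [60,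
    66]) (t2 := .n 2 (.n 3 (.n 2 (.n 1 (.n 1 (.n 2 (.l 1) (.l 1)) (.n 0 (.n 0 (.n 2 (.n 2 (.n 1
    (.n 1 (.l 1) (.n 1 (.n 1 (.l 1) (.n 1 (.n 0 (.n 1 (.l 1) (.n 1 (.n 1 (.l 1) (.n 1 (.n 1 (.l
    1) (.n 1 (.n 1 (.l 1) (.n 2 (.n 1 (.n 2 (.n 1 (.l 1) (.n 2 (.n 1 (.n 2 (.n 1 (.n 3 (.n 3 (.n
    3 (.l 0) (.l 1)) (.l 1)) (.l 1)) (.n 2 (.n 1 (.n 3 (.n 0 (.n 0 (.n 2 (.n 1 (.n 3 (.n 3 (.l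
    0) (.l 1)) (.l 1)) (.n 2 (.n 3 (.n 3 (.l 0) (.l 1)) (.l 1)) (.l 1))) (.l 1)) (.l 0)) (.l 0))
    (.l 1)) (.n 3 (.n 3 (.n 3 (.l 0) (.l 1)) (.l 1)) (.l 1))) (.l 1))) (.l 1)) (.l 1)) (.l 1)))
    (.l 1)) (.l 1)) (.l 1))) (.l 1))) (.l 1))) (.l 1))) (.l 0)) (.l 1))) (.l 1))) (.n 0 (.l 1)
    (.l 0))) (.l 1)) (.l 1)) (.l 0)) (.l 0))) (.l 0)) (.n 1 (.n 1 (.l 1) (.l 1)) (.l 1))) (.n 1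
    (.l 1) (.l 1))) (.l 1)) (b3 := 93) (c3 := [65]) (t3 := .n 2 (.n 1 (.n 2 (.n 3 (.n 1 (.l 0)
    (.n 3 (.n 2 (.n 1 (.l 0) (.n 1 (.l 0) (.l 0))) (.l 0)) (.l 0))) (.l 0)) (.l 0)) (.n 3 (.n 2
    (.n 3 (.n 0 (.n 0 (.l 0) (.n 2 (.l 0) (.l 0))) (.n 2 (.l 0) (.n 2 (.n 1 (.l 0) (.l 0)) (.n 1
    (.l 0) (.l 0))))) (.l 0)) (.n 2 (.n 0 (.l 0) (.n 2 (.n 1 (.l 0) (.l 0)) (.n 1 (.l 0) (.n 0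
    (.l 0) (.l 0))))) (.n 0 (.l 0) (.l 0)))) (.l 0))) (.n 0 (.l 0) (.l 0))) (b4 := 94) (c4 :=
    [66]) (t4 := .n 2 (.n 3 (.n 1 (.n 1 (.l 0) (.n 3 (.n 1 (.l 0) (.l 0)) (.l 0))) (.n 2 (.n 3
    (.n 3 (.n 0 (.n 0 (.l 0) (.l 0)) (.l 0)) (.l 0)) (.l 0)) (.l 0))) (.n 1 (.l 0) (.l 0))) (.l
    0)) (b5 := 94) (c5 := [66]) (t5 := .n 2 (.n 3 (.n 1 (.n 1 (.l 0) (.n 3 (.n 2 (.n 1 (.l 0)
    (.n 2 (.l 0) (.l 0))) (.l 0)) (.l 0))) (.n 3 (.n 2 (.n 3 (.n 0 (.n 0 (.l 0) (.l 0)) (.n 2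
    (.l 0) (.l 0))) (.l 0)) (.n 2 (.n 0 (.l 0) (.l 0)) (.l 0))) (.l 0))) (.n 1 (.l 0) (.l 0)))
    (.l 0)) (b6 := 94) (c6 := [66]) (t6 := .n 2 (.n 1 (.n 3 (.n 1 (.l 0) (.n 3 (.n 1 (.l 0) (.l
    0)) (.l 0))) (.l 0)) (.n 3 (.n 2 (.n 3 (.n 3 (.n 0 (.n 0 (.l 0) (.l 0)) (.l 0)) (.l 0)) (.l
    0)) (.l 0)) (.l 0))) (.l 0)) (b7 := 76) (c7 := [59]) (t7 := .l 0) (b8 := 72) (c8 := [55])
    (t8 := .l 0) (by decide +kernel)⟩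

theorem good1 : GoodC 1 :=
  ⟨good_of (b1 := 97) (c1 := [65, 65]) (t1 := .l 0) (b2 := 98) (c2' := [60, 66]) (t2 := .l 1)
    (b3 := 97) (c3 := [65]) (t3 := .l 0) (b4 := 98) (c4 := [66]) (t4 := .l 0) (b5 := 98) (c5 :=
    [66]) (t5 := .l 0) (b6 := 98) (c6 := [66]) (t6 := .l 0) (b7 := 79) (c7 := [59]) (t7 := .l 0)
    (b8 := 75) (c8 := [55]) (t8 := .l 0) (by decide +kernel)⟩

theorem good2 : GoodC 2 :=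
  ⟨good_of (b1 := 88) (c1 := [62, 63]) (t1 := .n 2 (.n 2 (.n 3 (.n 3 (.l 1) (.l 1)) (.l 1)) (.n
    2 (.n 0 (.n 3 (.n 2 (.n 3 (.l 1) (.l 0)) (.n 0 (.l 1) (.l 0))) (.l 0)) (.l 0)) (.l 0))) (.l
    0)) (b2 := 88) (c2' := [57, 63]) (t2 := .n 3 (.n 2 (.n 2 (.l 0) (.l 1)) (.l 1)) (.l 1)) (b3
    := 88) (c3 := [63]) (t3 := .n 3 (.n 2 (.n 2 (.n 3 (.n 2 (.n 0 (.l 0) (.l 0)) (.n 2 (.l 0)
    (.l 0))) (.l 0)) (.l 0)) (.l 0)) (.l 0)) (b4 := 88) (c4 := [63]) (t4 := .n 2 (.n 3 (.n 2 (.n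
    3 (.n 0 (.l 0) (.l 0)) (.l 0)) (.l 0)) (.l 0)) (.l 0)) (b5 := 88) (c5 := [63]) (t5 := .n 2
    (.n 3 (.n 2 (.n 3 (.n 0 (.n 1 (.l 0) (.n 2 (.l 0) (.l 0))) (.l 0)) (.l 0)) (.l 0)) (.l 0))
    (.l 0)) (b6 := 88) (c6 := [63]) (t6 := .n 3 (.n 2 (.n 2 (.n 3 (.n 0 (.l 0) (.l 0)) (.l 0))
    (.l 0)) (.l 0)) (.l 0)) (b7 := 71) (c7 := [57]) (t7 := .l 0) (b8 := 65) (c8 := [53]) (t8 :=
    .l 0) (by decide +kernel)⟩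

theorem good3 : GoodC 3 :=
  ⟨good_of (b1 := 91) (c1 := [62, 63]) (t1 := .l 0) (b2 := 91) (c2' := [57, 63]) (t2 := .l 1)
    (b3 := 90) (c3 := [63]) (t3 := .l 0) (b4 := 90) (c4 := [63]) (t4 := .l 0) (b5 := 90) (c5 :=
    [63]) (t5 := .l 0) (b6 := 90) (c6 := [63]) (t6 := .l 0) (b7 := 73) (c7 := [57]) (t7 := .l 0)
    (b8 := 66) (c8 := [53]) (t8 := .l 0) (by decide +kernel)⟩

theorem good4 : GoodC 4 :=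
  ⟨good_of (b1 := 89) (c1 := [62, 63]) (t1 := .n 1 (.l 0) (.n 2 (.n 2 (.n 3 (.n 2 (.l 1) (.n 2
    (.n 1 (.l 0) (.l 1)) (.l 0))) (.l 1)) (.l 0)) (.l 0))) (b2 := 89) (c2' := [57, 63]) (t2 :=
    .n 2 (.n 3 (.n 2 (.l 1) (.l 1)) (.l 1)) (.l 1)) (b3 := 89) (c3 := [63]) (t3 := .n 2 (.n 2
    (.n 3 (.n 2 (.n 1 (.n 1 (.l 0) (.l 0)) (.l 0)) (.n 1 (.l 0) (.n 2 (.l 0) (.l 0)))) (.l 0))
    (.l 0)) (.l 0)) (b4 := 89) (c4 := [63]) (t4 := .n 2 (.n 3 (.n 2 (.l 0) (.l 0)) (.l 0)) (.l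
    0)) (b5 := 89) (c5 := [63]) (t5 := .n 2 (.n 2 (.n 3 (.l 0) (.l 0)) (.l 0)) (.l 0)) (b6 :=
    89) (c6 := [63]) (t6 := .n 2 (.n 3 (.n 2 (.l 0) (.l 0)) (.l 0)) (.l 0)) (b7 := 73) (c7 :=
    [57]) (t7 := .l 0) (b8 := 67) (c8 := [53]) (t8 := .l 0) (by decide +kernel)⟩

theorem good5 : GoodC 5 :=
  ⟨good_of (b1 := 92) (c1 := [62, 63]) (t1 := .l 0) (b2 := 92) (c2' := [57, 63]) (t2 := .l 1)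
    (b3 := 92) (c3 := [63]) (t3 := .l 0) (b4 := 92) (c4 := [63]) (t4 := .l 0) (b5 := 92) (c5 :=
    [63]) (t5 := .l 0) (b6 := 92) (c6 := [63]) (t6 := .l 0) (b7 := 75) (c7 := [57]) (t7 := .l 0)
    (b8 := 69) (c8 := [53]) (t8 := .l 0) (by decide +kernel)⟩

theorem good6 : GoodC 6 :=
  ⟨good_of (b1 := 87) (c1 := [59, 58]) (t1 := .n 3 (.l 1) (.l 1)) (b2 := 87) (c2' := [56, 58])
    (t2 := .n 3 (.l 1) (.l 1)) (b3 := 88) (c3 := [59]) (t3 := .n 3 (.n 1 (.l 0) (.l 0)) (.l 0))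
    (b4 := 88) (c4 := [59]) (t4 := .n 3 (.l 0) (.l 0)) (b5 := 88) (c5 := [59]) (t5 := .n 3 (.l
    0) (.l 0)) (b6 := 88) (c6 := [59]) (t6 := .n 3 (.l 0) (.l 0)) (b7 := 75) (c7 := [57]) (t7 :=
    .l 0) (b8 := 69) (c8 := [53]) (t8 := .l 0) (by decide +kernel)⟩

end Vale.Agent.P219.C6
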