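import Vale.Agent.P219.G.Bern

/-! The polynomials behind the certificate for `m = 8`, `γ = 1 / 2`.  Here `r = σ = √u`, the variable
`z` homogenises, `a + a' = 2 c e` and `a a' = c ^ 2 + e ^ 2 - 1`. -/

namespace Vale.Agent.P219.C8

open Bn

/-- A point. -/
structure Pt (α : Type) where
  r : α
  z : α
  c : α
  e : α

section
variable {α : Type} [Add α] [Mul α] [Sub α] [IntCast α]

def i (c : ℤ) : α := c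
def xx (P : Pt α) : α := P.r * P.r
def zz (P : Pt α) : α := P.z * P.z
def rz (P : Pt α) : α := P.r * P.z
def f1 (a b : ℤ) (P : Pt α) : α := i a * zz P + i b * xx P
def f2 (a b c : ℤ) (P : Pt α) : α := f1 a b P * zz P + i c * (xx P * xx P)
def f3 (a b c d : ℤ) (P : Pt α) : α := f2 a b c P * zz P + i d * (xx P * xx P * xx P)
def cc (P : Pt α) : α := P.c * P.c
def ee (P : Pt α) : α := P.e * P.e
def N (P : Pt α) : α := ee P - cc P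
def ab (P : Pt α) : α := cc P + ee P - i 1
def kq (P : Pt α) : α := rz P * zz P * f2 6912 19320 26250 P
def Ka (P : Pt α) : α := kq P * (P.c * P.e)
def Rb (P : Pt α) : α := rz P * rz P * zz P * f1 4032 11760 P
def X0 (P : Pt α) : α := zz P * f3 2400 15072 37590 56875 P - kq P
def Xl (P : Pt α) : α := X0 P + kq P * (P.e - P.c)
def q2 (P : Pt α) : α := zz P * f3 38400 180864 300720 227500 P
def S (P : Pt α) : α :=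
  zz P * f3 19200 9984 (-8400) 35000 P + i 428750 * (xx P * xx P * (xx P * xx P)) +
    zz P * f3 (-19200) 20160 158760 306250 P * (cc P + ee P) + q2 P * (cc P * ee P) +
    rz P * (f3 3072 (-202512) (-653940) (-910000) P -
      zz P * f2 48384 96600 78750 P * (cc P + ee P)) * (P.c * P.e)
def A (P : Pt α) : α := f3 26112 138600 341250 428750 P - rz P * f2 41472 77280 52500 P * P.c
def B (P : Pt α) : α :=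
  (i 1 + P.e) * (zz P * f3 12288 (-32616) (-171570) (-306250) P - q2 P * cc P) +
    rz P * P.c * (f3 52224 318672 759780 910000 P +
      zz P * (f2 41472 77280 52500 P * cc P + f2 55296 115920 105000 P * (P.e + ee P)))
def E (P : Pt α) : α := P.c * P.z - P.r
def Tp (P : Pt α) : α := A P * (E P * E P) + (i 1 - P.e) * B P
def Tm (P : Pt α) : α := Tp P + i 2 * ((Ka P + Rb P) * N P)
def U0 (P : Pt α) : α := S P - Rb P * N P + Xl P * ab P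
def Uh (P : Pt α) : α := i 2 * U0 P + (Rb P - Ka P) * (N P * N P)
def U1 (P : Pt α) : α :=
  i 2 * (S P - Ka P * N P) + Xl P * ab P * (i 2 + N P * (i 2 - N P))
def U2 (P : Pt α) : α := U0 P + Ka P * N P
def U3 (P : Pt α) : α := S P + (Ka P - Rb P) * N P - Xl P * ab P

/-- The six charts. -/
def ch (j : ℕ) (x y t : α) : Pt α :=
  match j with
  | 0 => ⟨i 1, i 4 * x, y * t, y⟩
  | 1 => ⟨x, i 4, y * (x * t), y⟩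
  | 2 => ⟨x * t, i 4, y * x, y⟩
  | 3 => ⟨i 1, i 4 * x, i (-1) * (y * t), y⟩
  | 4 => ⟨x, i 4, i (-1) * (y * (x * t)), y⟩
  | _ => ⟨x * t, i 4, i (-1) * (y * x), y⟩

end

/-- The generic point of a chart. -/
noncomputable def pt (j : ℕ) : Pt (L 3) := ch j (xL 3 0) (xL 3 1) (xL 3 2)

theorem k0 : ck [7, 3, 3] [1, 0, 0] [8, 4, 3] [0, 0, 0]
    (.n 2 (.n 0 (.n 1 .b .b) (.n 0 (.n 1 (.n 1 .b (.n 2 (.n 1 .b (.n 0 (.n 2 .a .b) .a)) (.n 2 .a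
    (.n 1 .b (.n 0 (.n 0 .b .a) .b))))) .b) .b)) (.n 0 (.n 2 (.n 1 (.n 1 .b .a) .b) .b) .b)) (B (pt
    0)) (Tp (pt 0)) = true ∧
    ck [6, 1, 1] [0, 0, 0] [0, 0, 0] [0, 0, 0]
    .a (A (pt 0)) (-1 : ℤ) = true ∧
    ck [6, 0, 0] [2, 0, 0] [0, 0, 0] [0, 0, 0]
    (.n 0 .a .a) (X0 (pt 0)) (-1 : ℤ) = true ∧
    ck [8, 4, 3] [0, 0, 0] [0, 0, 0] [0, 0, 0]
    (.n 2 (.n 0 (.n 1 (.n 2 .a .a) .a) (.n 0 (.n 1 (.n 2 .a (.n 1 .a (.n 0 (.n 1 .a (.n 0 (.n 1 .a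
    .a) .a)) .a))) .a) .a)) (.n 0 (.n 2 (.n 0 .a .a) .a) .a)) (U0 (pt 0)) (-1 : ℤ) = true ∧
    ck [8, 6, 5] [0, 0, 0] [0, 0, 0] [0, 0, 0]
    (.n 2 (.n 0 (.n 2 .a .a) (.n 0 (.n 1 (.n 2 (.n 0 .a .a) (.n 1 .a (.n 0 (.n 1 .a (.n 0 .a .a))
    .a))) .a) .a)) (.n 0 (.n 2 (.n 2 (.n 0 .a .a) (.n 0 .a .a)) .a) .a)) (Uh (pt 0)) (-1 : ℤ) =
    true ∧
    ck [8, 7, 7] [0, 0, 0] [0, 0, 0] [0, 0, 0]
    (.n 0 (.n 2 (.n 2 (.n 2 .a (.n 0 (.n 0 .a .a) .a)) .a) (.n 2 (.n 2 (.n 0 .a (.n 2 .a .a)) (.n 0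
    (.n 0 .a .a) .a)) .a)) (.n 0 (.n 2 (.n 1 (.n 0 (.n 1 .a (.n 1 .a (.n 0 (.n 2 .a .a) .a))) (.n 2
    (.n 2 .a .a) (.n 1 .a .a))) .a) .a) .a)) (U1 (pt 0)) (-1 : ℤ) = true := by
  decide +kernel

theorem k1 : ck [8, 3, 3] [0, 0, 0] [8, 4, 3] [0, 0, 0]
    (.n 2 .b .a) (B (pt 1)) (Tp (pt 1)) = true ∧
    ck [6, 1, 1] [0, 0, 0] [0, 0, 0] [0, 0, 0]
    .a (A (pt 1)) (-1 : ℤ) = true ∧
    ck [6, 0, 0] [0, 0, 0] [0, 0, 0] [0, 0, 0]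
    .a (X0 (pt 1)) (-1 : ℤ) = true ∧
    ck [8, 4, 3] [0, 0, 0] [0, 0, 0] [0, 0, 0]
    (.n 2 .a (.n 2 .a .a)) (U0 (pt 1)) (-1 : ℤ) = true ∧
    ck [10, 6, 5] [0, 0, 0] [0, 0, 0] [0, 0, 0]
    (.n 2 .a (.n 2 (.n 2 .a .a) .a)) (Uh (pt 1)) (-1 : ℤ) = true ∧
    ck [12, 7, 7] [0, 0, 0] [0, 0, 0] [0, 0, 0]
    (.n 2 .a (.n 2 (.n 2 .a .a) .a)) (U1 (pt 1)) (-1 : ℤ) = true := by
  decide +kernel

theorem k2 : ck [8, 3, 7] [0, 0, 0] [8, 4, 8] [0, 0, 0]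
    .b (B (pt 2)) (Tp (pt 2)) = true ∧
    ck [6, 1, 6] [0, 0, 0] [0, 0, 0] [0, 0, 0]
    .a (A (pt 2)) (-1 : ℤ) = true ∧
    ck [6, 0, 6] [0, 0, 0] [0, 0, 0] [0, 0, 0]
    .a (X0 (pt 2)) (-1 : ℤ) = true ∧
    ck [8, 4, 8] [0, 0, 0] [0, 0, 0] [0, 0, 0]
    .a (U0 (pt 2)) (-1 : ℤ) = true ∧
    ck [10, 6, 8] [0, 0, 0] [0, 0, 0] [0, 0, 0]
    .a (Uh (pt 2)) (-1 : ℤ) = true ∧
    ck [12, 7, 8] [0, 0, 0] [0, 0, 0] [0, 0, 0]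
    .a (U1 (pt 2)) (-1 : ℤ) = true := by
  decide +kernel

theorem k3 : ck [7, 3, 3] [1, 0, 0] [8, 4, 3] [0, 0, 0]
    (.n 0 .b .b) (B (pt 3)) (Tp (pt 3)) = true ∧
    ck [6, 1, 1] [0, 0, 0] [0, 0, 0] [0, 0, 0]
    .a (A (pt 3)) (-1 : ℤ) = true ∧
    ck [8, 4, 3] [0, 0, 0] [0, 0, 0] [0, 0, 0]
    (.n 0 .a .a) (Tm (pt 3)) (-1 : ℤ) = true ∧
    ck [8, 4, 3] [0, 0, 0] [8, 4, 3] [0, 0, 0]
    .b (U2 (pt 3)) (U3 (pt 3)) = true := by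
  decide +kernel

theorem k4 : ck [8, 3, 3] [0, 0, 0] [8, 4, 3] [0, 0, 0]
    .b (B (pt 4)) (Tp (pt 4)) = true ∧
    ck [6, 1, 1] [0, 0, 0] [0, 0, 0] [0, 0, 0]
    .a (A (pt 4)) (-1 : ℤ) = true ∧
    ck [8, 4, 3] [0, 0, 0] [0, 0, 0] [0, 0, 0]
    .a (Tm (pt 4)) (-1 : ℤ) = true ∧
    ck [8, 4, 3] [0, 0, 0] [8, 4, 3] [0, 0, 0]
    .a (U2 (pt 4)) (U3 (pt 4)) = true := by
  decide +kernel

theorem k5 : ck [8, 3, 7] [0, 0, 0] [8, 4, 8] [0, 0, 0]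
    (.n 1 .b .b) (B (pt 5)) (Tp (pt 5)) = true ∧
    ck [6, 1, 6] [0, 0, 0] [0, 0, 0] [0, 0, 0]
    .a (A (pt 5)) (-1 : ℤ) = true ∧
    ck [8, 4, 8] [0, 0, 0] [0, 0, 0] [0, 0, 0]
    (.n 1 .a .a) (Tm (pt 5)) (-1 : ℤ) = true ∧
    ck [8, 4, 8] [0, 0, 0] [8, 4, 8] [0, 0, 0]
    .b (U2 (pt 5)) (U3 (pt 5)) = true := by
  decide +kernel

/-- The inequalities for `0 ≤ c`. -/
def Gp (P : Pt ℝ) : Prop :=
  (0 ≤ B P ∨ 0 ≤ Tp P) ∧ 0 ≤ A P ∧ 0 ≤ X0 P ∧ 0 ≤ U0 P ∧ 0 ≤ Uh P ∧ 0 ≤ U1 P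

/-- The inequalities for `c ≤ 0`. -/
def Gm (P : Pt ℝ) : Prop := (0 ≤ B P ∨ 0 ≤ Tp P) ∧ 0 ≤ A P ∧ 0 ≤ Tm P ∧ (0 ≤ U2 P ∨ 0 ≤ U3 P)

theorem ev_i (x) (c : ℤ) : evL 3 x (i c) = i c := evL_c c 3 x

theorem one {a b c k t} {p : L 3} {x : ℕ → ℝ} (hx : ∀ i, 0 ≤ x i ∧ x i ≤ 1)
    (h : ck [a, b, c] k [0, 0, 0] [0, 0, 0] t p (-1 : ℤ) = true) : 0 ≤ evL 3 x p :=
  (ck_sound h hx).resolve_right (by
    rw [show evL [0, 0, 0].length x ((-1 : ℤ) : L 3) = ((-1 : ℤ) : ℝ) from evL_int 3 x _]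
    norm_num)

/-- Evaluation of a point. -/
noncomputable def evP (v : ℕ → ℝ) (P : Pt (L 3)) : Pt ℝ :=
  ⟨evL 3 v P.r, evL 3 v P.z, evL 3 v P.c, evL 3 v P.e⟩

theorem ev_all (v : ℕ → ℝ) (P : Pt (L 3)) : evL 3 v (B P) = B (evP v P) ∧
    evL 3 v (Tp P) = Tp (evP v P) ∧ evL 3 v (A P) = A (evP v P) ∧ evL 3 v (X0 P) = X0 (evP v P) ∧
    evL 3 v (U0 P) = U0 (evP v P) ∧ evL 3 v (Uh P) = Uh (evP v P) ∧
    evL 3 v (U1 P) = U1 (evP v P) ∧ evL 3 v (Tm P) = Tm (evP v P) ∧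
    evL 3 v (U2 P) = U2 (evP v P) ∧ evL 3 v (U3 P) = U3 (evP v P) := by
  simp only [evP, B, Tp, A, X0, U0, Uh, U1, Tm, U2, U3, E, S, q2, Xl, Rb, Ka, kq, ab, N, ee, cc, f3,
    f2, f1, rz, zz, xx, evL_add, evL_mul, evL_sub, ev_i, and_self]

theorem ev_ch (j : ℕ) (v : ℕ → ℝ) : evP v (pt j) = ch j (v 0) (v 1) (v 2) := by
  unfold evP pt ch
  split <;> simp only [evL_mul, ev_i, evL_x 3 0 (by omega), evL_x 3 1 (by omega),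
    evL_x 3 2 (by omega)]

theorem good (v : ℕ → ℝ) (h : ∀ i, 0 ≤ v i ∧ v i ≤ 1) :
    (Gp (ch 0 (v 0) (v 1) (v 2)) ∧ Gp (ch 1 (v 0) (v 1) (v 2)) ∧ Gp (ch 2 (v 0) (v 1) (v 2))) ∧
      Gm (ch 3 (v 0) (v 1) (v 2)) ∧ Gm (ch 4 (v 0) (v 1) (v 2)) ∧ Gm (ch 5 (v 0) (v 1) (v 2)) := by
  have p : ∀ j, ((0 ≤ evL 3 v (B (pt j)) ∨ 0 ≤ evL 3 v (Tp (pt j))) ∧ 0 ≤ evL 3 v (A (pt j)) ∧
      0 ≤ evL 3 v (X0 (pt j)) ∧ 0 ≤ evL 3 v (U0 (pt j)) ∧ 0 ≤ evL 3 v (Uh (pt j)) ∧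
      0 ≤ evL 3 v (U1 (pt j))) → Gp (ch j (v 0) (v 1) (v 2)) := fun j k => by
    obtain ⟨e1, e2, e3, e4, e5, e6, e7, -⟩ := ev_all v (pt j)
    rwa [e1, e2, e3, e4, e5, e6, e7, ev_ch] at k
  have m : ∀ j, ((0 ≤ evL 3 v (B (pt j)) ∨ 0 ≤ evL 3 v (Tp (pt j))) ∧ 0 ≤ evL 3 v (A (pt j)) ∧
      0 ≤ evL 3 v (Tm (pt j)) ∧ (0 ≤ evL 3 v (U2 (pt j)) ∨ 0 ≤ evL 3 v (U3 (pt j)))) →
      Gm (ch j (v 0) (v 1) (v 2)) := fun j k => by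
    obtain ⟨e1, e2, e3, -, -, -, -, e4, e5, e6⟩ := ev_all v (pt j)
    rwa [e1, e2, e3, e4, e5, e6, ev_ch] at k
  exact ⟨⟨p 0 ⟨ck_sound k0.1 h, one h k0.2.1, one h k0.2.2.1, one h k0.2.2.2.1, one h k0.2.2.2.2.1,
      one h k0.2.2.2.2.2⟩,
    p 1 ⟨ck_sound k1.1 h, one h k1.2.1, one h k1.2.2.1, one h k1.2.2.2.1, one h k1.2.2.2.2.1,
      one h k1.2.2.2.2.2⟩,
    p 2 ⟨ck_sound k2.1 h, one h k2.2.1, one h k2.2.2.1, one h k2.2.2.2.1, one h k2.2.2.2.2.1,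
      one h k2.2.2.2.2.2⟩⟩,
    m 3 ⟨ck_sound k3.1 h, one h k3.2.1, one h k3.2.2.1, ck_sound k3.2.2.2 h⟩,
    m 4 ⟨ck_sound k4.1 h, one h k4.2.1, one h k4.2.2.1, ck_sound k4.2.2.2 h⟩,
    m 5 ⟨ck_sound k5.1 h, one h k5.2.1, one h k5.2.2.1, ck_sound k5.2.2.2 h⟩⟩

theorem cover {r e t : ℝ} (hr : 0 < r) (e0 : 0 ≤ e) (e1 : e ≤ 1) (t0 : 0 ≤ t) (t1 : t ≤ 1) :
    ∃ z : ℝ, 0 < z ∧ Gp ⟨z * r, z, e * t, e⟩ ∧ Gm ⟨z * r, z, -(e * t), e⟩ := by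
  have g : ∀ x y s : ℝ, 0 ≤ x → x ≤ 1 → 0 ≤ y → y ≤ 1 → 0 ≤ s → s ≤ 1 →
      (Gp (ch 0 x y s) ∧ Gp (ch 1 x y s) ∧ Gp (ch 2 x y s)) ∧
        Gm (ch 3 x y s) ∧ Gm (ch 4 x y s) ∧ Gm (ch 5 x y s) := fun x y s a1 a2 a3 a4 a5 a6 =>
    good (fun k => match k with | 0 => x | 1 => y | _ => s) fun k =>
      match k with | 0 => ⟨a1, a2⟩ | 1 => ⟨a3, a4⟩ | _ + 2 => ⟨a5, a6⟩
  rcases le_total 1 (4 * r) with h | h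
  · obtain ⟨⟨k, -⟩, k', -⟩ := g (4 * r)⁻¹ e t (by positivity) (inv_le_one_of_one_le₀ h) e0 e1 t0 t1
    have q : (4 : ℝ) * (4 * r)⁻¹ = r⁻¹ := by field_simp
    simp only [ch, i, Int.cast_ofNat, Int.cast_one, Int.cast_neg, neg_mul, one_mul, q] at k k'
    exact ⟨r⁻¹, inv_pos.2 hr, by rwa [inv_mul_cancel₀ hr.ne'], by rwa [inv_mul_cancel₀ hr.ne']⟩
  rcases le_total t (4 * r) with h' | h'
  · obtain ⟨⟨-, k, -⟩, -, k', -⟩ := g (4 * r) e (t / (4 * r)) (by positivity) h e0 e1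
      (by positivity) (div_le_one_of_le₀ h' (by positivity))
    have q : 4 * r * (t / (4 * r)) = t := by field_simp
    simp only [ch, i, Int.cast_ofNat, Int.cast_one, Int.cast_neg, neg_mul, one_mul, q] at k k'
    exact ⟨4, four_pos, k, k'⟩
  · have ht : 0 < t := by linarith
    obtain ⟨⟨-, -, k⟩, -, -, k'⟩ := g t e (4 * r / t) t0 t1 e0 e1
      (by positivity) (div_le_one_of_le₀ h' t0)
    have q : t * (4 * r / t) = 4 * r := by field_simp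
    simp only [ch, i, Int.cast_ofNat, Int.cast_one, Int.cast_neg, neg_mul, one_mul, q] at k k'
    exact ⟨4, four_pos, k, k'⟩

end Vale.Agent.P219.C8
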