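import Vale.Agent.P219.G.CertLinA

/-! Construction of a certificate from a family of jets (see `CertLinA`). -/

namespace Vale.Agent.P219

open Set Filter Topology

variable {j : LJet} {m g u t θ P Q p q M : ℝ}

/-- A positive smooth function equal to `2 g + Q` for `Q > -3 g / 2`. -/
noncomputable def linR (g Q : ℝ) : ℝ :=
  (2 * g + Q) * Real.smoothTransition (2 * (2 * g + Q) / g) +
    (1 - Real.smoothTransition (2 * (2 * g + Q) / g))

/-- The nonlinear term. -/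
noncomputable def linO (g Q : ℝ) : ℝ := Q ^ 2 / linR g Q

theorem linR_pos (h0 : 0 < g) (Q : ℝ) : 0 < linR g Q := by
  have h1 := Real.smoothTransition.nonneg (2 * (2 * g + Q) / g)
  have h2 := Real.smoothTransition.le_one (2 * (2 * g + Q) / g)
  rw [linR]
  rcases le_or_gt (2 * g + Q) 0 with h | h
  · rw [Real.smoothTransition.zero_of_nonpos (div_nonpos_of_nonpos_of_nonneg (by linarith) h0.le)]
    norm_num
  · rcases h2.eq_or_lt with h3 | h3
    · rw [h3]
      linarith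
    · linarith [mul_nonneg h.le h1]

theorem linO_cd (h0 : 0 < g) : ContDiff ℝ 2 (linO g) := by
  have h : ContDiff ℝ 2 fun Q : ℝ => Real.smoothTransition (2 * (2 * g + Q) / g) :=
    (Real.smoothTransition.contDiff (n := 2)).comp (by fun_prop)
  exact ContDiff.div (by fun_prop) ((ContDiff.mul (by fun_prop) h).add (contDiff_const.sub h))
    fun Q => (linR_pos h0 Q).ne'

theorem linO_eq (h0 : 0 < g) (hQ : -(3 / 2 * g) < Q) : linO g Q = Q ^ 2 / (2 * g + Q) := by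
  rw [linO, linR, Real.smoothTransition.one_of_one_le ((one_le_div h0).2 (by linarith))]
  simp

theorem linO_der (h0 : 0 < g) (hQ : -(3 / 2 * g) < Q) :
    deriv (linO g) Q = Q * (Q + 4 * g) / (2 * g + Q) ^ 2 := by
  have h1 : linO g =ᶠ[𝓝 Q] fun Q => Q ^ 2 / (2 * g + Q) := by
    filter_upwards [Ioi_mem_nhds hQ] with y hy using linO_eq h0 hy
  have h2 : 2 * g + Q ≠ 0 := by linarith
  rw [h1.deriv_eq]
  refine (((hasDerivAt_id' Q).pow 2).div ((hasDerivAt_id' Q).const_add _) h2).deriv.trans ?_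
  simp only [Pi.pow_apply]
  congr 1
  ring

theorem lin_le (h0 : 0 < g) (h1 : g ≤ 1 / 2) (hu : 0 < u) (hp : p ^ 2 ≤ sg2 g u) :
    -(g * (1 - u)) ≤ u - p ∧ u - p ≤ 2 * u + g * (1 - u) := by
  have h2 : 0 ≤ u + g * (1 - u) := by linarith [mul_pos hu (show 0 < 1 - g by linarith)]
  obtain ⟨h3, h4⟩ := abs_le_of_sq_le_sq' (hp.trans (show sg2 g u ≤ (u + g * (1 - u)) ^ 2 by
    rw [sg2]
    linarith [sq_nonneg (g * (1 - u))])) h2
  constructor <;> linarith

namespace LinH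

variable (h : LinH j m g u t θ)
include h

theorem ray (hQ : -(g * (1 - u)) ≤ Q) : ∃ s : ℝ, 0 < s ∧ s * j.r2 m g u ≤ (1 + u) ^ 2 *
    ((m + 2) * ct g u * j.L + hhq g u * (j.L1 - j.L) - j.n1 m g u * (Q / (2 * g + Q)) -
      j.N * (g * u + ct g u * Q) * ((Q + 4 * g) / (2 * g + Q) ^ 2)) := by
  have h0 := h.h0
  have hu := h.hu
  have hN := h.all.hN
  have hgu := mul_pos h0 hu
  have dQ : 0 < 2 * g + Q := by linarith
  have hc : 0 ≤ ct g u := by
    have : 0 ≤ 1 - 2 * g := by linarith [h.h1]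
    rw [ct]
    positivity
  obtain ⟨y, hy⟩ : ∃ y, y = 2 * g / (2 * g + Q) := ⟨_, rfl⟩
  have y0 : 0 < y := by rw [hy]; positivity
  have y1 : (1 + u) * y ≤ 2 := by
    rw [hy, mul_div_assoc', div_le_iff₀ dQ]
    linarith
  have e : (m + 2) * ct g u * j.L + hhq g u * (j.L1 - j.L) - j.n1 m g u * (Q / (2 * g + Q)) -
      j.N * (g * u + ct g u * Q) * ((Q + 4 * g) / (2 * g + Q) ^ 2) =
      j.e2 m g u + y * (j.n1 m g u - j.N * u / 2) + j.N * (2 * ct g u - u) * y ^ 2 / 2 := by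
    rw [hy, LJet.e2, LJet.n1]
    field_simp
    ring
  refine ⟨(1 + u) * y / 2, by positivity, ?_⟩
  have k1 := mul_le_mul_of_nonneg_left y1 (show 0 ≤ j.N * u * (1 + u) * y by positivity)
  have k2 : 0 ≤ (1 + u) ^ 2 * (j.N * ct g u * y ^ 2) := by positivity
  have k3 := mul_le_mul_of_nonneg_left y1 (mul_nonneg (sq_nonneg (1 + u)) h.all.r1)
  rw [e, LJet.r2]
  linarith

theorem r2_nonneg : 0 ≤ j.r2 m g u := by
  rcases le_or_gt 1 u with hu | hu
  · exact (h.big hu).r2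
  · exact (h.small hu).r2.le

theorem yneg (hQ : u ≤ Q) :
    j.Ψ - j.L / (g * u) * Q + j.N / (g * u) * (Q ^ 2 / (2 * g + Q)) ≤ 0 := by
  have h0 := h.h0
  have hu := h.hu
  have hN := h.all.hN
  have q0 : 0 < Q := hu.trans_le hQ
  have e : j.Ψ - j.L / (g * u) * Q + j.N / (g * u) * (Q ^ 2 / (2 * g + Q)) =
      (g * u * j.Ψ - (j.L - j.N) * Q - 2 * g * j.N * (Q / (2 * g + Q))) / (g * u) := by
    field_simp
    ring
  have k1 : u / (2 * g + u) ≤ Q / (2 * g + Q) := by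
    rw [div_le_div_iff₀ (by positivity) (by positivity)]
    linarith [mul_le_mul_of_nonneg_left hQ h0.le]
  have k2 : g * u * j.Ψ ≤ (j.L - j.N) * u + 2 * g * j.N * (u / (2 * g + u)) := by
    rw [mul_div_assoc', ← sub_le_iff_le_add', le_div_iff₀ (by positivity)]
    linarith [mul_nonneg hu.le h.all.yneg]
  rw [e]
  refine div_nonpos_of_nonpos_of_nonneg ?_ (by positivity)
  linarith [mul_le_mul_of_nonneg_left k1 (show 0 ≤ 2 * g * j.N by positivity),
    mul_le_mul_of_nonneg_left hQ h.all.hLN]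

theorem main {η ι gx gy : ℝ}
    (E1 : u * j.Ψ = -(m * j.x * (1 - 2 * u) - 2 * (1 - u) * j.a + η))
    (E3 : m * j.K * (1 - 2 * u) + 2 * (1 - u) * j.K1 + 2 * j.K * (1 - u) + m * j.x - 2 * j.a =
      g * j.Ψ + j.L) (hp : p ^ 2 ≤ sg2 g u) (hq : q ^ 2 ≤ sg2 g u)
    (hM : (sg2 g u * M - ct g u * p * q) ^ 2 ≤ g ^ 2 * (sg2 g u - p ^ 2) * (sg2 g u - q ^ 2))
    (i0 : 0 ≤ ι) (i1 : ι ≤ 1) (hx : 0 ≤ gx) (hy : 0 ≤ gy)
    (hxy : (p * q / sg2 g u * (1 - ι)) ^ 2 ≤ gx * gy) (hqp : q ≤ p) :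
    0 ≤ m * (j.x + j.K / g * (u - p)) * (ct g u - q) +
      (-j.a / u + (j.K1 / u / g * (u - p) + j.K / g)) * (sg2 g u - q ^ 2) +
      -(j.K / g) * (ct g u * p - M * q) + (m * (j.x + j.K / g * (u - q)) * (ct g u - p) +
      (-j.a / u + (j.K1 / u / g * (u - q) + j.K / g)) * (sg2 g u - p ^ 2) +
      -(j.K / g) * (ct g u * q - M * p)) + g * (2 * η + ι *
        ((j.Ψ - j.L / (g * u) * (u - q) + j.N / (g * u) * ((u - q) ^ 2 / (2 * g + (u - q)))) * p +
        (j.Ψ - j.L / (g * u) * (u - p) + j.N / (g * u) * ((u - p) ^ 2 / (2 * g + (u - p)))) * q) +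
        (j.x + j.K / g * (u - p)) * gy + (j.x + j.K / g * (u - q)) * gx) := by
  have h0 := h.h0
  have hu := h.hu
  have hh0 := h.hh0
  have hK := h.all.hK
  obtain ⟨p1, p2⟩ := lin_le h0 h.h1 hu hp
  obtain ⟨-, q2⟩ := lin_le h0 h.h1 hu hq
  have es : sg2 g u = u * hhq g u := rfl
  obtain ⟨W, hW⟩ : ∃ W, sg2 g u * M - ct g u * p * q = -(g * W) :=
    ⟨-(sg2 g u * M - ct g u * p * q) / g, by field_simp⟩
  have hW2 : W ^ 2 ≤ (sg2 g u - p ^ 2) * (sg2 g u - q ^ 2) := by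
    refine le_of_mul_le_mul_left ?_ (pow_pos h0 2)
    rw [hW] at hM
    linarith
  obtain ⟨Z, rfl⟩ : ∃ Z, W = (sg2 g u - p ^ 2 + (sg2 g u - q ^ 2)) / 2 - Z :=
    ⟨(sg2 g u - p ^ 2 + (sg2 g u - q ^ 2)) / 2 - W, by ring⟩
  obtain ⟨z1, z2⟩ := abs_le_of_sq_le_sq' (b := (sg2 g u - p ^ 2 + (sg2 g u - q ^ 2)) / 2)
    (hW2.trans (by linarith [sq_nonneg (p ^ 2 - q ^ 2)])) (by linarith)
  have hZ : Z ≤ 2 * (u * hhq g u) := by linarith [sq_nonneg p, sq_nonneg q]
  have k1 := h.one (Q := u - q) (Z := Z) p1 (by linarith) (by linarith) (by linarith) hZ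
  have k2 := h.two (Q := u - q) (Z := Z) p1 (by linarith) (by linarith) (by linarith) hZ
  have hX := h.hX p1
  have i2 := sub_nonneg.2 i1
  have k3 : 2 * (|p * q| * (1 - ι)) ≤ u * hhq g u * (gx + gy) := by
    rw [← div_le_iff₀' (by positivity), ← es]
    refine (abs_le_of_sq_le_sq' ?_ (by positivity)).2
    rw [mul_div_assoc, mul_pow, div_pow, mul_pow, sq_abs, ← mul_pow, ← div_pow, mul_div_right_comm]
    linarith [sq_nonneg (gx - gy)]
  have k4 := mul_le_mul_of_nonneg_left k3 (mul_nonneg h0.le hX)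
  have k5 : 0 ≤ g * u * hhq g u * j.K * (p - q) * gx := by
    have := sub_nonneg.2 hqp
    positivity
  rw [sub_sub_cancel, sub_sub_cancel] at k1 k2
  generalize (u - q) ^ 2 / (2 * g + (u - q)) = oq at k1 ⊢
  generalize (u - p) ^ 2 / (2 * g + (u - p)) = op at k1 ⊢
  refine nonneg_of_mul_nonneg_right (a := g * u * hhq g u) (le_of_le_of_eq (b :=
    j.TQ m g u (u - p) (u - q) Z - 2 * g ^ 2 * u ^ 2 * hhq g u * j.Ψ +
      g * u * hhq g u * (g * j.Ψ + j.L) * (u - p + (u - q)) + ι * g * hhq g u *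
        ((g * u * j.Ψ - j.L * (u - q) + j.N * oq) * p + (g * u * j.Ψ - j.L * (u - p) + j.N * op) * q)
        + g * u * hhq g u * ((g * j.x + j.K * (u - p)) * gy + (g * j.x + j.K * (u - q)) * gx)) ?_ ?_)
    (by positivity)
  · linarith [mul_nonneg i0 k1, mul_nonneg i2 k2]
  · field_simp
    simp only [LJet.TQ, LJet.al, LJet.A, sg2, hhq, ct] at hW ⊢
    linear_combination (-2 * g ^ 2 * u * (2 * g + (1 - 2 * g) * u)) * E1 -
      g * u * (2 * g + (1 - 2 * g) * u) * (2 * u - p - q) * E3 - j.K * (p + q) * hW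

end LinH

theorem lin_cd {f : ℝ → ℝ} (h : ContDiffOn ℝ 2 f (Ioi 0)) :
    ContDiffOn ℝ 2 (fun z : ℝ × ℝ => f z.1) {z | 0 < z.1} :=
  h.comp contDiffOn_fst fun _ hz => hz

/-- The function `Y`. -/
noncomputable def linY (J : ℝ → LJet) (g u q : ℝ) : ℝ :=
  (J u).Ψ - (J u).L / (g * u) * (u - q) + (J u).N / (g * u) * linO g (u - q)

/-- Its derivative in `u`. -/
noncomputable def linYu (J : ℝ → LJet) (g u q : ℝ) : ℝ :=
  (J u).Ψ1 / u - (((J u).L1 - (J u).L) / (g * u ^ 2) * (u - q) + (J u).L / (g * u)) +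
    (((J u).N1 - (J u).N) / (g * u ^ 2) * linO g (u - q) +
      (J u).N / (g * u) * deriv (linO g) (u - q))

/-- Its derivative in `q`. -/
noncomputable def linYq (J : ℝ → LJet) (g u q : ℝ) : ℝ :=
  (J u).L / (g * u) - (J u).N / (g * u) * deriv (linO g) (u - q)

theorem lin_nD (m : ℕ) (J : ℝ → LJet) (h0 : 0 < g) (hu : 0 < u) (hq : -(3 / 2 * g) < u - q)
    (E2 : (J u).L = (m + 1) * ct g u * (J u).Ψ + hhq g u * (J u).Ψ1) :
    nD m g (linY J g) (linYu J g) (linYq J g) u q =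
      (q - u) / (g * u) * ((m + 2) * ct g u * (J u).L + hhq g u * ((J u).L1 - (J u).L) -
        (J u).n1 m g u * ((u - q) / (2 * g + (u - q))) - (J u).N * (g * u + ct g u * (u - q)) *
          ((u - q + 4 * g) / (2 * g + (u - q)) ^ 2)) := by
  simp only [nD, linY, linYu, linYq, linO_eq h0 hq, linO_der h0 hq, LJet.n1, sq (u - q),
    mul_div_assoc]
  generalize (u - q) / (2 * g + (u - q)) = o1
  generalize (u - q + 4 * g) / (2 * g + (u - q)) ^ 2 = o2
  field_simp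
  simp only [sg2, hhq, ct] at E2 ⊢
  linear_combination (-g * u ^ 2) * E2

/-- A family of jets satisfying the inequalities and the three identities gives a certificate. -/
theorem ncert_lin (m : ℕ) {η x₀ k₀ : ℝ} (J : ℝ → LJet) (hη : 0 < η) (hx₀ : 0 < x₀)
    (H : ∀ u, 0 < u → LinH (J u) m g u t θ)
    (cx : ContDiffOn ℝ 2 (fun u => (J u).x) (Ioi 0))
    (cK : ContDiffOn ℝ 2 (fun u => (J u).K) (Ioi 0))
    (cΨ : ContDiffOn ℝ 2 (fun u => (J u).Ψ) (Ioi 0))
    (cL : ContDiffOn ℝ 2 (fun u => (J u).L) (Ioi 0))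
    (cN : ContDiffOn ℝ 2 (fun u => (J u).N) (Ioi 0))
    (dx : ∀ u, 0 < u → HasDerivAt (fun u => (J u).x) (-(J u).a / u) u)
    (dK : ∀ u, 0 < u → HasDerivAt (fun u => (J u).K) ((J u).K1 / u) u)
    (dΨ : ∀ u, 0 < u → HasDerivAt (fun u => (J u).Ψ) ((J u).Ψ1 / u) u)
    (dL : ∀ u, 0 < u → HasDerivAt (fun u => (J u).L) ((J u).L1 / u) u)
    (dN : ∀ u, 0 < u → HasDerivAt (fun u => (J u).N) ((J u).N1 / u) u)
    (E1 : ∀ u, 0 < u →
      u * (J u).Ψ = -(m * (J u).x * (1 - 2 * u) - 2 * (1 - u) * (J u).a + η))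
    (E2 : ∀ u, 0 < u → (J u).L = (m + 1) * ct g u * (J u).Ψ + hhq g u * (J u).Ψ1)
    (E3 : ∀ u, 0 < u → m * (J u).K * (1 - 2 * u) + 2 * (1 - u) * (J u).K1 +
      2 * (J u).K * (1 - u) + m * (J u).x - 2 * (J u).a = g * (J u).Ψ + (J u).L)
    (lx : Tendsto (fun u => √u ^ m * (J u).x) (𝓝[>] 0) (𝓝 x₀))
    (lK : Tendsto (fun u => √u ^ m * (J u).K) (𝓝[>] 0) (𝓝 k₀)) : Nonempty (NCert m g) := by
  have h0 := (H 1 one_pos).h0
  have h1 := (H 1 one_pos).h1
  have dO := fun Q => ((linO_cd h0).differentiable (by norm_num) Q).hasDerivAt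
  have lo : ∀ {u q : ℝ}, 0 < u → q ^ 2 ≤ sg2 g u → -(3 / 2 * g) < u - q := fun hu hq => by
    linarith [(lin_le h0 h1 hu hq).1, mul_pos h0 hu]
  have dd : ∀ {f : ℝ → ℝ} {a u : ℝ}, 0 < u → HasDerivAt f (a / u) u →
      HasDerivAt (fun u => f u / (g * u)) ((a - f u) / (g * u ^ 2)) u := fun hu h => by
    refine (h.div ((hasDerivAt_id' _).const_mul g) (mul_pos h0 hu).ne').congr_deriv ?_
    field_simp
  have cc : ∀ {f : ℝ → ℝ}, ContDiffOn ℝ 2 f (Ioi 0) →
      ContDiffOn ℝ 2 (fun z : ℝ × ℝ => f z.1 / (g * z.1)) {z | 0 < z.1} := fun h =>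
    (lin_cd h).div (by fun_prop) fun z hz => (mul_pos h0 hz).ne'
  refine ⟨⟨fun u p => (J u).x + (J u).K / g * (u - p),
    fun u p => -(J u).a / u + ((J u).K1 / u / g * (u - p) + (J u).K / g),
    fun u _ => -((J u).K / g), linY J g, linYu J g, linYq J g, η, x₀, hη, hx₀, ⟨?_, fun u p hu => ⟨?_, ?_⟩⟩,
    ⟨?_, fun u q hu => ⟨?_, ?_⟩⟩, fun u p hu hp => ?_, fun l hl => ?_,
    fun u p q M ι gx gy hu hp hq hM i0 i1 hx hy hxy => ?_,
    fun u q hu hq h => ?_, fun u q hu hq h => ?_, fun u q hu hq h => ?_, fun u q hu hq h => ?_,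
    fun u hu _ => ?_⟩⟩
  · exact (lin_cd cx).add (((lin_cd cK).div_const g).mul (by fun_prop))
  · refine ((dx u hu).add (((dK u hu).div_const g).mul
      ((hasDerivAt_id' u).sub_const p))).congr_deriv ?_
    ring
  · refine ((((hasDerivAt_id' p).const_sub u).const_mul _).const_add _).congr_deriv ?_
    ring
  · exact ((lin_cd cΨ).sub ((cc cL).mul (by fun_prop))).add ((cc cN).mul
      ((linO_cd h0).comp (by fun_prop)).contDiffOn)
  · refine (((dΨ u hu).sub ((dd hu (dL u hu)).mul ((hasDerivAt_id' u).sub_const q))).add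
      ((dd hu (dN u hu)).mul ((dO _).comp_sub_const u q))).congr_deriv ?_
    rw [linYu]
    ring
  · refine (((((hasDerivAt_id' q).const_sub u).const_mul _).const_sub _).add
      (((dO _).comp_const_sub u q).const_mul _)).congr_deriv ?_
    rw [linYq]
    ring
  · have := div_nonneg ((H u hu).hX (lin_le h0 h1 hu hp).1) h0.le
    rwa [add_div, mul_div_cancel_left₀ _ h0.ne', mul_div_right_comm] at this
  · have k1 : Tendsto (fun u : ℝ => u + √u) (𝓝[>] 0) (𝓝 0) := by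
      simpa using (show Continuous fun u : ℝ => u + √u by fun_prop).tendsto 0 |>.mono_left
        nhdsWithin_le_nhds
    have k2 := (lx.sub_const x₀).abs.add ((lK.div_const g).abs.mul k1)
    rw [sub_self, abs_zero, mul_zero, add_zero] at k2
    obtain ⟨u₀, k3, k4⟩ := (mem_nhdsGT_iff_exists_Ioc_subset).1 (k2.eventually_le_const hl)
    refine ⟨min u₀ 1, lt_min k3 one_pos, fun u p hu h hp => ?_⟩
    refine le_trans ?_ (k4 ⟨hu, h.trans (min_le_left _ _)⟩)
    have k5 : p ^ 2 ≤ u := by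
      rw [sg2] at hp
      linarith [mul_nonneg hu.le (mul_nonneg (show 0 ≤ 1 - 2 * g by linarith)
        (sub_nonneg.2 (h.trans (min_le_right _ _))))]
    have k6 : |u - p| ≤ u + √u := (abs_sub _ _).trans
      (add_le_add (abs_of_pos hu).le (Real.abs_le_sqrt k5))
    rw [show √u ^ m * ((J u).x + (J u).K / g * (u - p)) - x₀ =
      √u ^ m * (J u).x - x₀ + √u ^ m * (J u).K / g * (u - p) by ring]
    refine (abs_add_le _ _).trans (add_le_add le_rfl ?_)
    rw [abs_mul]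
    exact mul_le_mul_of_nonneg_left k6 (abs_nonneg _)
  · simp only [nB, linY, linO_eq h0 (lo hu hq), linO_eq h0 (lo hu hp)]
    rcases le_total q p with h | h
    · exact (H u hu).main (E1 u hu) (E3 u hu) hp hq hM i0 i1 hx hy hxy h
    · linarith [(H u hu).main (E1 u hu) (E3 u hu) hq hp (M := M) (by linarith) i0 i1 hy hx
        (by rwa [mul_comm q, mul_comm gy]) h]
  · have k1 := (lin_le h0 h1 hu hq).1
    obtain ⟨s, k2, k3⟩ := (H u hu).ray k1
    rw [lin_nD m J h0 hu (lo hu hq) (E2 u hu)]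
    exact mul_pos (div_pos (by linarith) (mul_pos h0 hu)) (pos_of_mul_pos_right ((mul_pos k2
      ((H u hu).small ((H u hu).lt_one k1 (by linarith))).r2).trans_le k3) (sq_nonneg _))
  · obtain ⟨s, k2, k3⟩ := (H u hu).ray (lin_le h0 h1 hu hq).1
    rw [lin_nD m J h0 hu (lo hu hq) (E2 u hu)]
    exact mul_nonpos_of_nonpos_of_nonneg (div_nonpos_of_nonpos_of_nonneg (by linarith)
      (mul_pos h0 hu).le) (nonneg_of_mul_nonneg_right ((mul_nonneg k2.le (H u hu).r2_nonneg).trans k3) (by positivity))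
  · obtain ⟨-, -, -, -, hLN, hN, hΨ, -, -⟩ := (H u hu).all
    have k1 : 0 ≤ (J u).L := by linarith
    have k2 := linR_pos h0 (u - q)
    have k3 := mul_nonpos_of_nonneg_of_nonpos (show 0 ≤ (J u).L / (g * u) by positivity)
      (sub_nonpos.2 h)
    have k4 : 0 ≤ (J u).N / (g * u) * linO g (u - q) := by
      rw [linO]
      positivity
    rw [linY]
    linarith
  · rw [linY, linO_eq h0 (lo hu hq)]
    exact (H u hu).yneg (by linarith)
  · simp only [linY, sub_self, linO, ne_eq, OfNat.ofNat_ne_zero, not_false_eq_true, zero_pow, zero_div,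
      mul_zero]
    linarith [E1 u hu, mul_div_cancel₀ (-(J u).a) hu.ne',
      congrArg (u * ·) (mul_div_cancel₀ (-(J u).a) hu.ne')]

end Vale.Agent.P219
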