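import Vale.Agent.P219.G.NCert

/-! Certificates with `X = χ + k (u - p)`, `Y = Ψ - Λ Q / g + n Q ^ 2 / (g (2 g + Q))`, `Q = u - q`:
reduction of the two main inequalities to inequalities in `(g, u)` only.  A jet holds the values
`x = χ`, `a = -u χ'`, `K = g k`, `K1 = u K'`, `Ψ`, `Ψ1 = u Ψ'`, `L = u Λ`, `L1 = u L'`, `N = u n`,
`N1 = u N'`. -/

namespace Vale.Agent.P219

/-- The values of the coefficient functions at a point. -/
structure LJet where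
  x : ℝ
  a : ℝ
  K : ℝ
  K1 : ℝ
  Ψ : ℝ
  Ψ1 : ℝ
  L : ℝ
  L1 : ℝ
  N : ℝ
  N1 : ℝ

/-- `sg2 g u / u`. -/
def hhq (g u : ℝ) : ℝ := 2 * g + (1 - 2 * g) * u

namespace LJet

variable (j : LJet) (m g u : ℝ)

def A : ℝ := -(j.K1 * hhq g u + j.K * ct g u)
def al : ℝ := (2 * (m + 1) * j.K + 4 * j.K1) * hhq g u + 2 * j.K * ct g u
def a1 : ℝ := 2 * j.a * hhq g u - 2 * j.K * (u + g * (1 - u)) - j.K * hhq g u
def b1 : ℝ := j.a1 g u - 2 * j.A g u * (1 - u)
def c0 : ℝ := j.x - hhq g u * j.Ψ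
def c1 : ℝ := (g * j.Ψ + j.L) * hhq g u - 2 * g * j.x
def bq : ℝ := j.a * hhq g u - g * j.x
def bz : ℝ := j.bq g u - 2 * j.K * (2 * u + g * (1 - u))
noncomputable def ap : ℝ := u * j.al m g u + 2 * j.L * g * hhq g u + j.N * (1 - u) * g * hhq g u -
  9 / 10 * j.N * u * hhq g u
def e2 : ℝ := (m + 2) * ct g u * (j.L - j.N) + hhq g u * (j.L1 - j.N1 - (j.L - j.N))
def n1 : ℝ := (m + 1) * ct g u * j.N + hhq g u * (j.N1 - j.N)
noncomputable def r2 : ℝ :=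
  (1 + u) ^ 2 * j.e2 m g u + 2 * ((1 + u) * (j.n1 m g u - j.N * u / 2) - j.N * u)

/-- The conditions for all `u`. -/
structure All (θ : ℝ) : Prop where
  hK : 0 ≤ j.K
  hA : 0 ≤ j.A g u
  hal : 0 ≤ j.al m g u
  g6 : 0 ≤ 2 * g * j.c0 g u + θ * j.c1 g u
  hLN : 0 ≤ j.L - j.N
  hN : 0 ≤ j.N
  hΨ : 0 ≤ j.Ψ
  yneg : 0 ≤ j.L * (2 * g + u) - j.N * u - g * j.Ψ * (2 * g + u)
  r1 : 0 ≤ j.e2 m g u

/-- The conditions for `1 ≤ u`. -/
structure Big (θ : ℝ) : Prop where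
  g4 : 0 ≤ j.a1 g u
  g5 : 0 ≤ j.c0 g u
  g7 : 0 ≤ 2 * θ * j.a * hhq g u + j.c1 g u
  r2 : 0 ≤ j.r2 m g u

/-- The conditions for `u < 1`. -/
structure Small (t θ : ℝ) : Prop where
  l1 : 0 ≤ j.x - j.K * (1 - u)
  hb1 : 0 ≤ j.b1 g u
  hbz : 0 ≤ j.bz g u
  l4 : 0 ≤ j.bq g u - j.A g u * (1 - u)
  c00 : 0 ≤ j.c0 g u - t ^ 2 * g * (1 - u) ^ 2 * j.bz g u
  c10 : 0 ≤ 2 * u * j.c0 g u - 2 * t ^ 2 * u * g * (1 - u) ^ 2 * j.bz g u -
    (j.c1 g u + 2 * j.K * u - 2 * t * g * (1 - u) * j.bz g u) * (1 - u)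
  c11 : 0 ≤ u * (2 * u * j.c0 g u - 2 * t ^ 2 * u * g * (1 - u) ^ 2 * j.bz g u -
    (2 * j.c1 g u + 2 * j.K * u - 4 * t * g * (1 - u) * j.bz g u) * (1 - u) +
      j.al m g u * (1 - u) ^ 2) + 2 * g ^ 2 * (1 - u) ^ 2 * j.x - 2 * j.A g u * g * (1 - u) ^ 3
  b01 : 0 ≤ 4 * g * j.c0 g u - 4 * t ^ 2 * g ^ 2 * (1 - u) ^ 2 * j.bz g u + θ * j.c1 g u
  b02 : 0 ≤ 2 * θ * j.bq g u + j.c1 g u
  b11 : 0 ≤ 2 * (2 * g * u * j.c0 g u - t ^ 2 * u * (g * (1 - u)) ^ 2 * j.bz g u -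
    (j.c1 g u + 2 * j.K * u - 2 * t * (g * (1 - u)) * j.bz g u) * (g * (1 - u))) +
      θ * u * (j.c1 g u - j.al m g u * (1 - u))
  b12 : 0 ≤ 2 * θ * (j.bq g u - j.A g u * (1 - u)) + j.c1 g u - j.al m g u * (1 - u)
  t1n : 0 ≤ 2 * g * (j.a * hhq g u - j.A g u * (1 - u)) - j.ap m g u
  t1m : 0 ≤ j.b1 g u * (2 * u + g * (1 - u)) - 2 * j.ap m g u * (1 - u)
  t2m : 0 ≤ 4 * u ^ 2 * hhq g u * j.L + (2 * u + g * (1 - u)) *
    (j.b1 g u * (2 * u + g * (1 - u)) - 2 * u * j.al m g u * (1 - u))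
  r2 : 0 < j.r2 m g u

/-- The quadratic and cubic terms. -/
noncomputable def TQ (P Q Z : ℝ) : ℝ :=
  u * j.al m g u * (P * Q) + j.A g u * ((P + Q) * (P * Q)) + g * hhq g u * j.a * (P ^ 2 + Q ^ 2) +
    g * j.K * (2 * u - (P + Q)) * ((P ^ 2 + Q ^ 2) / 2 + Z)

end LJet

theorem lin_lin {δ z e b : ℝ} (h : 0 < δ) (h0 : 0 ≤ z) (h1 : z ≤ δ) (he : 0 ≤ e)
    (hb : 0 ≤ e + b * δ) : 0 ≤ e + b * z := by
  refine nonneg_of_mul_nonneg_right ?_ h
  linarith [mul_nonneg (sub_nonneg.2 h1) he, mul_nonneg h0 hb]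

theorem lin_th {ρ x e b c : ℝ} (h : 0 < ρ) (hx : 0 ≤ x) (he : 0 ≤ e) (hb : 0 ≤ b)
    (h1 : 0 ≤ 2 * e + ρ * c) (h2 : 0 ≤ 2 * ρ * b + c) : 0 ≤ e + c * x + b * x ^ 2 := by
  rcases le_total 0 c with hc | hc
  · positivity
  · refine nonneg_of_mul_nonneg_right (a := 2 * ρ) ?_ (by positivity)
    linarith [mul_nonneg h.le h1, mul_nonneg h2 (sq_nonneg x),
      mul_nonneg (neg_nonneg.2 hc) (sq_nonneg (x - ρ))]

theorem lin_N {g z Q : ℝ} (hg : 0 < g) (h0 : 0 ≤ z) (h1 : z ≤ g) (hQ : 0 ≤ Q) :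
    9 / 10 * (z * Q) ≤ g * (Q ^ 2 / (2 * g + Q) + z ^ 2 / (2 * g - z)) := by
  have h2 : 0 < 2 * g - z := by linarith
  have h3 : 0 < g - 9 / 10 * z := by linarith
  rw [div_add_div _ _ (by positivity) h2.ne', mul_div_assoc', le_div_iff₀ (by positivity),
    ← sub_nonneg]
  refine nonneg_of_mul_nonneg_right (a := 4 * ((2 * g - z) * (g - 9 / 10 * z))) ?_ (by positivity)
  have h4 : 0 ≤ 76 / 25 * g ^ 2 - 56 / 25 * z * g - 16 / 25 * z ^ 2 := by nlinarith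
  linarith [sq_nonneg (2 * ((2 * g - z) * (g - 9 / 10 * z)) * Q - z * g * (18 / 5 * g - 14 / 5 * z)),
    mul_nonneg (sq_nonneg (z * g)) h4]

variable {j : LJet} {m g u t θ P Q Z : ℝ}

theorem lin_hh (h0 : 0 < g) (h1 : g ≤ 1 / 2) (hu : 0 < u) : 0 < hhq g u := by
  have : 0 ≤ 1 - 2 * g := by linarith
  rw [hhq]
  positivity

theorem lin_pos (h0 : 0 < g) (hK : 0 ≤ j.K) (hZ : 0 ≤ Z) (hs : P + Q ≤ 2 * u) :
    u * j.al m g u * (P * Q) + j.A g u * ((P + Q) * (P * Q)) +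
      g * hhq g u * j.a * (P ^ 2 + Q ^ 2) ≤ j.TQ m g u P Q Z := by
  have := sub_nonneg.2 hs
  exact le_add_of_nonneg_right (by positivity)

theorem lin_neg (h0 : 0 < g) (hh0 : 0 < hhq g u) (hK : 0 ≤ j.K)
    (hZ : Z ≤ 2 * (u * hhq g u)) (hs : 2 * u ≤ P + Q) (hs' : P + Q ≤ 4 * u + 2 * (g * (1 - u))) :
    u * j.al m g u * (P * Q) + j.A g u * ((P + Q) * (P * Q)) +
      g / 2 * j.a1 g u * (P ^ 2 + Q ^ 2) ≤ j.TQ m g u P Q Z := by
  have h1 := sub_nonneg.2 hs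
  have h2 := mul_le_mul_of_nonneg_left hZ (show 0 ≤ g * j.K * (P + Q - 2 * u) by positivity)
  have h3 := mul_le_mul_of_nonneg_left hs' (show 0 ≤ g * j.K * (P ^ 2 + Q ^ 2) by positivity)
  have h4 : 0 ≤ g * j.K * hhq g u * ((P - Q) ^ 2 + (P + Q - 4 * u) ^ 2) := by positivity
  rw [LJet.TQ, LJet.a1]
  linarith

/-- The standing hypotheses. -/
structure LinH (j : LJet) (m g u t θ : ℝ) : Prop where
  h0 : 0 < g
  h1 : g ≤ 1 / 2
  hu : 0 < u
  hθ : 0 < θ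
  all : j.All m g u θ
  big : 1 ≤ u → j.Big m g u θ
  small : u < 1 → j.Small m g u t θ

namespace LinH

variable (h : LinH j m g u t θ)
include h

theorem hh0 : 0 < hhq g u := lin_hh h.h0 h.h1 h.hu

theorem ha1 : 0 ≤ j.a1 g u := by
  rcases le_or_gt 1 u with hu | hu
  · exact (h.big hu).g4
  · have := (h.small hu).hb1
    rw [LJet.b1] at this
    linarith [mul_nonneg h.all.hA (sub_pos.2 hu).le]

theorem hδ : 0 < u + g * (1 - u) := by
  linarith [mul_pos h.hu (show 0 < 1 - g by linarith [h.h1]), h.h0]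

theorem ha : j.a1 g u ≤ 2 * j.a * hhq g u := by
  rw [LJet.a1]
  linarith [mul_nonneg h.all.hK h.hδ.le, mul_nonneg h.all.hK h.hh0.le]

theorem hc0 : 0 ≤ j.c0 g u := by
  rcases le_or_gt 1 u with hu | hu
  · exact (h.big hu).g5
  · have h1 := (h.small hu).hbz
    have h2 := h.h0
    exact le_trans (by positivity) (sub_nonneg.1 (h.small hu).c00)

theorem hx : 0 ≤ j.x := by
  have := h.hc0
  rw [LJet.c0] at this
  linarith [mul_nonneg h.hh0.le h.all.hΨ]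

theorem hg7 : 0 ≤ 2 * θ * j.a * hhq g u + j.c1 g u := by
  rcases le_or_gt 1 u with hu | hu
  · exact (h.big hu).g7
  · have := (h.small hu).b02
    rw [LJet.bq] at this
    linarith [mul_nonneg h.hθ.le (mul_nonneg h.h0.le h.hx)]

theorem lt_one (hP : -(g * (1 - u)) ≤ P) (h2 : P < 0) : u < 1 := by
  by_contra h3
  linarith [mul_nonneg h.h0.le (sub_nonneg.2 (not_lt.1 h3))]

theorem hX (hP : -(g * (1 - u)) ≤ P) : 0 ≤ g * j.x + j.K * P := by
  rcases le_or_gt 0 P with h2 | h2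
  · exact add_nonneg (mul_nonneg h.h0.le h.hx) (mul_nonneg h.all.hK h2)
  · linarith [mul_nonneg h.h0.le (h.small (h.lt_one hP h2)).l1,
      mul_le_mul_of_nonneg_left hP h.all.hK]

theorem one (hP : -(g * (1 - u)) ≤ P) (hPQ : P ≤ Q) (hs' : P + Q ≤ 4 * u + 2 * (g * (1 - u)))
    (hZ : 0 ≤ Z) (hZ' : Z ≤ 2 * (u * hhq g u)) :
    0 ≤ j.TQ m g u P Q Z + 2 * g * hhq g u * j.L * (P * Q) +
      g * hhq g u * j.N * (Q ^ 2 / (2 * g + Q) * (u - P) + P ^ 2 / (2 * g + P) * (u - Q)) := by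
  obtain ⟨hK, hA, hal, -, hLN, hN, -, -, -⟩ := h.all
  have h0 := h.h0
  have hu := h.hu
  have hh0 := h.hh0
  have ha1 := h.ha1
  have ha := h.ha
  have hL : 0 ≤ j.L := by linarith
  have hgu := mul_pos h0 hu
  have dP : 0 < 2 * g + P := by linarith
  have dQ : 0 < 2 * g + Q := by linarith
  have kp := lin_pos (j := j) (m := m) (u := u) (P := P) (Q := Q) h0 hK hZ
  have kn := fun hs => lin_neg (j := j) (m := m) (P := P) (Q := Q) h0 hh0 hK hZ' hs hs'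
  rcases le_or_gt 0 P with p0 | p0
  · have q0 : 0 ≤ Q := p0.trans hPQ
    have k1 : ∀ P Q : ℝ, 0 ≤ P → 0 ≤ Q → -(P * Q) ≤ Q ^ 2 / (2 * g + Q) * (u - P) := by
      intro P Q p0 q0
      have k2 : Q ^ 2 / (2 * g + Q) ≤ Q := by
        rw [div_le_iff₀ (by positivity)]
        linarith [mul_nonneg q0 h0.le]
      have k3 : 0 ≤ Q ^ 2 / (2 * g + Q) * u := by positivity
      linarith [mul_le_mul_of_nonneg_right k2 p0]
    have k2 := mul_le_mul_of_nonneg_left (add_le_add (k1 P Q p0 q0) (k1 Q P q0 p0))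
      (show 0 ≤ g * hhq g u * j.N by positivity)
    have k3 : 0 ≤ u * j.al m g u * (P * Q) + j.A g u * ((P + Q) * (P * Q)) +
      g / 2 * j.a1 g u * (P ^ 2 + Q ^ 2) + 2 * g * hhq g u * (j.L - j.N) * (P * Q) := by positivity
    have k4 := mul_le_mul_of_nonneg_left ha (show 0 ≤ g / 2 * (P ^ 2 + Q ^ 2) by positivity)
    rcases le_total (P + Q) (2 * u) with hs | hs
    · linarith [kp hs]
    · linarith [kn hs]
  have hu1 := h.lt_one hP p0
  have S := h.small hu1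
  have hv := sub_pos.2 hu1
  obtain ⟨z, rfl⟩ : ∃ z, P = -z := ⟨-P, by ring⟩
  have z0 : 0 ≤ z := by linarith
  have z1 : z ≤ g * (1 - u) := by linarith
  have hb1 := S.hb1
  have hb0 : 0 ≤ g * (j.a * hhq g u - j.A g u * (1 - u)) := by
    refine mul_nonneg h0.le ?_
    rw [LJet.b1] at hb1
    linarith
  rcases le_or_gt Q 0 with q0 | q0
  · obtain ⟨w, rfl⟩ : ∃ w, Q = -w := ⟨-Q, by ring⟩
    have w0 : 0 ≤ w := by linarith
    have k1 : 0 ≤ g * hhq g u * j.N * ((-w) ^ 2 / (2 * g + -w) * (u - -z) +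
        (-z) ^ 2 / (2 * g + -z) * (u - -w)) := by
      rw [sub_neg_eq_add, sub_neg_eq_add]
      positivity
    have k2 : 0 ≤ u * j.al m g u * (z * w) + 2 * g * hhq g u * j.L * (z * w) := by positivity
    have k3 := mul_le_mul_of_nonneg_left (show z + w ≤ 2 * (g * (1 - u)) by linarith)
      (show 0 ≤ j.A g u * (z * w) by positivity)
    have k4 : 0 ≤ j.A g u * (g * (1 - u)) * (z - w) ^ 2 := by positivity
    linarith [kp (by linarith), mul_nonneg hb0 (show 0 ≤ z ^ 2 + w ^ 2 by positivity)]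
  have k1 := mul_le_mul_of_nonneg_left (lin_N h0 z0 (by linarith) q0.le)
    (show 0 ≤ hhq g u * j.N * u by positivity)
  have k2 : z ^ 2 / (2 * g - z) ≤ (1 - u) * z := by
    rw [div_le_iff₀ (by linarith)]
    linarith [mul_le_mul_of_nonneg_left z1 z0, mul_le_mul_of_nonneg_left
      (show z ≤ g by linarith) (mul_nonneg hv.le z0)]
  have k3 := mul_le_mul_of_nonneg_left k2 (show 0 ≤ g * hhq g u * j.N * Q by positivity)
  have k4 : 0 ≤ g * hhq g u * j.N * (Q ^ 2 / (2 * g + Q) * z) := by positivity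
  have k5 := mul_le_mul_of_nonneg_left z1 (show 0 ≤ j.A g u * Q ^ 2 by positivity)
  have k6 : 0 ≤ j.A g u * (z ^ 2 * Q) + j.A g u * (g * (1 - u)) * z ^ 2 := by positivity
  rw [neg_sq, ← sub_eq_add_neg]
  rcases le_total (-z + Q) (2 * u) with hs | hs
  · have k7 := mul_nonneg S.t1n (mul_nonneg z0 q0.le)
    have k8 := mul_nonneg hb0 (sq_nonneg (z - Q))
    rw [LJet.ap] at k7
    linarith [kp hs]
  · have k7 := lin_lin (e := g / 2 * j.b1 g u * (2 * u)) (b := g / 2 * j.b1 g u - j.ap m g u)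
      (mul_pos h0 hv) z0 z1 (by positivity) (by linarith [mul_nonneg h0.le S.t1m])
    have k8 := mul_nonneg k7 q0.le
    have k9 := mul_le_mul_of_nonneg_left (show 2 * u + z ≤ Q by linarith)
      (show 0 ≤ g / 2 * j.b1 g u * Q by positivity)
    have k10 : 0 ≤ g / 2 * j.b1 g u * z ^ 2 := by positivity
    rw [LJet.ap] at k8
    rw [LJet.b1] at k8 k9 k10
    linarith [kn hs]

theorem two (hP : -(g * (1 - u)) ≤ P) (hPQ : P ≤ Q) (hs' : P + Q ≤ 4 * u + 2 * (g * (1 - u)))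
    (hZ : 0 ≤ Z) (hZ' : Z ≤ 2 * (u * hhq g u)) :
    0 ≤ j.TQ m g u P Q Z - 2 * g ^ 2 * u ^ 2 * hhq g u * j.Ψ +
      g * u * hhq g u * (g * j.Ψ + j.L) * (P + Q) +
        2 * g * |(u - P) * (u - Q)| * (g * j.x + j.K * P) := by
  obtain ⟨hK, hA, hal, g6, hLN, hN, hΨ, -, -⟩ := h.all
  have h0 := h.h0
  have hu := h.hu
  have hθ := h.hθ
  have hh0 := h.hh0
  have ha1 := h.ha1
  have hx := h.hx
  have hX := h.hX hP
  have hL : 0 ≤ j.L := by linarith
  have hgu := mul_pos h0 hu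
  rcases le_total (2 * u) (P + Q) with hs | hs
  · have kn := lin_neg (j := j) (m := m) h0 hh0 hK hZ' hs hs'
    have k1 : 0 ≤ 2 * g * |(u - P) * (u - Q)| * (g * j.x + j.K * P) := by positivity
    have k2 := mul_le_mul_of_nonneg_left hs (show 0 ≤ g ^ 2 * u * hhq g u * j.Ψ by positivity)
    suffices 0 ≤ u * j.al m g u * (P * Q) + j.A g u * ((P + Q) * (P * Q)) +
      g / 2 * j.a1 g u * (P ^ 2 + Q ^ 2) + g * u * hhq g u * j.L * (P + Q) by linarith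
    rcases le_or_gt 0 P with p0 | p0
    · have q0 : 0 ≤ Q := p0.trans hPQ
      positivity
    have hu1 := h.lt_one hP p0
    have S := h.small hu1
    have hv := sub_pos.2 hu1
    obtain ⟨z, rfl⟩ : ∃ z, P = -z := ⟨-P, by ring⟩
    have z0 : 0 ≤ z := by linarith
    have z1 : z ≤ g * (1 - u) := by linarith
    have q0 : 0 ≤ Q := by linarith
    have hb1 := S.hb1
    have hd : 0 < 2 * u + g * (1 - u) := by positivity
    have k3 := lin_lin (e := (2 * u + g * (1 - u)) * (g / 2 * j.b1 g u * (2 * u)) +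
      2 * g * u ^ 2 * hhq g u * j.L)
      (b := (2 * u + g * (1 - u)) * (g / 2 * j.b1 g u - u * j.al m g u))
      (mul_pos h0 hv) z0 z1 (by positivity) (by linarith [mul_nonneg h0.le S.t2m])
    have k4 : 2 * u * Q ≤ (2 * u + g * (1 - u)) * (-z + Q) := by
      linarith [mul_le_mul_of_nonneg_left (show 2 * u + z ≤ Q by linarith) (mul_pos h0 hv).le,
        mul_le_mul_of_nonneg_left z1 hu.le]
    have k5 := mul_le_mul_of_nonneg_left k4 (show 0 ≤ g * u * hhq g u * j.L by positivity)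
    have k6 : g / 2 * j.b1 g u * Q * (2 * u + z) ≤ j.A g u * ((-z + Q) * (-z * Q)) +
        g / 2 * j.a1 g u * ((-z) ^ 2 + Q ^ 2) := by
      have k7 := mul_le_mul_of_nonneg_left (show 2 * u + z ≤ Q by linarith)
        (show 0 ≤ g / 2 * j.b1 g u * Q by positivity)
      have k8 := mul_le_mul_of_nonneg_left z1 (show 0 ≤ j.A g u * Q ^ 2 by positivity)
      have k9 : 0 ≤ j.A g u * (z ^ 2 * Q) + g / 2 * j.a1 g u * z ^ 2 := by positivity
      rw [LJet.b1] at k7 ⊢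
      linarith
    refine nonneg_of_mul_nonneg_right ?_ hd
    linarith [mul_nonneg k3 q0, mul_le_mul_of_nonneg_left k6 hd.le]
  have kp := lin_pos (j := j) (m := m) h0 hK hZ hs
  have k0 := fun {c : ℝ} (hc : 0 ≤ c) =>
    mul_le_mul_of_nonneg_right (le_abs_self ((u - P) * (u - Q))) hc
  have ec0 : j.c0 g u = j.x - hhq g u * j.Ψ := rfl
  have ec1 : j.c1 g u = (g * j.Ψ + j.L) * hhq g u - 2 * g * j.x := rfl
  rcases le_or_gt 0 P with p0 | p0
  · have q0 : 0 ≤ Q := p0.trans hPQ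
    have hc0 := h.hc0
    have k1 := fun x (hx : 0 ≤ x) => lin_th (ρ := θ * u) (e := g ^ 2 * u ^ 2 * j.c0 g u)
      (b := g * hhq g u * j.a) (c := g * u * j.c1 g u) (by positivity) hx (by positivity)
      (by linarith [mul_le_mul_of_nonneg_left (ha1.trans h.ha) h0.le])
      (by linarith [mul_nonneg (show 0 ≤ g * u ^ 2 by positivity) g6])
      (by linarith [mul_nonneg hgu.le h.hg7])
    have k2 := k0 (show 0 ≤ 2 * g ^ 2 * j.x by positivity)
    have k3 : 0 ≤ u * j.al m g u * (P * Q) + j.A g u * ((P + Q) * (P * Q)) +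
      2 * g ^ 2 * j.x * (P * Q) + 2 * g * |(u - P) * (u - Q)| * (j.K * P) := by positivity
    have k4 := k1 P p0
    have k5 := k1 Q q0
    rw [ec0, ec1] at k4 k5
    linarith
  have hu1 := h.lt_one hP p0
  have S := h.small hu1
  have hv := sub_pos.2 hu1
  have hδ := mul_pos h0 hv
  obtain ⟨z, rfl⟩ : ∃ z, P = -z := ⟨-P, by ring⟩
  have z0 : 0 ≤ z := by linarith
  have z1 : z ≤ g * (1 - u) := by linarith
  have hbz := S.hbz
  have k1 := k0 (mul_nonneg (show 0 ≤ 2 * g by positivity) hX)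
  have k2 : (u - -z) * (u - Q) ≤ u ^ 2 + (2 * u + g * (1 - u)) * z := by
    linarith [mul_le_mul_of_nonneg_left hPQ (show 0 ≤ u + z by positivity),
      mul_le_mul_of_nonneg_left z1 z0]
  have k3 := mul_le_mul_of_nonneg_left k2 (show 0 ≤ 2 * g * j.K * z by positivity)
  have k4 := fun x : ℝ => mul_nonneg (mul_nonneg h0.le hbz) (sq_nonneg (x - t * u * (g * (1 - u))))
  have ebq : j.bq g u = j.a * hhq g u - g * j.x := rfl
  have ebz : j.bz g u = j.bq g u - 2 * j.K * (2 * u + g * (1 - u)) := rfl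
  have f00 := mul_nonneg (show 0 ≤ 2 * g ^ 2 * u ^ 2 by positivity) S.c00
  have f10 := mul_nonneg (show 0 ≤ g ^ 2 * u by positivity) S.c10
  suffices 0 ≤ 2 * g ^ 2 * u ^ 2 * j.c0 g u + g * u * j.c1 g u * (-z + Q) - 2 * g * j.K * u ^ 2 * z -
      (u * j.al m g u + 2 * g ^ 2 * j.x) * (z * Q) - j.A g u * ((-z + Q) * (z * Q)) +
      g * (j.bz g u + g * j.x) * z ^ 2 + g * (j.bq g u + g * j.x) * Q ^ 2 by
    rw [ebz, ebq, ec0, ec1] at this
    linarith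
  have hbq : 0 ≤ g * (j.bq g u - j.bz g u) := by
    rw [ebz, sub_sub_cancel]
    positivity
  rcases le_or_gt Q 0 with q0 | q0
  · obtain ⟨w, rfl⟩ : ∃ w, Q = -w := ⟨-Q, by ring⟩
    have w0 : 0 ≤ w := by linarith
    have w1 : w ≤ g * (1 - u) := by linarith
    have f11 := mul_nonneg (sq_nonneg g) S.c11
    have f01 : 0 ≤ 2 * g * j.K * u ^ 2 * (g * (1 - u)) := by positivity
    have k5 := lin_lin (e := 2 * g ^ 2 * u ^ 2 * j.c0 g u -
        2 * g * j.bz g u * (t * u * (g * (1 - u))) ^ 2 -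
        (g * u * j.c1 g u - 2 * g * j.bz g u * (t * u * (g * (1 - u)))) * w)
      (b := (u * j.al m g u + 2 * g ^ 2 * j.x - 2 * j.A g u * (g * (1 - u))) * w -
        (g * u * j.c1 g u + 2 * g * j.K * u ^ 2 - 2 * g * j.bz g u * (t * u * (g * (1 - u)))))
      hδ z0 z1 (by
        linarith [lin_lin (b := -(g * u * j.c1 g u - 2 * g * j.bz g u * (t * u * (g * (1 - u)))))
          hδ w0 w1 f00 (by linarith)]) (by
        linarith [lin_lin (b := (u * j.al m g u + 2 * g ^ 2 * j.x - 2 * j.A g u * (g * (1 - u))) *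
          (g * (1 - u)) - (g * u * j.c1 g u - 2 * g * j.bz g u * (t * u * (g * (1 - u)))))
          hδ w0 w1 f10 (by linarith)])
    have k6 := mul_le_mul_of_nonneg_left (show z + w ≤ 2 * (g * (1 - u)) by linarith)
      (show 0 ≤ j.A g u * (z * w) by positivity)
    have k7 : 0 ≤ g ^ 2 * j.x * (z ^ 2 + w ^ 2) := by positivity
    linarith [k4 z, k4 w, mul_nonneg hbq (sq_nonneg w)]
  have k5 : 0 ≤ g * j.bz g u * (t * u * (g * (1 - u))) ^ 2 := by positivity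
  have k6 := lin_th (ρ := θ * u) (e := 2 * g ^ 2 * u ^ 2 * j.c0 g u -
      g * j.bz g u * (t * u * (g * (1 - u))) ^ 2) (b := g * j.bq g u) (c := g * u * j.c1 g u)
    (by positivity) q0.le (by linarith) (by linarith [mul_nonneg h0.le hbz])
    (by linarith [mul_nonneg (show 0 ≤ g * u ^ 2 by positivity) S.b01])
    (by linarith [mul_nonneg hgu.le S.b02])
  have k7 := lin_th (ρ := θ * u) (e := 2 * g ^ 2 * u ^ 2 * j.c0 g u -
      g * j.bz g u * (t * u * (g * (1 - u))) ^ 2 - (g * u * j.c1 g u + 2 * g * j.K * u ^ 2 -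
        2 * g * j.bz g u * (t * u * (g * (1 - u)))) * (g * (1 - u)))
    (b := g * (j.bq g u - j.A g u * (1 - u))) (c := g * u * (j.c1 g u - j.al m g u * (1 - u)))
    (by positivity) q0.le (by linarith) (mul_nonneg h0.le S.l4)
    (by linarith [mul_nonneg hgu.le S.b11]) (by linarith [mul_nonneg hgu.le S.b12])
  have k8 := lin_lin (b := -(g * u * j.c1 g u + 2 * g * j.K * u ^ 2 -
      2 * g * j.bz g u * (t * u * (g * (1 - u)))) - u * j.al m g u * Q - j.A g u * Q ^ 2)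
    hδ z0 z1 k6 (by linarith)
  have k9 : 0 ≤ j.A g u * (z ^ 2 * Q) + g ^ 2 * j.x * (z - Q) ^ 2 := by positivity
  linarith [k4 z]

end LinH

end Vale.Agent.P219
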