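import Vale.Agent.P219.G.CertLin
import Vale.Agent.P237C.Chk

/-! Jets of the form `P (√u, g) / (√u ^ m (1 + √u) ^ b)` with integer polynomials `P`: all the
conditions of `ncert_lin` (with `t = T / 20`, `θ = Θ / 20`) are decided by a finite computation. -/

namespace Vale.Agent.P219

open Set Filter Topology Vale.Agent.P237C.Chk

/-- Integer polynomials in `r` (outer index) and `g`. -/
structure Pl where
  l : List (List ℤ)

namespace Pl

instance : Add Pl := ⟨fun a b => ⟨add2 a.l b.l⟩⟩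
instance : Mul Pl := ⟨fun a b => ⟨mul2 a.l b.l⟩⟩
instance : Neg Pl := ⟨fun a => ⟨sc (-1) a.l⟩⟩
instance : Sub Pl := ⟨fun a b => a + -b⟩
instance : NatCast Pl := ⟨fun n => ⟨[[n]]⟩⟩
instance (n : ℕ) : OfNat Pl n := ⟨(n : Pl)⟩

def pw (a : Pl) : ℕ → Pl
  | 0 => 1
  | n + 1 => a * pw a n

instance : Pow Pl ℕ := ⟨pw⟩

def g : Pl := ⟨[[0, 1]]⟩
def r : Pl := ⟨[[], [1]]⟩
def u : Pl := ⟨[[], [], [1]]⟩
def c : Pl := g + (1 - 2 * g) * u
def h : Pl := 2 * g + (1 - 2 * g) * u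

def der : List (List ℤ) → List (List ℤ)
  | [] => []
  | _ :: p => add2 p ([] :: der p)

/-- The value. -/
noncomputable def v (a : Pl) (x y : ℝ) : ℝ := ev2 a.l x y

variable (a b : Pl) (x y : ℝ)

theorem v_add : (a + b).v x y = a.v x y + b.v x y := ev_add ..
theorem v_mul : (a * b).v x y = a.v x y * b.v x y := ev_mul ..
theorem v_neg : (-a).v x y = -a.v x y := (ev_sc ..).trans (by simp [v])
theorem v_sub : (a - b).v x y = a.v x y - b.v x y :=
  (v_add a (-b) x y).trans (by rw [v_neg, sub_eq_add_neg])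
theorem v_cast (n : ℕ) : (n : Pl).v x y = n := by
  change ev2 [[(n : ℤ)]] x y = n
  simp [ev2, ev]
theorem v_nat (n : ℕ) [n.AtLeastTwo] : v (no_index (OfNat.ofNat n)) x y = OfNat.ofNat n :=
  v_cast x y n
theorem v_one : v 1 x y = 1 := (v_cast x y 1).trans Nat.cast_one
theorem v_pow (n : ℕ) : (a ^ n).v x y = a.v x y ^ n := by
  induction n with
  | zero => exact (v_one x y).trans (pow_zero _).symm
  | succ n ih => exact (v_mul a (a ^ n) x y).trans (by rw [ih, pow_succ'])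
theorem v_g : g.v x y = y := by simp [g, v, ev2, ev]
theorem v_r : r.v x y = x := by simp [r, v, ev2, ev]
theorem v_u : u.v x y = x ^ 2 := by simp [u, v, ev2, ev, sq]
theorem v_c : c.v x y = ct y (x ^ 2) := by
  simp [c, ct, v_add, v_mul, v_sub, v_nat, v_one, v_g, v_u]
theorem v_h : h.v x y = hhq y (x ^ 2) := by
  simp [h, hhq, v_add, v_mul, v_sub, v_nat, v_one, v_g, v_u]

theorem ev_der (p : List (List ℤ)) : HasDerivAt (fun x => ev2 p x y) (ev2 (der p) x y) x := by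
  induction p with
  | nil => exact hasDerivAt_const x 0
  | cons c p ih =>
    refine (((hasDerivAt_id' x).mul ih).const_add _).congr_deriv ?_
    simp [der, ev_add, ev2, ev]

theorem ev_cd (p : List (List ℤ)) : ContDiff ℝ 2 fun x => ev2 p x y := by
  induction p with
  | nil => exact contDiff_const
  | cons c p ih => exact contDiff_const.add (contDiff_id.mul ih)

theorem ev_rev (p : List (List ℤ)) {x z : ℝ} (h : x * z = 1) :
    ev2 p.reverse z y * x ^ p.length = x * ev2 p x y := by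
  have e : ∀ (p : List (List ℤ)) (c : List ℤ),
      ev2 (p ++ [c]) z y = ev2 p z y + z ^ p.length * ev c y := fun p c => by
    induction p with
    | nil => simp [ev2]
    | cons d p ih =>
      simp only [List.cons_append, ev2, ih, List.length_cons]
      ring
  induction p with
  | nil => simp [ev2]
  | cons c p ih =>
    have h2 : z ^ p.length * x ^ p.length = 1 := by rw [← mul_pow, mul_comm, h, one_pow]
    rw [List.reverse_cons, e, List.length_reverse, List.length_cons, ev2]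
    linear_combination x * ih + x * ev c y * h2

/-- Test for `0 < r ≤ 1`. -/
def ok0 (k : ℕ) (p : Pl) : Bool := chk k (tr (hf (tr p.l))) []

/-- Test for `1 ≤ r`. -/
def ok1 (k : ℕ) (p : Pl) : Bool := ok0 k ⟨p.l.reverse⟩

/-- Test for the zero polynomial. -/
def isz (p : Pl) : Bool := [p, -p].all fun p => p.l.all fun c => c.all fun a => decide (0 ≤ a)

variable {a x y} {k : ℕ}

theorem ok0_sound (h : ok0 k a = true) (x0 : 0 < x) (x1 : x ≤ 1) (y0 : 0 < y) (y1 : y ≤ 1 / 2) :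
    0 ≤ a.v x y := by
  have := chk_sound k h (x := x) (y := 2 * y) ⟨x0, x1⟩ ⟨by linarith, by linarith⟩ (by simp)
  rw [ev_tr] at this
  exact (hf_nonneg this).trans_eq (ev_tr ..)

theorem ok1_sound (h : ok1 k a = true) (x1 : 1 ≤ x) (y0 : 0 < y) (y1 : y ≤ 1 / 2) :
    0 ≤ a.v x y := by
  have x0 : 0 < x := by linarith
  have := mul_nonneg (ok0_sound h (inv_pos.2 x0) (inv_le_one_of_one_le₀ x1) y0 y1)
    (pow_pos x0 a.l.length).le
  exact nonneg_of_mul_nonneg_right (ev_rev y a.l (mul_inv_cancel₀ x0.ne') ▸ this) x0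

theorem isz_sound (h : isz a = true) (x0 : 0 ≤ x) (y0 : 0 ≤ y) : a.v x y = 0 := by
  simp only [isz, List.all_cons, List.all_nil, Bool.and_true, Bool.and_eq_true] at h
  exact le_antisymm (neg_nonneg.1 (v_neg a x y ▸ ev_nonneg h.2 x0 y0)) (ev_nonneg h.1 x0 y0)

/-- The function of `u`. -/
noncomputable def F (m n : ℕ) (y : ℝ) (a : Pl) (u : ℝ) : ℝ :=
  a.v √u y * (√u ^ m * (1 + √u) ^ n)⁻¹

/-- Vanishes if `F b = u (F a)'`. -/
def dz (m n : ℕ) (a b : Pl) : Pl :=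
  (1 + r) * r * ⟨der a.l⟩ - m * (1 + r) * a - n * r * a - 2 * (1 + r) * b

variable {m n : ℕ} {b : Pl} {s : ℝ}

theorem F_cd : ContDiffOn ℝ 2 (F m n y a) (Ioi 0) := fun s hs => by
  have h0 := Real.sqrt_pos.2 hs
  have h1 : ContDiffAt ℝ 2 (fun s => √s) s := Real.contDiffAt_sqrt (ne_of_gt hs)
  exact (((ev_cd y a.l).contDiffAt.comp s h1).mul (((h1.pow m).mul
    ((contDiffAt_const.add h1).pow n)).inv (by positivity))).contDiffWithinAt

theorem F_der (h : isz (dz m n a b) = true) (y0 : 0 ≤ y) (hs : 0 < s) :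
    HasDerivAt (F m n y a) (F m n y b s / s) s := by
  have h0 := Real.sqrt_pos.2 hs
  have h1 := Real.hasDerivAt_sqrt hs.ne'
  have hp : ∀ {f : ℝ → ℝ} {f' : ℝ} (n : ℕ), HasDerivAt f f' s → f s ≠ 0 →
      HasDerivAt (fun s => f s ^ n) (n * f s ^ n / f s * f') s := fun n h h' => by
    refine (h.fun_pow n).congr_deriv ?_
    cases n with
    | zero => simp
    | succ n => rw [Nat.add_sub_cancel, pow_succ, ← mul_assoc, mul_div_cancel_right₀ _ h']
  have h2 := isz_sound h h0.le y0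
  simp only [dz, v_add, v_mul, v_sub, v_nat, v_one, v_cast, v_r] at h2
  refine (((ev_der _ y a.l).comp s h1).mul (((hp m h1 h0.ne').mul (hp n (h1.const_add 1)
    (by positivity))).inv (show √s ^ m * (1 + √s) ^ n ≠ 0 by positivity))).congr_deriv ?_
  have h3 := Real.sq_sqrt hs.le
  simp only [F, v, Function.comp, Pi.mul_apply, Pi.inv_apply] at h2 ⊢
  generalize √s = x at h0 h2 h3
  subst h3
  field_simp
  linear_combination h2

theorem F_lim : Tendsto (fun s => √s ^ m * F m n y a s) (𝓝[>] 0) (𝓝 (a.v 0 y)) := by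
  have h : ContinuousAt (fun s : ℝ => ev2 a.l √s y * ((1 + √s) ^ n)⁻¹) 0 :=
    ((ev_cd y a.l).continuous.comp Real.continuous_sqrt).continuousAt.mul
      (ContinuousAt.inv₀ (by fun_prop) (by simp))
  refine Tendsto.congr' ?_ (by simpa [v] using h.tendsto.mono_left nhdsWithin_le_nhds)
  filter_upwards [self_mem_nhdsWithin] with s hs
  have h0 := Real.sqrt_pos.2 hs
  rw [F, v]
  field_simp

end Pl

/-- The numerators of a jet. -/
structure PJet where
  x : Pl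
  a : Pl
  K : Pl
  K1 : Pl
  Ψ : Pl
  Ψ1 : Pl
  L : Pl
  L1 : Pl
  N : Pl
  N1 : Pl

namespace PJet

open Pl

variable (j : PJet) (m n T Θ : ℕ)

def A : Pl := -(j.K1 * h + j.K * c)
def al : Pl := (2 * (m + 1) * j.K + 4 * j.K1) * h + 2 * j.K * c
def a1 : Pl := 2 * j.a * h - 2 * j.K * (u + g * (1 - u)) - j.K * h
def b1 : Pl := j.a1 - 2 * j.A * (1 - u)
def c0 : Pl := j.x - h * j.Ψ
def c1 : Pl := (g * j.Ψ + j.L) * h - 2 * g * j.x
def bq : Pl := j.a * h - g * j.x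
def bz : Pl := j.bq - 2 * j.K * (2 * u + g * (1 - u))
def ap : Pl := 10 * (u * j.al m + 2 * j.L * g * h + j.N * (1 - u) * g * h) - 9 * j.N * u * h
def e2 : Pl := (m + 2) * c * (j.L - j.N) + h * (j.L1 - j.N1 - (j.L - j.N))
def n1 : Pl := (m + 1) * c * j.N + h * (j.N1 - j.N)
def r2 : Pl := (1 + u) ^ 2 * j.e2 m + ((1 + u) * (2 * j.n1 m - j.N * u) - 2 * j.N * u)

def all : List Pl := [j.K, j.A, j.al m, 40 * g * j.c0 + Θ * j.c1, j.L - j.N, j.N, j.Ψ,
  j.L * (2 * g + u) - j.N * u - g * j.Ψ * (2 * g + u), j.e2 m]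

def big : List Pl := [j.a1, j.c0, 2 * Θ * j.a * h + 20 * j.c1, j.r2 m]

def small : List Pl := [j.x - j.K * (1 - u), j.b1, j.bz, j.bq - j.A * (1 - u),
  400 * j.c0 - T ^ 2 * g * (1 - u) ^ 2 * j.bz,
  400 * u * j.c0 - T ^ 2 * u * g * (1 - u) ^ 2 * j.bz -
    (200 * j.c1 + 400 * j.K * u - 20 * T * g * (1 - u) * j.bz) * (1 - u),
  u * (400 * u * j.c0 - T ^ 2 * u * g * (1 - u) ^ 2 * j.bz -
    (400 * j.c1 + 400 * j.K * u - 40 * T * g * (1 - u) * j.bz) * (1 - u) +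
      200 * j.al m * (1 - u) ^ 2) + 400 * g ^ 2 * (1 - u) ^ 2 * j.x - 400 * j.A * g * (1 - u) ^ 3,
  400 * g * j.c0 - T ^ 2 * g ^ 2 * (1 - u) ^ 2 * j.bz + 5 * Θ * j.c1,
  2 * Θ * j.bq + 20 * j.c1,
  800 * g * u * j.c0 - T ^ 2 * u * (g * (1 - u)) ^ 2 * j.bz -
    (400 * j.c1 + 800 * j.K * u - 40 * T * (g * (1 - u)) * j.bz) * (g * (1 - u)) +
      10 * Θ * u * (j.c1 - j.al m * (1 - u)),
  2 * Θ * (j.bq - j.A * (1 - u)) + 20 * (j.c1 - j.al m * (1 - u)),
  20 * g * (j.a * h - j.A * (1 - u)) - j.ap m,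
  5 * j.b1 * (2 * u + g * (1 - u)) - j.ap m * (1 - u),
  4 * u ^ 2 * h * j.L + (2 * u + g * (1 - u)) *
    (j.b1 * (2 * u + g * (1 - u)) - 2 * u * j.al m * (1 - u)),
  j.r2 m - r ^ n]

def zero (e : List ℤ) : List Pl := [dz m n j.x (-j.a), dz m n j.K j.K1, dz m n j.Ψ j.Ψ1,
  dz m n j.L j.L1, dz m n j.N j.N1,
  u * j.Ψ + m * j.x * (1 - 2 * u) - 2 * (1 - u) * j.a + ⟨[e]⟩ * (r ^ m * (1 + r) ^ n),
  (m + 1) * c * j.Ψ + h * j.Ψ1 - j.L,
  m * j.K * (1 - 2 * u) + 2 * (1 - u) * j.K1 + 2 * j.K * (1 - u) + m * j.x - 2 * j.a -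
    (g * j.Ψ + j.L)]

/-- The values. -/
noncomputable def ev (x y w : ℝ) : LJet :=
  ⟨j.x.v x y * w, j.a.v x y * w, j.K.v x y * w, j.K1.v x y * w, j.Ψ.v x y * w, j.Ψ1.v x y * w,
    j.L.v x y * w, j.L1.v x y * w, j.N.v x y * w, j.N1.v x y * w⟩

theorem ev_eq (x y w : ℝ) :
    (j.ev x y w).A y (x ^ 2) = j.A.v x y * w ∧ (j.ev x y w).al m y (x ^ 2) = (j.al m).v x y * w ∧
    (j.ev x y w).a1 y (x ^ 2) = j.a1.v x y * w ∧ (j.ev x y w).b1 y (x ^ 2) = j.b1.v x y * w ∧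
    (j.ev x y w).c0 y (x ^ 2) = j.c0.v x y * w ∧ (j.ev x y w).c1 y (x ^ 2) = j.c1.v x y * w ∧
    (j.ev x y w).bq y (x ^ 2) = j.bq.v x y * w ∧ (j.ev x y w).bz y (x ^ 2) = j.bz.v x y * w ∧
    (j.ev x y w).ap m y (x ^ 2) = (j.ap m).v x y * w / 10 ∧
    (j.ev x y w).e2 m y (x ^ 2) = (j.e2 m).v x y * w ∧
    (j.ev x y w).r2 m y (x ^ 2) = (j.r2 m).v x y * w := by
  simp only [LJet.r2, LJet.e2, LJet.n1, LJet.ap, LJet.bz, LJet.bq, LJet.c1, LJet.c0, LJet.b1,
    LJet.a1, LJet.al, LJet.A, r2, e2, n1, ap, bz, bq, c1, c0, b1, a1, al, A, ev, v_add, v_mul,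
    v_sub, v_neg, v_pow, v_nat, v_one, v_cast, v_g, v_u, v_c, v_h]
  refine ⟨?_, ?_, ?_, ?_, ?_, ?_, ?_, ?_, ?_, ?_, ?_⟩ <;> ring

variable {j m n T Θ} {k : ℕ}

theorem linH (hΘ : 0 < Θ) (a0 : (j.all m Θ).all (ok0 k) = true)
    (a1 : (j.all m Θ).all (ok1 k) = true) (hs : (j.small m n T Θ).all (ok0 k) = true)
    (hb : (j.big m Θ).all (ok1 k) = true) {x y w : ℝ} (x0 : 0 < x) (y0 : 0 < y) (y1 : y ≤ 1 / 2)
    (hw : 0 < w) : LinH (j.ev x y w) m y (x ^ 2) (T / 20) (Θ / 20) := by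
  obtain ⟨e1, e2, e3, e4, e5, e6, e7, e8, e9, e10, e11⟩ := j.ev_eq m x y w
  rw [List.all_eq_true] at a0 a1 hs hb
  refine ⟨y0, y1, by positivity, by positivity, ?_, fun h => ?_, fun h => ?_⟩
  · have H : ∀ p ∈ j.all m Θ, 0 ≤ p.v x y * w := fun p hp => mul_nonneg
      ((le_total x 1).elim (fun h => ok0_sound (a0 p hp) x0 h y0 y1)
        fun h => ok1_sound (a1 p hp) h y0 y1) hw.le
    simp only [all, List.forall_mem_cons, v_add, v_mul, v_sub, v_nat, v_cast, v_g, v_u] at H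
    obtain ⟨h1, h2, h3, h4, h5, h6, h7, h8, h9, -⟩ := H
    constructor <;> (try simp only [e1, e2, e5, e6, e10]) <;> (try simp only [ev]) <;> linarith
  · have H : ∀ p ∈ j.big m Θ, 0 ≤ p.v x y * w := fun p hp =>
      mul_nonneg (ok1_sound (hb p hp) (by nlinarith) y0 y1) hw.le
    simp only [big, List.forall_mem_cons, v_add, v_mul, v_nat, v_cast, v_h] at H
    obtain ⟨h1, h2, h3, h4, -⟩ := H
    constructor <;> simp only [e3, e5, e6, e11] <;> (try simp only [ev]) <;> linarith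
  · have H : ∀ p ∈ j.small m n T Θ, 0 ≤ p.v x y * w := fun p hp =>
      mul_nonneg (ok0_sound (hs p hp) x0 (by nlinarith) y0 y1) hw.le
    simp only [small, List.forall_mem_cons, v_add, v_mul, v_sub, v_pow, v_nat, v_one, v_cast, v_g,
      v_u, v_r, v_h] at H
    obtain ⟨h1, h2, h3, h4, h5, h6, h7, h8, h9, h10, h11, h12, h13, h14, h15, -⟩ := H
    have h16 : 0 < x ^ n * w := by positivity
    constructor <;> (try simp only [e1, e2, e4, e5, e6, e7, e8, e9, e11]) <;>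
      (try simp only [ev]) <;> linarith

end PJet

open Pl in
/-- The certificate from the finite computation. -/
theorem ncert_pl {j : PJet} {m n T Θ k : ℕ} {e : List ℤ} (hΘ : 0 < Θ)
    (a0 : (j.all m Θ).all (ok0 k) = true) (a1 : (j.all m Θ).all (ok1 k) = true)
    (hs : (j.small m n T Θ).all (ok0 k) = true) (hb : (j.big m Θ).all (ok1 k) = true)
    (hz : (j.zero m n e).all isz = true)
    (hp : [(⟨[e]⟩ : Pl) - 1, ⟨[j.x.l.headI]⟩ - 1].all (ok0 k) = true) {y : ℝ} (y0 : 0 < y)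
    (y1 : y ≤ 1 / 2) : Nonempty (NCert m y) := by
  simp only [PJet.zero, List.all_cons, List.all_nil, Bool.and_true, Bool.and_eq_true] at hz hp
  obtain ⟨z1, z2, z3, z4, z5, z6, z7, z8⟩ := hz
  have p1 := ok0_sound hp.1 one_pos le_rfl y0 y1
  have p2 := ok0_sound hp.2 one_pos le_rfl y0 y1
  have p3 : ∀ x, v ⟨[e]⟩ x y = ev e y := fun x => by simp [v, ev2]
  have p4 : v ⟨[j.x.l.headI]⟩ 1 y = j.x.v 0 y := by
    rw [v, v]
    cases j.x.l <;> simp [ev2, show ev default y = 0 from rfl]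
  simp only [v_sub, v_one, p3, p4] at p1 p2
  have E := fun {p : Pl} (h : isz p = true) (s : ℝ) => isz_sound h s.sqrt_nonneg y0.le
  refine ncert_lin (t := T / 20) (θ := Θ / 20) (η := ev e y) m
    (fun s => j.ev √s y (√s ^ m * (1 + √s) ^ n)⁻¹) (by linarith) (by linarith) (fun s hs' => ?_)
    F_cd F_cd F_cd F_cd F_cd (fun s hs => ?_) (fun s => F_der z2 y0.le) (fun s => F_der z3 y0.le)
    (fun s => F_der z4 y0.le) (fun s => F_der z5 y0.le) (fun s hs => ?_) (fun s hs => ?_)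
    (fun s hs => ?_) F_lim F_lim
  · have h0 := Real.sqrt_pos.2 hs'
    simpa only [Real.sq_sqrt hs'.le] using PJet.linH hΘ a0 a1 hs hb h0 y0 y1
      (w := (√s ^ m * (1 + √s) ^ n)⁻¹) (by positivity)
  · exact (F_der z1 y0.le hs).congr_deriv (by simp only [F, PJet.ev, v_neg, neg_mul])
  all_goals
    have h0 := Real.sqrt_pos.2 hs
    have h1 := mul_inv_cancel₀ (show √s ^ m * (1 + √s) ^ n ≠ 0 by positivity)
    have h6 := E z6 s
    have h7 := E z7 s
    have h8 := E z8 s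
    simp only [v_add, v_mul, v_sub, v_pow, v_nat, v_one, v_cast, v_g, v_u, v_r, v_c, v_h, p3,
      Real.sq_sqrt hs.le] at h6 h7 h8
    simp only [PJet.ev]
    generalize (√s ^ m * (1 + √s) ^ n)⁻¹ = w at h1 ⊢
  · linear_combination w * h6 - ev e y * h1
  · linear_combination (-w) * h7
  · linear_combination w * h8

end Vale.Agent.P219
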