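import Mathlib

/-! Integer polynomials in several variables as nested lists, and a subdivision test for their
nonnegativity on products of half lines and unit intervals. -/

namespace Vale.Agent.P219.Mp

open Set

section Gen

variable {α : Type}

noncomputable def zA (f : α → α → α) (p : List α) : List α → List α :=
  List.rec (fun q => q) (fun a p ih q => List.rec (a :: p) (fun b q _ => f a b :: ih q) q) p

noncomputable def mp {β : Type} (f : α → β) (p : List α) : List β :=
  List.rec [] (fun a _ ih => f a :: ih) p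

noncomputable def ml (f m : α → α → α) (z : α) (q p : List α) : List α :=
  List.rec [] (fun a _ ih => zA f (mp (m a) q) (z :: ih)) p

noncomputable def al (f : α → Bool) (p : List α) : Bool :=
  List.rec true (fun a _ ih => Bool.rec false ih (f a)) p

noncomputable def sh (f : α → α → α) (p : List α) : List α :=
  List.rec [] (fun c _ ih => zA f (c :: ih) ih) p

noncomputable def rv (f : α → α → α) (p : List α) : List α → List α :=
  List.rec (fun r => r) (fun c _ ih r => ih (zA f (c :: r) r)) p

noncomputable def sc (s : ℤ → α → α) (k : ℤ) (p : List α) : List α :=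
  List.rec (motive := fun _ => ℤ → List α) (fun _ => []) (fun c _ ih k => s k c :: ih (k + k)) p k

noncomputable def zc (z : α) (p : List α) : List (List α) → List (List α) :=
  List.rec (mp (z :: ·)) (fun a _ ih s => List.rec ([a] :: ih []) (fun r s _ => (a :: r) :: ih s) s) p

noncomputable def tr (z : α) (p : List (List α)) : List (List α) :=
  List.rec [] (fun c _ ih => zc z c ih) p

/-- The value of a list of coefficients. -/
noncomputable def eL (v : α → ℝ) : List α → ℝ → ℝ
  | [], _ => 0
  | c :: p, x => v c + x * eL v p x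

variable {v : α → ℝ} {f m : α → α → α} {z : α} {x y : ℝ}

theorem eL_zA (hf : ∀ a b, v (f a b) = v a + v b) (p q : List α) :
    eL v (zA f p q) x = eL v p x + eL v q x := by
  induction p generalizing q with
  | nil => exact (zero_add _).symm
  | cons a p ih =>
    cases q with
    | nil => exact (add_zero _).symm
    | cons b q =>
      change v (f a b) + x * eL v (zA f p q) x = _
      rw [hf, ih, eL, eL]
      ring

theorem eL_mp {β : Type} {w : β → ℝ} {g : α → β} {c : ℝ} (h : ∀ a, w (g a) = c * v a)
    (p : List α) : eL w (mp g p) x = c * eL v p x := by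
  induction p with
  | nil => exact (mul_zero _).symm
  | cons a p ih =>
    change w (g a) + x * eL w (mp g p) x = _
    rw [h, ih, eL]
    ring

theorem eL_ml (hf : ∀ a b, v (f a b) = v a + v b) (hm : ∀ a b, v (m a b) = v a * v b)
    (hz : v z = 0) (q p : List α) : eL v (ml f m z q p) x = eL v p x * eL v q x := by
  induction p with
  | nil => exact (zero_mul _).symm
  | cons a p ih =>
    change eL v (zA f (mp (m a) q) (z :: ml f m z q p)) x = _
    rw [eL_zA hf, eL_mp (hm a), eL, ih, hz, eL]
    ring

theorem eL_al {g : α → Bool} (h : ∀ a, g a = true → 0 ≤ v a) (hx : 0 ≤ x) {p : List α}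
    (hp : al g p = true) : 0 ≤ eL v p x := by
  induction p with
  | nil => exact le_rfl
  | cons a p ih =>
    change Bool.rec false (al g p) (g a) = true at hp
    cases h' : g a <;> rw [h'] at hp
    · exact absurd hp Bool.false_ne_true
    · exact add_nonneg (h a h') (mul_nonneg hx (ih hp))

theorem eL_sh (hf : ∀ a b, v (f a b) = v a + v b) (p : List α) :
    eL v (sh f p) x = eL v p (x + 1) := by
  induction p with
  | nil => rfl
  | cons a p ih =>
    change eL v (zA f (a :: sh f p) (sh f p)) x = _
    rw [eL_zA hf, eL, ih, eL]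
    ring

theorem eL_rv (hf : ∀ a b, v (f a b) = v a + v b) (h : x * (y + 1) = 1) (p r : List α) :
    x ^ p.length * eL v (rv f p r) y = eL v r y + x * eL v p x := by
  induction p generalizing r with
  | nil => simp [rv, eL]
  | cons a p ih =>
    have := ih (zA f (a :: r) r)
    rw [eL_zA hf, eL] at this
    change _ * eL v (rv f p (zA f (a :: r) r)) y = _
    rw [eL, List.length_cons]
    linear_combination x * this + eL v r y * h

theorem eL_sc {s : ℤ → α → α} (h : ∀ k a, v (s k a) = k * v a) (k : ℤ) (p : List α) :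
    eL v (sc s k p) x = k * eL v p (2 * x) := by
  induction p generalizing k with
  | nil => exact (mul_zero _).symm
  | cons a p ih =>
    change v (s k a) + x * eL v (sc s (k + k) p) x = _
    rw [h, ih, eL, Int.cast_add]
    ring

theorem eL_zc (hz : v z = 0) (c : List α) (r : List (List α)) :
    eL (eL v · x) (zc z c r) y = eL v c y + x * eL (eL v · x) r y := by
  induction c generalizing r with
  | nil => exact (eL_mp (v := (eL v · x)) (c := x) (fun a => by simp [eL, hz]) r).trans (zero_add _).symm
  | cons a c ih =>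
    cases r with
    | nil =>
      change v a + x * 0 + y * eL (eL v · x) (zc z c []) y = _
      simp [ih, eL]
    | cons b r =>
      change v a + x * eL v b x + y * eL (eL v · x) (zc z c r) y = _
      rw [ih, eL, eL]
      ring

theorem eL_tr (hz : v z = 0) (p : List (List α)) :
    eL (eL v · x) (tr z p) y = eL (eL v · y) p x := by
  induction p with
  | nil => rfl
  | cons a p ih => exact (eL_zc hz a (tr z p)).trans (by rw [ih, eL])

theorem eL_cont (p : List α) : Continuous (eL v p) := by
  induction p with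
  | nil => exact continuous_const
  | cons a p ih => exact continuous_const.add (continuous_id.mul ih)

theorem rv_sound (hf : ∀ a b, v (f a b) = v a + v b) {p : List α}
    (h : ∀ y, 0 ≤ y → 0 ≤ eL v (rv f p []) y) (h0 : 0 ≤ x) (h1 : x ≤ 1) : 0 ≤ eL v p x := by
  refine closure_minimal (s := Ioc 0 1) (t := {x | 0 ≤ eL v p x}) (fun x hx => ?_)
    (isClosed_le continuous_const (eL_cont p)) (by rw [closure_Ioc zero_ne_one]; exact ⟨h0, h1⟩)
  have h2 := hx.1
  have := eL_rv hf (x := x) (y := (1 - x) / x) (by field_simp; ring) p []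
  rw [eL, zero_add] at this
  exact nonneg_of_mul_nonneg_right (this ▸ mul_nonneg (pow_nonneg h2.le _)
    (h _ (div_nonneg (sub_nonneg.2 hx.2) h2.le))) h2

end Gen

/-- Polynomials in `n` variables. -/
def P : ℕ → Type
  | 0 => ℤ
  | n + 1 => List (P n)

noncomputable def add (n : ℕ) : P n → P n → P n :=
  Nat.rec (motive := fun n => P n → P n → P n) Int.add (fun _ ih => zA ih) n

def cst (k : ℤ) : ∀ n, P n
  | 0 => k
  | n + 1 => [cst k n]

def zero : ∀ n, P n
  | 0 => (0 : ℤ)
  | _ + 1 => []

noncomputable def sm (k : ℤ) (n : ℕ) : P n → P n :=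
  Nat.rec (motive := fun n => P n → P n) (Int.mul k) (fun _ ih => mp ih) n

noncomputable def mul (n : ℕ) : P n → P n → P n :=
  Nat.rec (motive := fun n => P n → P n → P n) Int.mul
    (fun n ih p q => ml (add n) ih (zero n) q p) n

noncomputable def nn (n : ℕ) : P n → Bool :=
  Nat.rec (motive := fun n => P n → Bool) (fun a => Int.rec (fun _ => true) (fun _ => false) a)
    (fun _ ih => al ih) n

def var : ℕ → ∀ n, P n
  | _, 0 => (0 : ℤ)
  | 0, n + 1 => [zero n, cst 1 n]
  | i + 1, n + 1 => [var i n]

noncomputable def rot (n : ℕ) : P (n + 1) → P (n + 1) :=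
  Nat.rec (motive := fun n => P (n + 1) → P (n + 1)) (fun p => p)
    (fun n ih p => mp ih (tr (zero n) p)) n

/-- The value. -/
noncomputable def ev : ∀ n, P n → List ℝ → ℝ
  | 0 => fun (a : ℤ) _ => a
  | n + 1 => fun p xs => eL (ev n · xs.tail) p xs.headI

theorem ev_add : ∀ n a b xs, ev n (add n a b) xs = ev n a xs + ev n b xs
  | 0, a, b, _ => Int.cast_add a b
  | n + 1, a, b, _ => eL_zA (fun a b => ev_add n a b _) a b

theorem ev_zero : ∀ n xs, ev n (zero n) xs = 0
  | 0, _ => Int.cast_zero
  | _ + 1, _ => rfl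

theorem ev_cst (k : ℤ) : ∀ n xs, ev n (cst k n) xs = k
  | 0, _ => rfl
  | n + 1, xs => by simp [ev, cst, eL, ev_cst k n]

theorem ev_sm (k : ℤ) : ∀ n a xs, ev n (sm k n a) xs = k * ev n a xs
  | 0, a, _ => Int.cast_mul k a
  | n + 1, a, _ => eL_mp (fun a => ev_sm k n a _) a

theorem ev_mul : ∀ n a b xs, ev n (mul n a b) xs = ev n a xs * ev n b xs
  | 0, a, b, _ => Int.cast_mul a b
  | n + 1, a, b, _ =>
    eL_ml (fun a b => ev_add n a b _) (fun a b => ev_mul n a b _) (ev_zero n _) b a

theorem ev_var : ∀ i n (xs : List ℝ), i < n → ev n (var i n) xs = xs.getI i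
  | 0, n + 1, xs, _ => by simp [ev, var, eL, ev_zero, ev_cst, List.getI_zero_eq_headI]
  | i + 1, n + 1, xs, h => by
    cases xs <;> simp [ev, var, eL, ev_var i n _ (Nat.lt_of_succ_lt_succ h)]

theorem ev_nn : ∀ n a (xs : List ℝ), (∀ x ∈ xs, 0 ≤ x) → nn n a = true → 0 ≤ ev n a xs
  | 0, Int.ofNat a, _, _, _ => Int.cast_nonneg (Int.natCast_nonneg a)
  | 0, Int.negSucc _, _, _, h => absurd h Bool.false_ne_true
  | n + 1, _, xs, hx, h =>
    eL_al (fun a => ev_nn n a _ fun x h => hx x (List.mem_of_mem_tail h))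
      (by cases xs <;> simp_all [show (default : ℝ) = 0 from rfl]) h

theorem ev_rot : ∀ n p (x : ℝ) (xs : List ℝ), xs.length = n →
    ev (n + 1) (rot n p) (xs ++ [x]) = ev (n + 1) p (x :: xs)
  | 0, _, _, [], _ => rfl
  | n + 1, p, x, _ :: xs, h =>
    (eL_mp (v := (ev (n + 1) · (x :: xs))) (c := 1) (fun a =>
      (ev_rot n a x xs (Nat.succ_injective h)).trans (one_mul _).symm) _).trans
      ((one_mul _).trans (eL_tr (v := (ev n · xs)) (ev_zero n _) p))

/-- The test; the digits of the second argument in base three are the instructions. -/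
noncomputable def chk (n : ℕ) : ℕ → ℕ → P (n + 1) → ℕ
  | 0, _, _ => 0
  | k + 1, t, p => if t % 3 = 0 then (if nn (n + 1) p then t / 3 else 0) else
      if t % 3 = 1 then chk n k (t / 3) (rot n p) else
        chk n k (chk n k (t / 3) (sc (sm · n) 1 (sh (add n) p))) (sc (sm · n) 1 (rv (add n) p []))

theorem chk_zero (n : ℕ) : ∀ k p, chk n k 0 p = 0
  | 0, _ => rfl
  | _ + 1, _ => by simp [chk]

theorem chk_sound (n : ℕ) : ∀ k t p, chk n k t p ≠ 0 → ∀ xs : List ℝ, xs.length = n + 1 →
    (∀ x ∈ xs, 0 ≤ x) → 0 ≤ ev (n + 1) p xs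
  | 0, _, _, h, _, _, _ => absurd rfl h
  | k + 1, t, p, h, x :: xs, hl, hx => by
    rw [chk] at h
    rw [List.forall_mem_cons] at hx
    have H : ∀ {t q}, chk n k t (sc (sm · n) 1 q) ≠ 0 → ∀ y, 0 ≤ y → 0 ≤ eL (ev n · xs) q y :=
      fun {t q} h y hy => by
        have := (chk_sound n k t _ h (y / 2 :: xs) hl
          (List.forall_mem_cons.2 ⟨by positivity, hx.2⟩)).trans_eq
            (eL_sc (fun k a => ev_sm k n a xs) 1 q)
        simpa [mul_div_cancel₀] using this
    split_ifs at h with h1 h2 h3
    · exact ev_nn _ _ _ (List.forall_mem_cons.2 hx) h2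
    · exact absurd rfl h
    · rw [← ev_rot n p x xs (Nat.succ_injective hl)]
      exact chk_sound n k _ _ h _ (by simpa using hl) (by simpa [or_imp, forall_and] using hx.symm)
    · rcases le_total 1 x with h4 | h4
      · refine (H (t := t / 3) (q := sh (add n) p) (fun h0 => h ((congrArg (chk n k · _) h0).trans
          (chk_zero ..))) (x - 1) (sub_nonneg.2 h4)).trans_eq ((eL_sh (fun a b => ev_add n a b xs) p).trans ?_)
        rw [sub_add_cancel]
        rfl
      · exact rv_sound (fun a b => ev_add n a b xs) (H h) hx.1 h4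

/-- The flagged variables are moved from the unit interval to the half line. -/
noncomputable def box (n : ℕ) : List Bool → P (n + 1) → P (n + 1)
  | [], p => p
  | b :: bs, p => box n bs (rot n (if b then rv (add n) p [] else p))

theorem box_sound (n : ℕ) : ∀ bs p, (∀ xs : List ℝ, xs.length = n + 1 → (∀ x ∈ xs, 0 ≤ x) →
    0 ≤ ev (n + 1) (box n bs p) xs) → ∀ xs ys : List ℝ,
      List.Forall₂ (fun b x => b = true → x ≤ 1) bs xs → (xs ++ ys).length = n + 1 →
        (∀ x ∈ xs ++ ys, 0 ≤ x) → 0 ≤ ev (n + 1) p (xs ++ ys)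
  | [], _, h, [], ys, _, hl, hx => h ys hl hx
  | b :: bs, p, h, x :: xs, ys, hb, hl, hx => by
    rw [List.forall₂_cons] at hb
    rw [List.cons_append, List.forall_mem_cons] at hx
    have H : ∀ y, 0 ≤ y → 0 ≤ ev (n + 1) (if b then rv (add n) p [] else p) (y :: (xs ++ ys)) :=
      fun y hy => by
        refine le_of_le_of_eq ?_ (ev_rot n _ y (xs ++ ys) (Nat.succ_injective hl))
        rw [List.append_assoc]
        refine box_sound n bs _ h xs _ hb.2 (by simpa [Nat.add_assoc] using hl) fun z hz => ?_
        rw [← List.append_assoc, List.mem_append, List.mem_singleton] at hz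
        exact hz.elim (hx.2 z) fun h => h ▸ hy
    cases b
    · exact H x hx.1
    · exact rv_sound (fun a b => ev_add n a b _) H hx.1 (hb.1 rfl)

/-- The ring of polynomials. -/
structure Pw (n : ℕ) where
  l : P n

namespace Pw

variable {n : ℕ}

noncomputable instance : Add (Pw n) := ⟨fun a b => ⟨add n a.l b.l⟩⟩
noncomputable instance : Mul (Pw n) := ⟨fun a b => ⟨mul n a.l b.l⟩⟩
noncomputable instance : Neg (Pw n) := ⟨fun a => ⟨sm (-1) n a.l⟩⟩
noncomputable instance : Sub (Pw n) := ⟨fun a b => a + -b⟩
instance (k : ℕ) : OfNat (Pw n) k := ⟨⟨cst k n⟩⟩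

def c (k : ℤ) : Pw n := ⟨cst k n⟩
def X (i : ℕ) : Pw n := ⟨var i n⟩

noncomputable def comp (r : Pw n) : List ℤ → Pw n
  | [] => ⟨zero n⟩
  | a :: p => c a + r * comp r p

/-- The value. -/
noncomputable def v (a : Pw n) (xs : List ℝ) : ℝ := ev n a.l xs

variable (a b : Pw n) (xs : List ℝ)

theorem v_add : (a + b).v xs = a.v xs + b.v xs := ev_add ..
theorem v_mul : (a * b).v xs = a.v xs * b.v xs := ev_mul ..
theorem v_neg : (-a).v xs = -a.v xs := (ev_sm ..).trans (by simp [v])
theorem v_sub : (a - b).v xs = a.v xs - b.v xs :=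
  (v_add a (-b) xs).trans (by rw [v_neg, sub_eq_add_neg])
theorem v_c (k : ℤ) : (c k : Pw n).v xs = k := ev_cst ..
theorem v_nat (k : ℕ) [k.AtLeastTwo] :
    v (n := n) (no_index (OfNat.ofNat k)) xs = OfNat.ofNat k := (ev_cst ..).trans (Int.cast_natCast k)
theorem v_one : v (n := n) 1 xs = 1 := (ev_cst ..).trans (by simp)
theorem v_X {i : ℕ} (h : i < n) : (X i : Pw n).v xs = xs.getI i := ev_var i n xs h
theorem v_comp (l : List ℤ) : (comp a l).v xs = eL Int.cast l (a.v xs) := by
  induction l with
  | nil => exact ev_zero ..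
  | cons k l ih => rw [comp, v_add, v_mul, v_c, ih, eL]

/-- The test. -/
noncomputable def ok (bs : List Bool) (p : Pw (n + 1)) (t : ℕ) : Bool := chk n 99 t (box n bs p.l) != 0

theorem ok_sound {bs : List Bool} {p : Pw (n + 1)} {t : ℕ} (h : ok bs p t = true) {xs : List ℝ}
    (hl : xs.length = n + 1) (h0 : ∀ x ∈ xs, 0 ≤ x)
    (h1 : List.Forall₂ (fun b x => b = true → x ≤ 1) bs xs) : 0 ≤ p.v xs := by
  simpa [v] using box_sound n bs p.l (chk_sound n 99 t _ (by simpa [ok] using h)) xs [] h1
    (by simpa using hl) (by simpa using h0)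

/-- A list of tests. -/
noncomputable def oks (bs : List Bool) : List (Pw (n + 1)) → List ℕ → Bool
  | [], _ => true
  | _ :: _, [] => false
  | p :: ps, t :: ts => ok bs p t && oks bs ps ts

theorem oks_sound {bs : List Bool} : ∀ {ps : List (Pw (n + 1))} {ts : List ℕ},
    oks bs ps ts = true → ∀ {xs : List ℝ}, xs.length = n + 1 → (∀ x ∈ xs, 0 ≤ x) →
      List.Forall₂ (fun b x => b = true → x ≤ 1) bs xs → ∀ p ∈ ps, 0 ≤ p.v xs
  | [], _, _, _, _, _, _ => by simp
  | p :: ps, t :: ts, h, _, hl, h0, h1 => by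
    rw [oks, Bool.and_eq_true] at h
    exact List.forall_mem_cons.2 ⟨ok_sound h.1 hl h0 h1, oks_sound h.2 hl h0 h1⟩

theorem oks_cons {bs : List Bool} {ps : List (Pw (n + 1))} {t : ℕ} {ts : List ℕ}
    (h1 : ok bs (ps.headD 0) t = true) (h2 : oks bs ps.tail ts = true) :
    oks bs ps (t :: ts) = true := by
  cases ps
  · rfl
  · exact Bool.and_eq_true_iff.2 ⟨h1, h2⟩

end Pw

end Vale.Agent.P219.Mp
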