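import Vale.Agent.P219.G.NCert

/-!
# Certificates with a non-radial flux field and the full linear algebra coupling

`Feas` records the linear algebra configuration at the two ends of a chord: `C` is the normalised
differential of the logarithm (after parallel transport), `A₁, A₂` are the Hessian excesses, `n` is
the direction of the chord and `e, f` are the unit normals.
-/

namespace Vale.Agent.P219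

open scoped RealInnerProductSpace
open Set

/-- The feasible values of the two-point quantities. -/
def Feas (m : ℕ) (a a' W W₂ ι gx gy : ℝ) : Prop :=
  ∃ (C A₁ A₂ : EuclideanSpace ℝ (Fin (m + 1)) →L[ℝ] EuclideanSpace ℝ (Fin (m + 1)))
    (n e f : EuclideanSpace ℝ (Fin (m + 1))), ‖n‖ = 1 ∧ ‖e‖ = 1 ∧ ‖f‖ = 1 ∧ C n = n ∧
    (∀ h, ⟪n, C h⟫ = ⟪n, h⟫) ∧ (∀ h, ‖C h‖ ≤ ‖h‖) ∧ C.det ≠ 0 ∧
    (∀ k h, 2 * ⟪k, h - C h⟫ ≤ ⟪A₁ k, k⟫ + ⟪A₂ h, h⟫) ∧ ⟪A₁ n, n⟫ = 0 ∧ ⟪A₂ n, n⟫ = 0 ∧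
    a = -⟪n, e⟫ ∧ a' = ⟪n, f⟫ ∧ ι = |C.det| ∧ W = ⟪e, C f⟫ + a * a' ∧
    W₂ = ι * (⟪C.inverse e, f⟫ + a * a') ∧
    gx = LinearMap.trace ℝ _ A₁.toLinearMap - ⟪A₁ e, e⟫ ∧
    gy = LinearMap.trace ℝ _ A₂.toLinearMap - ⟪A₂ f, f⟫

/-- The divergence of the flux field. -/
def nD2 (m : ℕ) (γ : ℝ) (Y Yu Yq R Ru Rq : ℝ → ℝ → ℝ) (u q : ℝ) : ℝ :=
  nD m γ Y Yu Yq u q + (m + 1) * (1 - 2 * γ) * q * R u q + ct γ u * q * Ru u q +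
    (γ ^ 2 + (1 - 2 * γ) * q ^ 2) * Rq u q

/-- The radial component of the flux field. -/
noncomputable def nφ (m : ℕ) (γ : ℝ) (Y R : ℝ → ℝ → ℝ) (u q : ℝ) : ℝ :=
  √(sg2 γ u) ^ (m + 1) * Y u q + √(sg2 γ u) ^ (m - 1) * ct γ u * q * R u q

/-- A certificate. -/
structure NCert2 (m : ℕ) (γ : ℝ) where
  X : ℝ → ℝ → ℝ
  Xu : ℝ → ℝ → ℝ
  Xp : ℝ → ℝ → ℝ
  Y : ℝ → ℝ → ℝ
  Yu : ℝ → ℝ → ℝ
  Yq : ℝ → ℝ → ℝ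
  R : ℝ → ℝ → ℝ
  Ru : ℝ → ℝ → ℝ
  Rq : ℝ → ℝ → ℝ
  η : ℝ
  x₀ : ℝ
  η_pos : 0 < η
  x₀_pos : 0 < x₀
  derX : Der2 X Xu Xp
  derY : Der2 Y Yu Yq
  derR : Der2 R Ru Rq
  X_nonneg : ∀ u p, 0 < u → p ^ 2 ≤ sg2 γ u → 0 ≤ X u p
  sing : ∀ l : ℝ, 0 < l → ∃ u₀ : ℝ, 0 < u₀ ∧ ∀ u p, 0 < u → u ≤ u₀ → p ^ 2 ≤ sg2 γ u →
    |√u ^ m * X u p - x₀| ≤ l
  main : ∀ u σ a a' W W₂ ι gx gy : ℝ, 0 < u → 0 < σ → σ ^ 2 = sg2 γ u → Feas m a a' W W₂ ι gx gy →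
    0 ≤ nB m γ X Xu Xp u (σ * a) (σ * a') (ct γ u * a * a' - γ * W) +
      nB m γ X Xu Xp u (σ * a') (σ * a) (ct γ u * a * a' - γ * W) +
      γ * (2 * η + ι * (Y u (σ * a') * (σ * a) + Y u (σ * a) * (σ * a')) +
        (R u (σ * a') + R u (σ * a)) * (ι * ct γ u * a * a' - γ * W₂) +
        X u (σ * a) * gy + X u (σ * a') * gx)
  ray_pos : ∀ u q, 0 < u → q ^ 2 ≤ sg2 γ u → u < q → 0 < nD2 m γ Y Yu Yq R Ru Rq u q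
  ray_neg : ∀ u q, 0 < u → q ^ 2 ≤ sg2 γ u → q ≤ u → nD2 m γ Y Yu Yq R Ru Rq u q ≤ 0
  near : ∃ B : ℝ, ∀ l : ℝ, 0 < l → ∃ u₀ : ℝ, 0 < u₀ ∧ ∀ u q, 0 < u → u ≤ u₀ → q ^ 2 ≤ sg2 γ u →
    |nφ m γ Y R u q| ≤ B ∧ (0 ≤ q → -l ≤ nφ m γ Y R u q) ∧ (q ≤ 0 → nφ m γ Y R u q ≤ l)
  model : ∀ u, 0 < u → u < 1 →
    m * X u u * (1 - 2 * u) + 2 * u * (1 - u) * (Xu u u + Xp u u) + η + u * Y u u +
      (u - γ) * R u u ≤ 0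

end Vale.Agent.P219
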