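import Vale.Agent.P219.G.NCert2

/-!
# Certificates that also use the barycentre inequality

For a stationary domain the mean of `min u u₁` over pairs of boundary points is at least `1 / 2`
(`Bary*.lean`) as soon as `BaryOK m γ u₁` holds.
-/

namespace Vale.Agent.P219

open scoped RealInnerProductSpace
open Set

/-- The truncation level `u₁` is admissible. -/
def BaryOK (m : ℕ) (γ u₁ : ℝ) : Prop :=
  ∃ (k : ℕ) (l : ℝ), 2 * k ≤ m ∧ 0 ≤ l ∧ (1 + l) ^ 2 ≤ u₁ ∧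
    ∀ x : ℝ, 1 ≤ x → x ^ 2 - 1 ≤ 2 * (1 - 2 * γ) * l * x ^ (k + 1)

/-- A certificate. -/
structure NCert3 (m : ℕ) (γ : ℝ) where
  X : ℝ → ℝ → ℝ
  Xu : ℝ → ℝ → ℝ
  Xp : ℝ → ℝ → ℝ
  Y : ℝ → ℝ → ℝ
  Yu : ℝ → ℝ → ℝ
  Yq : ℝ → ℝ → ℝ
  R : ℝ → ℝ → ℝ
  Ru : ℝ → ℝ → ℝ
  Rq : ℝ → ℝ → ℝ
  η : ℝ
  x₀ : ℝ
  μ : ℝ
  u₁ : ℝ
  η_pos : 0 < η
  x₀_pos : 0 < x₀
  μ_nonneg : 0 ≤ μ
  bary : μ = 0 ∨ BaryOK m γ u₁
  derX : Der2 X Xu Xp
  derY : Der2 Y Yu Yq
  derR : Der2 R Ru Rq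
  X_nonneg : ∀ u p, 0 < u → p ^ 2 ≤ sg2 γ u → 0 ≤ X u p
  sing : ∀ l : ℝ, 0 < l → ∃ u₀ : ℝ, 0 < u₀ ∧ ∀ u p, 0 < u → u ≤ u₀ → p ^ 2 ≤ sg2 γ u →
    |√u ^ m * X u p - x₀| ≤ l
  main : ∀ u σ a a' W W₂ ι gx gy : ℝ, 0 < u → 0 < σ → σ ^ 2 = sg2 γ u → Feas m a a' W W₂ ι gx gy →
    0 ≤ nB m γ X Xu Xp u (σ * a) (σ * a') (ct γ u * a * a' - γ * W) +
      nB m γ X Xu Xp u (σ * a') (σ * a) (ct γ u * a * a' - γ * W) +
      γ * (2 * η + μ * (1 - 2 * min u u₁) +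
        ι * (Y u (σ * a') * (σ * a) + Y u (σ * a) * (σ * a')) +
        (R u (σ * a') + R u (σ * a)) * (ι * ct γ u * a * a' - γ * W₂) +
        X u (σ * a) * gy + X u (σ * a') * gx)
  ray_pos : ∀ u q, 0 < u → q ^ 2 ≤ sg2 γ u → u < q → 0 < nD2 m γ Y Yu Yq R Ru Rq u q
  ray_neg : ∀ u q, 0 < u → q ^ 2 ≤ sg2 γ u → q ≤ u → nD2 m γ Y Yu Yq R Ru Rq u q ≤ 0
  near : ∃ B : ℝ, ∀ l : ℝ, 0 < l → ∃ u₀ : ℝ, 0 < u₀ ∧ ∀ u q, 0 < u → u ≤ u₀ → q ^ 2 ≤ sg2 γ u →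
    |nφ m γ Y R u q| ≤ B ∧ (0 ≤ q → -l ≤ nφ m γ Y R u q) ∧ (q ≤ 0 → nφ m γ Y R u q ≤ l)
  model : ∀ u, 0 < u → u < 1 →
    m * X u u * (1 - 2 * u) + 2 * u * (1 - u) * (Xu u u + Xp u u) + η + μ * (1 - 2 * u) / 2 +
      u * Y u u + (u - γ) * R u u ≤ 0

/-- A certificate that does not use the barycentre inequality. -/
def NCert2.to3 {m : ℕ} {γ : ℝ} (N : NCert2 m γ) : NCert3 m γ :=
  { N with
    μ := 0
    u₁ := 1
    μ_nonneg := le_rfl
    bary := Or.inl rfl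
    main := fun u σ a a' W W₂ ι gx gy h1 h2 h3 h4 => by
      simpa only [zero_mul, add_zero] using N.main u σ a a' W W₂ ι gx gy h1 h2 h3 h4
    model := fun u h1 h2 => by simpa only [zero_mul, zero_div, add_zero] using N.model u h1 h2 }

/-- The cubic patch `max (1 - 1 / u) 0 ^ 3`, which vanishes for `u ≤ 1`. -/
noncomputable def patch (u : ℝ) : ℝ := max (1 - u⁻¹) 0 ^ 3

theorem hasDerivAt_max3 (t : ℝ) : HasDerivAt (fun s : ℝ => max s 0 ^ 3) (3 * max t 0 ^ 2) t := by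
  rcases lt_trichotomy t 0 with h | rfl | h
  · rw [max_eq_right h.le]
    refine (hasDerivAt_const t (0 : ℝ)).congr_of_eventuallyEq ?_ |>.congr_deriv (by simp)
    filter_upwards [Iio_mem_nhds h] with s hs
    rw [max_eq_right (le_of_lt hs)]
    simp
  · rw [hasDerivAt_iff_isLittleO_nhds_zero]
    simp only [zero_add, max_self, ne_eq, OfNat.ofNat_ne_zero, not_false_eq_true, zero_pow,
      sub_zero, mul_zero, smul_zero]
    refine Asymptotics.IsBigO.trans_isLittleO (Asymptotics.IsBigO.of_bound' (Filter.Eventually.of_forall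
      fun s => ?_)) (Asymptotics.isLittleO_pow_id (𝕜 := ℝ) (n := 3) (by norm_num))
    rw [norm_pow, norm_pow]
    gcongr
    rcases le_total s 0 with h | h
    · simp [max_eq_right h]
    · rw [max_eq_left h]
  · rw [max_eq_left h.le]
    refine ((hasDerivAt_id t).pow 3).congr_of_eventuallyEq ?_ |>.congr_deriv (by simp)
    filter_upwards [Ioi_mem_nhds h] with s hs
    rw [max_eq_left (le_of_lt hs)]
    rfl

theorem hasDerivAt_max2 (t : ℝ) : HasDerivAt (fun s : ℝ => max s 0 ^ 2) (2 * max t 0) t := by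
  rcases lt_trichotomy t 0 with h | rfl | h
  · rw [max_eq_right h.le]
    refine (hasDerivAt_const t (0 : ℝ)).congr_of_eventuallyEq ?_ |>.congr_deriv (by simp)
    filter_upwards [Iio_mem_nhds h] with s hs
    rw [max_eq_right (le_of_lt hs)]
    simp
  · rw [hasDerivAt_iff_isLittleO_nhds_zero]
    simp only [zero_add, max_self, ne_eq, OfNat.ofNat_ne_zero, not_false_eq_true, zero_pow,
      sub_zero, mul_zero, smul_zero]
    refine Asymptotics.IsBigO.trans_isLittleO (Asymptotics.IsBigO.of_bound' (Filter.Eventually.of_forall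
      fun s => ?_)) (Asymptotics.isLittleO_pow_id (𝕜 := ℝ) (n := 2) (by norm_num))
    rw [norm_pow, norm_pow]
    gcongr
    rcases le_total s 0 with h | h
    · simp [max_eq_right h]
    · rw [max_eq_left h]
  · rw [max_eq_left h.le]
    refine ((hasDerivAt_id t).pow 2).congr_of_eventuallyEq ?_ |>.congr_deriv (by simp)
    filter_upwards [Ioi_mem_nhds h] with s hs
    rw [max_eq_left (le_of_lt hs)]
    rfl

theorem contDiff_max3 : ContDiff ℝ 2 fun s : ℝ => max s 0 ^ 3 := by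
  have h2 : ContDiff ℝ 1 fun s : ℝ => max s 0 ^ 2 := by
    rw [contDiff_one_iff_deriv]
    refine ⟨fun t => (hasDerivAt_max2 t).differentiableAt, ?_⟩
    rw [show deriv (fun s : ℝ => max s 0 ^ 2) = fun t => 2 * max t 0 from
      funext fun t => (hasDerivAt_max2 t).deriv]
    fun_prop
  rw [show (2 : WithTop ℕ∞) = 1 + 1 from rfl, contDiff_succ_iff_deriv]
  refine ⟨fun t => (hasDerivAt_max3 t).differentiableAt, by simp, ?_⟩
  rw [show deriv (fun s : ℝ => max s 0 ^ 3) = fun t => 3 * max t 0 ^ 2 from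
    funext fun t => (hasDerivAt_max3 t).deriv]
  exact contDiff_const.mul h2

theorem contDiffOn_patch : ContDiffOn ℝ 2 patch (Ioi 0) :=
  contDiff_max3.comp_contDiffOn (contDiffOn_const.sub (contDiffOn_id.inv fun _ h => ne_of_gt h))

theorem hasDerivAt_patch {u : ℝ} (hu : 0 < u) :
    HasDerivAt patch (3 * max (1 - u⁻¹) 0 ^ 2 * (u ^ 2)⁻¹) u :=
  ((hasDerivAt_max3 _).comp u ((hasDerivAt_inv hu.ne').const_sub 1)).congr_deriv (by simp)

end Vale.Agent.P219
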